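import Vale.Agent.Lib.P329.Basic

namespace Vale.Agent.Lib.P329

open Language

/-! ### finite-valued statistics -/

/-- `Meas k F`: every fibre of the statistic `F` has generalized star height at most `k` -/
def Meas {α β : Type} (k : ℕ) (F : List α → β) : Prop := ∀ b, Hk k (ofPred fun w => F w = b)

namespace Meas

variable {α β γ : Type} {k : ℕ}

theorem pred [Finite β] {F : List α → β} (hF : Meas k F) (P : β → Prop) :
    Hk k (ofPred fun w => P (F w)) := by
  classical
  have := Fintype.ofFinite β
  have h := Hk.finUnion (k := k) ((Finset.univ : Finset β).filter P)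
    (fun b => ofPred fun w => F w = b) (fun b _ => hF b)
  refine h.congr ?_
  intro w
  constructor
  · intro hw
    have hw0 : P (F w) := hw
    exact ⟨F w, by simpa using hw0, rfl⟩
  · rintro ⟨b, hb, hw⟩
    have hw' : F w = b := hw
    show P (F w)
    rw [hw']
    simpa using hb

theorem comp [Finite β] {F : List α → β} (hF : Meas k F) (g : β → γ) :
    Meas k (fun w => g (F w)) := fun c => hF.pred (fun b => g b = c)

theorem prod {F : List α → β} {F' : List α → γ} (hF : Meas k F) (hF' : Meas k F') :
    Meas k (fun w => (F w, F' w)) := by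
  intro b
  refine ((hF b.1).inf (hF' b.2)).congr ?_
  intro w
  constructor
  · intro hw
    have hw' : (F w, F' w) = b := hw
    exact Language.mem_inf.mpr ⟨by rw [← hw']; rfl, by rw [← hw']; rfl⟩
  · intro hw
    obtain ⟨h1, h2⟩ := Language.mem_inf.mp hw
    exact Prod.ext h1 h2

theorem pi {ι : Type} [Finite ι] {β : ι → Type} {F : ∀ i, List α → β i} (hF : ∀ i, Meas k (F i)) :
    Meas k (fun w => fun i => F i w) := by
  classical
  have := Fintype.ofFinite ι
  intro b
  have h := Hk.finInter (k := k) (Finset.univ : Finset ι) (fun i => ofPred fun w => F i w = b i)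
    (fun i _ => hF i (b i))
  refine h.congr ?_
  intro w
  constructor
  · intro hw i _
    have hw' : (fun i => F i w) = b := hw
    show F i w = b i
    rw [← hw']
  · intro hw
    funext i
    exact hw i (Finset.mem_univ i)

theorem congr {F F' : List α → β} (hF : Meas k F) (h : ∀ w, F' w = F w) : Meas k F' := by
  intro b
  refine (hF b).congr ?_
  intro w
  show F' w = b ↔ F w = b
  rw [h w]

/-- residues modulo `n`, as elements of `ZMod n` -/
theorem of_mod {F : List α → ℕ} (n : ℕ) (hF : ∀ r, Hk k (ofPred fun w => F w % n = r)) :
    Meas k (fun w => (F w : ZMod n)) := by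
  intro b
  rcases Nat.eq_zero_or_pos n with rfl | hn
  · -- `ZMod 0 = ℤ`
    by_cases hb : ∃ r : ℕ, ((r : ℕ) : ZMod 0) = b
    · obtain ⟨r, rfl⟩ := hb
      refine (hF r).congr ?_
      intro w
      show ((F w : ℕ) : ZMod 0) = ((r : ℕ) : ZMod 0) ↔ F w % 0 = r
      rw [Nat.mod_zero]
      exact (Nat.cast_injective (R := ℤ)).eq_iff
    · refine Hk.zero.congr ?_
      intro w
      exact ⟨fun hw => absurd ⟨F w, hw⟩ hb, fun hw => absurd hw (Language.notMem_zero _)⟩
  · have : NeZero n := ⟨by omega⟩
    refine (hF b.val).congr ?_
    intro w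
    show ((F w : ℕ) : ZMod n) = b ↔ F w % n = b.val
    constructor
    · intro hw
      rw [← hw, ZMod.val_natCast]
    · intro hw
      rw [← ZMod.natCast_zmod_val b, ← hw, ZMod.natCast_mod]

end Meas

/-! ### inverse images under alphabetic morphisms (letters go to letters or are erased) -/

section pullback

variable {α Γ : Type} (π : α → Option Γ)

/-- the inverse image of a language under the morphism erasing or renaming letters -/
def pb (L : Language Γ) : Language α := ofPred fun w => w.filterMap π ∈ L

theorem filterMap_eq_nil_iff' (w : List α) : w.filterMap π = [] ↔ ∀ x ∈ w, π x = none := by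
  induction w with
  | nil => simp
  | cons x w ih =>
    cases hx : π x with
    | none => simp [hx, ih]
    | some b => simp [hx]

theorem filterMap_eq_append (w : List α) : ∀ (u v : List Γ), w.filterMap π = u ++ v →
    ∃ w1 w2, w = w1 ++ w2 ∧ w1.filterMap π = u ∧ w2.filterMap π = v := by
  induction w with
  | nil =>
    intro u v h
    simp only [List.filterMap_nil] at h
    have h' := List.append_eq_nil_iff.mp h.symm
    exact ⟨[], [], rfl, by simp [h'.1], by simp [h'.2]⟩
  | cons x w ih =>
    intro u v h
    cases hx : π x with
    | none =>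
      rw [List.filterMap_cons, hx] at h
      obtain ⟨w1, w2, rfl, h1, h2⟩ := ih u v h
      exact ⟨x :: w1, w2, rfl, by rw [List.filterMap_cons, hx]; exact h1, h2⟩
    | some b =>
      rw [List.filterMap_cons, hx] at h
      cases u with
      | nil =>
        exact ⟨[], x :: w, rfl, rfl, by rw [List.filterMap_cons, hx]; exact h⟩
      | cons b' u =>
        simp only [List.cons_append, List.cons.injEq] at h
        obtain ⟨rfl, h⟩ := h
        obtain ⟨w1, w2, rfl, h1, h2⟩ := ih u v h
        exact ⟨x :: w1, w2, rfl, by rw [List.filterMap_cons, hx, h1], h2⟩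

theorem pb_mul (L M : Language Γ) : pb π (L * M) = pb π L * pb π M := by
  ext w
  constructor
  · intro hw
    obtain ⟨u, hu, v, hv, e⟩ := Language.mem_mul.mp hw
    obtain ⟨w1, w2, rfl, h1, h2⟩ := filterMap_eq_append π w u v e.symm
    refine Language.append_mem_mul ?_ ?_
    · show w1.filterMap π ∈ L
      rw [h1]; exact hu
    · show w2.filterMap π ∈ M
      rw [h2]; exact hv
  · intro hw
    obtain ⟨w1, h1, w2, h2, rfl⟩ := Language.mem_mul.mp hw
    show (w1 ++ w2).filterMap π ∈ L * M
    rw [List.filterMap_append]
    exact Language.append_mem_mul h1 h2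

theorem pb_pow (L : Language Γ) (j : ℕ) : pb π (L ^ (j + 1)) = pb π L ^ (j + 1) := by
  induction j with
  | zero => simp
  | succ j ih => rw [pow_succ, pb_mul, ih, ← pow_succ]

theorem pb_one : pb π (1 : Language Γ) = starOf {x | π x = none} := by
  ext w
  exact filterMap_eq_nil_iff' π w

theorem pb_kstar (L : Language Γ) :
    pb π (KStar.kstar L) = starOf {x | π x = none} + KStar.kstar (pb π L) := by
  ext w
  rw [Language.mem_add]
  constructor
  · intro hw
    have hw' : w.filterMap π ∈ KStar.kstar L := hw
    rw [Language.kstar_eq_iSup_pow, Language.mem_iSup] at hw'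
    obtain ⟨j, hj⟩ := hw'
    cases j with
    | zero =>
      left
      rw [← pb_one]
      rw [pow_zero] at hj
      exact hj
    | succ j =>
      right
      rw [Language.kstar_eq_iSup_pow, Language.mem_iSup]
      refine ⟨j + 1, ?_⟩
      rw [← pb_pow]
      exact hj
  · rintro (hw | hw)
    · rw [← pb_one] at hw
      have hw' : w.filterMap π ∈ (1 : Language Γ) := hw
      show w.filterMap π ∈ KStar.kstar L
      rw [(Language.mem_one _).mp hw']
      exact Language.nil_mem_kstar L
    · rw [Language.kstar_eq_iSup_pow, Language.mem_iSup] at hw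
      obtain ⟨j, hj⟩ := hw
      show w.filterMap π ∈ KStar.kstar L
      rw [Language.kstar_eq_iSup_pow, Language.mem_iSup]
      cases j with
      | zero =>
        rw [pow_zero, Language.mem_one] at hj
        subst hj
        exact ⟨0, by rw [pow_zero]; rfl⟩
      | succ j =>
        rw [← pb_pow] at hj
        exact ⟨j + 1, hj⟩

theorem pb_letter (b : Γ) : pb π ({[b]} : Language Γ) =
    starOf {x | π x = none} * letters {x | π x = some b} * starOf {x | π x = none} := by
  ext w
  constructor
  · intro hw
    have hw' : w.filterMap π = [b] := hw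
    induction w with
    | nil => simp at hw'
    | cons x w ih =>
      cases hx : π x with
      | none =>
        rw [List.filterMap_cons, hx] at hw'
        obtain ⟨u, hu, v, hv, e⟩ := Language.mem_mul.mp (ih hw' hw')
        obtain ⟨u1, hu1, u2, hu2, rfl⟩ := Language.mem_mul.mp hu
        subst e
        refine Language.mem_mul.mpr ⟨x :: u1 ++ u2, Language.mem_mul.mpr ⟨x :: u1, ?_, u2, hu2, rfl⟩,
          v, hv, by simp⟩
        intro y hy
        rcases List.mem_cons.mp hy with rfl | hy
        · exact hx
        · exact hu1 y hy
      | some b' =>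
        rw [List.filterMap_cons, hx] at hw'
        simp only [List.cons.injEq] at hw'
        obtain ⟨rfl, hw'⟩ := hw'
        refine Language.mem_mul.mpr ⟨[x], Language.mem_mul.mpr ⟨[], ?_, [x], ⟨x, hx, rfl⟩, rfl⟩,
          w, (filterMap_eq_nil_iff' π w).mp hw', rfl⟩
        intro y hy
        simp at hy
  · intro hw
    obtain ⟨u, hu, v, hv, rfl⟩ := Language.mem_mul.mp hw
    obtain ⟨u1, hu1, u2, ⟨x, hx, rfl⟩, rfl⟩ := Language.mem_mul.mp hu
    show ((u1 ++ [x]) ++ v).filterMap π = [b]
    have hx' : π x = some b := hx
    rw [List.filterMap_append, List.filterMap_append, (filterMap_eq_nil_iff' π u1).mpr hu1,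
      (filterMap_eq_nil_iff' π v).mpr hv]
    simp [hx']

theorem Hk_pb_aux [Finite α] (P : GRE Γ) : Hk P.sh (pb π P.lang) := by
  induction P with
  | zero =>
    refine Hk.zero.congr ?_
    intro w
    exact Iff.rfl
  | one =>
    show Hk _ (pb π 1)
    rw [pb_one]
    exact Hk_starOf _ _
  | letter b =>
    show Hk _ (pb π {[b]})
    rw [pb_letter]
    exact ((Hk_starOf _ _).mul (Hk_letters _ _)).mul (Hk_starOf _ _)
  | union P Q ihP ihQ =>
    refine ((ihP.mono (le_max_left _ _)).add (ihQ.mono (le_max_right _ _))).congr ?_
    intro w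
    exact Iff.rfl
  | cat P Q ihP ihQ =>
    show Hk _ (pb π (P.lang * Q.lang))
    rw [pb_mul]
    exact (ihP.mono (le_max_left _ _)).mul (ihQ.mono (le_max_right _ _))
  | neg P ih =>
    refine ih.compl.congr ?_
    intro w
    exact Iff.rfl
  | star P ih =>
    show Hk _ (pb π (KStar.kstar P.lang))
    rw [pb_kstar]
    exact (Hk_starOf _ _).add ih.star

/-- generalized star height does not increase under inverse alphabetic morphisms -/
theorem Hk.pb [Finite α] {k : ℕ} {L : Language Γ} (hL : Hk k L) : Hk k (pb π L) := by
  obtain ⟨P, hP, rfl⟩ := hL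
  exact (Hk_pb_aux π P).mono hP

end pullback

/-! ### left quotients -/

section quotient

variable {α : Type}

/-- the left quotient by a letter -/
def lq (a : α) (L : Language α) : Language α := ofPred fun w => a :: w ∈ L

theorem lq_mul (a : α) (L M : Language α) :
    lq a (L * M) = lq a L * M + (ofPred (fun _ => [] ∈ L) ⊓ lq a M) := by
  ext w
  rw [Language.mem_add]
  constructor
  · intro hw
    obtain ⟨u, hu, v, hv, e⟩ := Language.mem_mul.mp hw
    cases u with
    | nil =>
      right
      simp only [List.nil_append] at e
      subst e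
      exact Language.mem_inf.mpr ⟨hu, hv⟩
    | cons b u =>
      left
      simp only [List.cons_append, List.cons.injEq] at e
      obtain ⟨rfl, rfl⟩ := e
      exact Language.append_mem_mul hu hv
  · rintro (hw | hw)
    · obtain ⟨u, hu, v, hv, rfl⟩ := Language.mem_mul.mp hw
      exact Language.mem_mul.mpr ⟨a :: u, hu, v, hv, rfl⟩
    · obtain ⟨h1, h2⟩ := Language.mem_inf.mp hw
      exact Language.mem_mul.mpr ⟨[], h1, a :: w, h2, rfl⟩

theorem lq_kstar (a : α) (L : Language α) : lq a (KStar.kstar L) = lq a L * KStar.kstar L := by
  ext w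
  constructor
  · intro hw
    obtain ⟨S, hS, hne⟩ := Language.mem_kstar_iff_exists_nonempty.mp hw
    cases S with
    | nil => simp at hS
    | cons y S =>
      have hy := hne y (by simp)
      cases y with
      | nil => exact absurd rfl hy.2
      | cons b y =>
        simp only [List.flatten_cons, List.cons_append, List.cons.injEq] at hS
        obtain ⟨rfl, rfl⟩ := hS
        refine Language.append_mem_mul hy.1 ?_
        exact Language.join_mem_kstar (fun z hz => (hne z (by simp [hz])).1)
  · intro hw
    obtain ⟨u, hu, v, hv, rfl⟩ := Language.mem_mul.mp hw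
    obtain ⟨S, rfl, hS⟩ := Language.mem_kstar.mp hv
    show a :: (u ++ S.flatten) ∈ KStar.kstar L
    have : a :: (u ++ S.flatten) = ((a :: u) :: S).flatten := by simp
    rw [this]
    refine Language.join_mem_kstar ?_
    intro z hz
    rcases List.mem_cons.mp hz with rfl | hz
    · exact hu
    · exact hS z hz

theorem Hk_constP (k : ℕ) (c : Prop) : Hk k (ofPred (fun _ : List α => c)) := by
  by_cases hc : c
  · refine Hk.top.congr ?_
    intro w
    exact ⟨fun _ => trivial, fun _ => hc⟩
  · refine Hk.zero.congr ?_
    intro w
    exact ⟨fun h => absurd h hc, fun h => absurd h (Language.notMem_zero w)⟩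

theorem Hk_lq_aux (a : α) (P : GRE α) : Hk P.sh (lq a P.lang) := by
  classical
  induction P with
  | zero =>
    refine Hk.zero.congr ?_
    intro w
    exact Iff.rfl
  | one =>
    refine Hk.zero.congr ?_
    intro w
    constructor
    · intro hw
      have : a :: w = [] := hw
      simp at this
    · intro hw
      exact absurd hw (Language.notMem_zero _)
  | letter b =>
    by_cases hb : a = b
    · subst hb
      refine Hk.one.congr ?_
      intro w
      constructor
      · intro hw
        have : a :: w = [a] := hw
        simpa using this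
      · intro hw
        have : w = [] := hw
        subst this
        rfl
    · refine Hk.zero.congr ?_
      intro w
      constructor
      · intro hw
        have : a :: w = [b] := hw
        simp only [List.cons.injEq] at this
        exact absurd this.1 hb
      · intro hw
        exact absurd hw (Language.notMem_zero _)
  | union P Q ihP ihQ =>
    refine ((ihP.mono (le_max_left _ _)).add (ihQ.mono (le_max_right _ _))).congr ?_
    intro w
    exact Iff.rfl
  | cat P Q ihP ihQ =>
    show Hk _ (lq a (P.lang * Q.lang))
    rw [lq_mul]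
    refine ((ihP.mono (le_max_left _ _)).mul ⟨Q, le_max_right _ _, rfl⟩).add
      ((Hk_constP _ _).inf (ihQ.mono (le_max_right _ _)))
  | neg P ih =>
    refine ih.compl.congr ?_
    intro w
    exact Iff.rfl
  | star P ih =>
    show Hk _ (lq a (KStar.kstar P.lang))
    rw [lq_kstar]
    exact (ih.mono (Nat.le_succ _)).mul ⟨GRE.star P, le_rfl, rfl⟩

theorem Hk.lq {k : ℕ} {L : Language α} (hL : Hk k L) (a : α) : Hk k (lq a L) := by
  obtain ⟨P, hP, rfl⟩ := hL
  exact (Hk_lq_aux a P).mono hP

/-- generalized star height does not increase under left quotients by words -/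
theorem Hk.lqWord {k : ℕ} (z : List α) : ∀ {L : Language α}, Hk k L →
    Hk k (ofPred fun w => z ++ w ∈ L) := by
  induction z with
  | nil => intro L hL; exact hL
  | cons a z ih =>
    intro L hL
    exact ih (hL.lq a)

end quotient

end Vale.Agent.Lib.P329
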