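import Vale.Agent.Lib.P329.Ident
import Vale.Agent.Lib.P329.Closure

namespace Vale.Agent.Lib.P329

open Language

section core

variable {p : ℕ} [Fact p.Prime] {Γ : Type} [Finite Γ] (v : Γ → ZMod p) (c : Γ)

theorem meas_vis {nxt : BL → Option (ZMod p) → BL}
    (hnc : ∀ u x, PP (fam v c nxt) hub u x → fact v c nxt u x = x) (n : ℕ) :
    Meas 1 (fun w : List Γ => (vis v c nxt w : ZMod n)) :=
  Meas.of_mod n (fun r => visits_H1 (fam v c nxt) hub (CF_of_noCycle _ _ hnc) n r)

theorem meas_fin {nxt : BL → Option (ZMod p) → BL}
    (hnc : ∀ u x, PP (fam v c nxt) hub u x → fact v c nxt u x = x) :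
    Meas 1 (fun w : List Γ => fin v c nxt w) :=
  fun q => final_H1 (fam v c nxt) hub (CF_of_noCycle _ _ hnc) q

/-- counting a letter of nonzero phase at phase zero, no neutral letters -/
theorem meas_cnt0_core (hv : ∀ a, v a ≠ 0) (n : ℕ) [NeZero n] :
    Meas 1 (fun w : List Γ => (cnt0 v c 0 w : ZMod n)) := by
  have m0 := meas_vis v c (noCycleV v c) n
  have m1 := meas_vis v c (noCycleV1 v c hv) n
  have m2 := meas_vis v c (noCycleV2 v c) n
  have mS : Meas 1 (fun w : List Γ => fun e : ZMod p => (vis v c (nxtS e) w : ZMod n)) :=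
    Meas.pi (fun e => meas_vis v c (noCycleS v c e hv) n)
  have f0 := meas_fin v c (noCycleV v c)
  have f2 := meas_fin v c (noCycleV2 v c)
  have mAll := ((m0.prod m1).prod (m2.prod mS)).prod (f0.prod f2)
  have := mAll.comp (fun x : ((ZMod n × ZMod n) × (ZMod n × (ZMod p → ZMod n))) × (St p × St p) =>
    3 * x.1.1.1 + (∑ e : ZMod p, x.1.2.2 e) + (cur x.2.1 : ZMod n) - x.1.1.2
      - ((p : ZMod n) + 2) * x.1.2.1 - (pend x.2.2 : ZMod n))
  refine this.congr ?_
  intro w
  have h := congrArg (fun k : ℕ => (k : ZMod n)) (ident v c hv w).1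
  simp only [Nat.cast_add, Nat.cast_mul, Nat.cast_sum, Nat.cast_ofNat] at h
  simp only
  linear_combination h

end core

/-! ### neutral letters -/

section neutral

variable {p : ℕ} [Fact p.Prime] {α : Type} (v : α → ZMod p)

open Classical in
/-- number of nonempty prefixes of phase zero -/
noncomputable def zer : ZMod p → List α → ℕ
  | _, [] => 0
  | θ, a :: w => (if θ + v a = 0 then 1 else 0) + zer (θ + v a) w

theorem visits_eq_zer (c : α) (w : List α) : ∀ x : St p,
    visits (fam v c nxtV) hub x w = zer v x.2.2 w := by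
  classical
  induction w with
  | nil => intro x; simp [visits_nil, zer]
  | cons a w ih =>
    intro x
    obtain ⟨b, ic, θ⟩ := x
    rw [visits_cons, ih, fam_phase, zer]
    congr 1
    by_cases ha : θ + v a = 0
    · rw [hub_iff_done v c ha]
      simp [nxtV, ha]
    · rw [hub_iff_cont v c ha]
      simp [ha]

open Classical in
/-- erase the letter `x` -/
noncomputable def eraseL (x : α) : α → Option α := fun a => if a = x then none else some a

theorem zer_erase {x : α} (hx : v x = 0) (w : List α) : ∀ θ : ZMod p,
    zer v θ w = cnt0 v x θ w + zer v θ (w.filterMap (eraseL x)) := by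
  classical
  induction w with
  | nil => intro θ; simp [zer, cnt0_nil]
  | cons a w ih =>
    intro θ
    by_cases ha : a = x
    · subst ha
      rw [zer, cnt0_cons, ih, List.filterMap_cons]
      simp [eraseL, hx]
      omega
    · rw [zer, cnt0_cons, ih, List.filterMap_cons]
      simp only [eraseL, ha, if_false, false_and, zero_add, zer]
      omega

theorem Meas.pullback {α Γ β : Type} [Finite α] {k : ℕ} {F : List Γ → β} (hF : Meas k F)
    (π : α → Option Γ) : Meas k (fun w : List α => F (w.filterMap π)) :=
  fun b => (hF b).pb π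

theorem Meas.quot {α β : Type} {k : ℕ} {F : List α → β} (hF : Meas k F) (z : List α) :
    Meas k (fun w : List α => F (z ++ w)) :=
  fun b => (hF b).lqWord z

variable [Finite α]

theorem meas_zer (n : ℕ) : Meas 1 (fun w : List α => (zer v 0 w : ZMod n)) := by
  by_cases hne : Nonempty α
  · obtain ⟨c⟩ := hne
    refine (meas_vis v c (noCycleV v c) n).congr ?_
    intro w
    rw [vis, visits_eq_zer]
    rfl
  · intro b
    have hw : ∀ w : List α, w = [] := by
      intro w
      cases w with
      | nil => rfl
      | cons a _ => exact absurd ⟨a⟩ hne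
    refine (Hk_constP 1 (((zer v 0 ([] : List α) : ℕ) : ZMod n) = b)).congr ?_
    intro w
    rw [hw w]
    exact Iff.rfl

theorem meas_cnt0_neutral {x : α} (hx : v x = 0) (n : ℕ) [NeZero n] :
    Meas 1 (fun w : List α => (cnt0 v x 0 w : ZMod n)) := by
  have m1 := meas_zer v n
  have m2 := (meas_zer v n).pullback (eraseL x)
  have := (m1.prod m2).comp (fun y : ZMod n × ZMod n => y.1 - y.2)
  refine this.congr ?_
  intro w
  have h := congrArg (fun k : ℕ => (k : ZMod n)) (zer_erase v hx w 0)
  simp only [Nat.cast_add] at h
  simp only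
  linear_combination -h

open Classical in
/-- erase the neutral letters -/
noncomputable def dropN : α → Option {a : α // v a ≠ 0} :=
  fun a => if h : v a ≠ 0 then some ⟨a, h⟩ else none

theorem cnt0_dropN {x : α} (hx : v x ≠ 0) (w : List α) : ∀ θ : ZMod p,
    cnt0 v x θ w = cnt0 (fun a : {a : α // v a ≠ 0} => v a.1) ⟨x, hx⟩ θ (w.filterMap (dropN v)) := by
  classical
  induction w with
  | nil => intro θ; simp [cnt0_nil]
  | cons a w ih =>
    intro θ
    by_cases ha : v a = 0
    · have hax : a ≠ x := by
        rintro rfl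
        exact hx ha
      rw [cnt0_cons, List.filterMap_cons]
      simp only [dropN, ha, ne_eq, not_true_eq_false, dite_false, hax, false_and, if_false,
        zero_add, add_zero]
      exact ih θ
    · rw [cnt0_cons, List.filterMap_cons]
      simp only [dropN, ha, ne_eq, not_false_eq_true, dite_true]
      rw [cnt0_cons, ih]
      congr 1
      by_cases hax : a = x
      · subst hax
        simp
      · have : (⟨a, ha⟩ : {a : α // v a ≠ 0}) ≠ ⟨x, hx⟩ := by
          intro hc
          exact hax (congrArg Subtype.val hc)
        simp [hax, this]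

theorem meas_cnt0_zero (x : α) (n : ℕ) [NeZero n] :
    Meas 1 (fun w : List α => (cnt0 v x 0 w : ZMod n)) := by
  by_cases hx : v x = 0
  · exact meas_cnt0_neutral v hx n
  · have := (meas_cnt0_core (fun a : {a : α // v a ≠ 0} => v a.1) ⟨x, hx⟩ (fun a => a.2) n).pullback
      (dropN v)
    refine this.congr ?_
    intro w
    rw [cnt0_dropN v hx]

theorem cnt0_const (hall : ∀ y, v y = 0) (x : α) {θ : ZMod p} (hθ : θ ≠ 0) (w : List α) :
    cnt0 v x θ w = 0 := by
  classical
  induction w with
  | nil => exact cnt0_nil v x θ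
  | cons a w ih =>
    rw [cnt0_cons, hall a, add_zero, ih]
    simp [hθ]

theorem ph_replicate (y : α) (j : ℕ) : ph v (List.replicate j y) = j * v y := by
  induction j with
  | zero => simp [ph_nil]
  | succ j ih =>
    rw [List.replicate_succ, ph_cons, ih]
    push_cast
    ring

/-- **Counting a letter at a prescribed phase modulo a prime**, for an arbitrary assignment of
phases to the letters. -/
theorem meas_cnt0 (x : α) (θ : ZMod p) (n : ℕ) [NeZero n] :
    Meas 1 (fun w : List α => (cnt0 v x θ w : ZMod n)) := by
  by_cases hall : ∀ y, v y = 0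
  · by_cases hθ : θ = 0
    · subst hθ
      exact meas_cnt0_zero v x n
    · intro b
      refine (Hk_constP 1 ((0 : ZMod n) = b)).congr ?_
      intro w
      show ((cnt0 v x θ w : ℕ) : ZMod n) = b ↔ _
      rw [cnt0_const v hall x hθ]
      simp only [Nat.cast_zero]
      exact Iff.rfl
  · push Not at hall
    obtain ⟨y, hy⟩ := hall
    set z := List.replicate (θ * (v y)⁻¹).val y with hz
    have hph : ph v z = θ := by
      rw [hz, ph_replicate, ZMod.natCast_zmod_val, mul_assoc, inv_mul_cancel₀ hy, mul_one]
    have := ((meas_cnt0_zero v x n).quot z).comp (fun t : ZMod n => t - (cnt0 v x 0 z : ZMod n))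
    refine this.congr ?_
    intro w
    rw [cnt0_append, zero_add, hph]
    push_cast
    ring

theorem meas_ph : Meas 1 (fun w : List α => ph v w) := by
  by_cases hne : Nonempty α
  · obtain ⟨c⟩ := hne
    have := (meas_fin v c (noCycleV v c)).comp (fun x : St p => x.2.2)
    refine this.congr ?_
    intro w
    exact (fin_phase v c nxtV w).symm
  · intro b
    have hw : ∀ w : List α, w = [] := by
      intro w
      cases w with
      | nil => rfl
      | cons a _ => exact absurd ⟨a⟩ hne
    refine (Hk_constP 1 (ph v ([] : List α) = b)).congr ?_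
    intro w
    rw [hw w]
    exact Iff.rfl

end neutral

end Vale.Agent.Lib.P329
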