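import Vale.Agent.Lib.P329.Cert
import Vale.Agent.Lib.P329.Core

namespace Vale.Agent.Lib.P329

namespace Aff5

/-- the thread of a word: apply the affine maps `x ↦ m a * x + c a` from left to right -/
def thr {α : Type} (m c : α → ZMod 5) (x : ZMod 5) (w : List α) : ZMod 5 :=
  w.foldl (fun x a => m a * x + c a) x

section basic

variable {α : Type} (m : α → ZMod 5)

theorem thr_nil (c : α → ZMod 5) (x : ZMod 5) : thr m c x [] = x := rfl

theorem thr_cons (c : α → ZMod 5) (x : ZMod 5) (a : α) (w : List α) :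
    thr m c x (a :: w) = thr m c (m a * x + c a) w := rfl

theorem thr_add (c1 c2 : α → ZMod 5) (w : List α) : ∀ x1 x2 : ZMod 5,
    thr m (fun a => c1 a + c2 a) (x1 + x2) w = thr m c1 x1 w + thr m c2 x2 w := by
  induction w with
  | nil => intro x1 x2; rfl
  | cons a w ih =>
    intro x1 x2
    rw [thr_cons, thr_cons, thr_cons, ← ih]
    congr 1
    ring

theorem thr_smul (k : ZMod 5) (c : α → ZMod 5) (w : List α) : ∀ x : ZMod 5,
    thr m (fun a => k * c a) (k * x) w = k * thr m c x w := by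
  induction w with
  | nil => intro x; rfl
  | cons a w ih =>
    intro x
    rw [thr_cons, thr_cons, ← ih]
    congr 1
    ring

theorem thr_comb (k1 k2 : ZMod 5) (c1 c2 : α → ZMod 5) (w : List α) :
    thr m (fun a => k1 * c1 a + k2 * c2 a) 0 w = k1 * thr m c1 0 w + k2 * thr m c2 0 w := by
  have h := thr_add m (fun a => k1 * c1 a) (fun a => k2 * c2 a) w (k1 * 0) (k2 * 0)
  rw [thr_smul, thr_smul] at h
  simpa using h

theorem thr_sum {ι : Type} (s : Finset ι) (k : ι → ZMod 5) (e : ι → α → ZMod 5) (w : List α) :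
    thr m (fun a => ∑ i ∈ s, k i * e i a) 0 w = ∑ i ∈ s, k i * thr m (e i) 0 w := by
  classical
  induction s using Finset.induction_on with
  | empty =>
    simp only [Finset.sum_empty]
    have h := thr_smul m 0 (fun _ => 0) w 0
    simpa using h
  | insert i s hi ih =>
    simp only [Finset.sum_insert hi]
    have h := thr_add m (fun a => k i * e i a) (fun a => ∑ j ∈ s, k j * e j a) w (k i * 0) 0
    rw [thr_smul, ih] at h
    simpa using h

theorem thr_shift (c : α → ZMod 5) (x0 : ZMod 5) (w : List α) : ∀ y : ZMod 5,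
    thr m c (x0 + y) w = x0 + thr m (fun a => c a + (m a - 1) * x0) y w := by
  induction w with
  | nil => intro y; rfl
  | cons a w ih =>
    intro y
    rw [thr_cons, thr_cons, ← ih]
    congr 1
    ring

theorem thr_map {Γ : Type} (mΓ cΓ : Γ → ZMod 5) (π : α → Γ) (c : α → ZMod 5)
    (hm : ∀ a, m a = mΓ (π a)) (hc : ∀ a, c a = cΓ (π a)) (w : List α) : ∀ x : ZMod 5,
    thr m c x w = thr mΓ cΓ x (w.filterMap (fun a => some (π a))) := by
  induction w with
  | nil => intro x; rfl
  | cons a w ih =>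
    intro x
    have h : (a :: w).filterMap (fun a => some (π a)) = π a :: w.filterMap (fun a => some (π a)) := by
      simp
    rw [h, thr_cons, thr_cons, ih, hm, hc]

theorem meas_of_code [Finite α] {Γ : Type} {mΓ cΓ : Γ → ZMod 5}
    (hΓ : Meas 1 (fun w : List Γ => thr mΓ cΓ 0 w)) (π : α → Γ) (c : α → ZMod 5)
    (hm : ∀ a, m a = mΓ (π a)) (hc : ∀ a, c a = cΓ (π a)) :
    Meas 1 (fun w : List α => thr m c 0 w) :=
  (hΓ.pullback (fun a => some (π a))).congr (fun w => thr_map m mΓ cΓ π c hm hc w 0)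

end basic

/-! ### two five-state hub automata -/

def stp1 (ms cs : List ℕ) (s a : ℕ) : ℕ := if s = 0 then 0 else (ms.getD a 0 * s + cs.getD a 0) % 5

def mI : Fin 5 → ZMod 5 := ![2, 2, 3, 3, 1]
def cI : Fin 5 → ZMod 5 := ![1, 4, 1, 4, 0]
def dI : ZMod 5 → Fin 5 → ZMod 5 := fun x g => mI g * x + cI g

def certI : List (List ℕ) := [[0,1,2,3,4],
  [0,3,0,2,4],
  [0,1,3,0,2],
  [0,4,2,0,3],
  [0,2,0,3,1],
  [0,2,0,0,4],
  [0,0,0,3,2],
  [0,0,0,2,3],
  [0,3,0,0,1],
  [0,3,2,0,0],
  [0,1,0,0,3],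
  [0,4,0,0,2],
  [0,2,3,0,0],
  [0,0,0,0,4],
  [0,3,0,0,2],
  [0,2,0,0,3],
  [0,0,0,0,1],
  [0,0,0,2,0],
  [0,0,0,0,3],
  [0,0,0,0,2],
  [0,0,0,3,0],
  [0,2,0,0,0],
  [0,0,3,0,0],
  [0,0,2,0,0],
  [0,3,0,0,0],
  [0,1,0,0,0],
  [0,4,0,0,0],
  [0,0,0,0,0]]

theorem absorb_sim {k : ℕ} (d : ZMod 5 → Fin k → ZMod 5) (stp : ℕ → ℕ → ℕ)
    (h0 : ∀ a : Fin k, stp 0 a.val = 0)
    (h1 : ∀ (q : ZMod 5) (a : Fin k), q ≠ 0 → (d q a).val = stp q.val a.val) (q : ZMod 5) (a : Fin k) :
    (absorb d 0 q a).val = stp q.val a.val := by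
  by_cases hq : q = 0
  · subst hq
    rw [absorb, if_pos rfl]
    exact (h0 a).symm
  · rw [absorb, if_neg hq]
    exact h1 q a hq

theorem cfI : CF (absorb dI 0) :=
  CF_of_cert (absorb dI 0) 5 ZMod.val (fun s => (s : ZMod 5)) Fin.val 5
    (stp1 [2, 2, 3, 3, 1] [1, 4, 1, 4, 0])
    (by decide) (by decide) (by decide) (fun a => a.2)
    (absorb_sim dI _ (by decide) (by decide)) certI 5 (by decide) (by decide) (by decide)

theorem measI : Meas 1 (fun w : List (Fin 5) => thr mI cI 0 w) := fun b => final_H1 dI 0 cfI b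

def mII : Fin 4 → ZMod 5 := ![2, 3, 1, 1]
def cII : Fin 4 → ZMod 5 := ![1, 1, 1, 0]
def dII : ZMod 5 → Fin 4 → ZMod 5 := fun x g => mII g * x + cII g

def certII : List (List ℕ) := [[0,1,2,3,4],
  [0,3,0,2,4],
  [0,4,2,0,3],
  [0,2,3,4,0],
  [0,2,0,0,4],
  [0,0,0,2,3],
  [0,4,0,3,0],
  [0,4,0,0,2],
  [0,3,2,0,0],
  [0,0,3,0,4],
  [0,0,2,4,0],
  [0,2,0,3,0],
  [0,3,4,0,0],
  [0,0,0,0,4],
  [0,2,0,0,3],
  [0,3,0,0,0],
  [0,0,0,0,2],
  [0,0,0,2,0],
  [0,0,0,3,4],
  [0,4,0,2,0],
  [0,0,0,4,0],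
  [0,4,0,0,0],
  [0,3,0,0,2],
  [0,0,0,0,3],
  [0,2,0,0,0],
  [0,0,2,0,0],
  [0,4,3,0,0],
  [0,0,2,0,4],
  [0,0,4,0,0],
  [0,0,2,3,0],
  [0,0,3,0,0],
  [0,3,0,4,0],
  [0,2,4,0,0],
  [0,0,0,0,0],
  [0,3,0,0,4],
  [0,0,0,3,0],
  [0,0,0,2,4],
  [0,3,0,2,0],
  [0,4,0,0,3],
  [0,4,2,0,0],
  [0,0,2,0,3],
  [0,0,3,4,0],
  [0,2,0,4,0],
  [0,2,3,0,0]]

theorem cfII : CF (absorb dII 0) :=
  CF_of_cert (absorb dII 0) 5 ZMod.val (fun s => (s : ZMod 5)) Fin.val 4
    (stp1 [2, 3, 1, 1] [1, 1, 1, 0])
    (by decide) (by decide) (by decide) (fun a => a.2)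
    (absorb_sim dII _ (by decide) (by decide)) certII 5 (by decide) (by decide) (by decide)

theorem measII : Meas 1 (fun w : List (Fin 4) => thr mII cII 0 w) := fun b => final_H1 dII 0 cfII b

/-! ### all weight systems without multiplier `-1` -/

section noinv

variable {α : Type} [Finite α] (m : α → ZMod 5) (hm : ∀ a, m a = 1 ∨ m a = 2 ∨ m a = 3)

theorem h21 : ((2 : ZMod 5) = 1) = False := eq_false (by decide)
theorem h31 : ((3 : ZMod 5) = 1) = False := eq_false (by decide)
theorem h32 : ((3 : ZMod 5) = 2) = False := eq_false (by decide)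

include hm in
open Classical in
theorem measTypeI (s : α → Prop) :
    Meas 1 (fun w : List α =>
      thr m (fun a => if m a = 1 then 0 else if s a then 4 else 1) 0 w) := by
  refine meas_of_code m measI (fun a => if m a = 1 then 4 else if m a = 2 then
    (if s a then 1 else 0) else (if s a then 3 else 2)) _ ?_ ?_
  · intro a
    rcases hm a with h | h | h <;> by_cases hs : s a <;>
      simp only [h, hs, if_true, if_false, h21, h31, h32] <;> rfl
  · intro a
    rcases hm a with h | h | h <;> by_cases hs : s a <;>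
      simp only [h, hs, if_true, if_false, h21, h31, h32] <;> rfl

include hm in
open Classical in
theorem measTypeII (s : α → Prop) :
    Meas 1 (fun w : List α =>
      thr m (fun a => if m a = 1 then (if s a then 1 else 0) else 1) 0 w) := by
  refine meas_of_code m measII (fun a => if m a = 1 then (if s a then 2 else 3) else
    if m a = 2 then 0 else 1) _ ?_ ?_
  · intro a
    rcases hm a with h | h | h <;> by_cases hs : s a <;>
      simp only [h, hs, if_true, if_false, h21, h31, h32] <;> rfl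
  · intro a
    rcases hm a with h | h | h <;> by_cases hs : s a <;>
      simp only [h, hs, if_true, if_false, h21, h31, h32] <;> rfl

include hm in
open Classical in
theorem meas_single (a0 : α) :
    Meas 1 (fun w : List α => thr m (fun a => if a = a0 then 1 else 0) 0 w) := by
  have hI := measTypeI m hm (fun _ => False)
  by_cases h1 : m a0 = 1
  · have hII := measTypeII m hm (fun a => a = a0)
    refine ((hII.prod hI).comp (fun p => 1 * p.1 + 4 * p.2)).congr ?_
    intro w
    rw [← thr_comb]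
    congr 1
    funext a
    by_cases ha : a = a0
    · subst ha
      simp [h1]
    · by_cases hma : m a = 1
      · simp [ha, hma]
      · simp only [ha, hma, if_false]
        decide
  · have hI2 := measTypeI m hm (fun a => a = a0)
    refine ((hI.prod hI2).comp (fun p => 3 * p.1 + 2 * p.2)).congr ?_
    intro w
    rw [← thr_comb]
    congr 1
    funext a
    by_cases ha : a = a0
    · subst ha
      simp only [h1, if_false, if_true]
      decide
    · by_cases hma : m a = 1
      · simp [ha, hma]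
      · simp only [ha, hma, if_false]
        decide

include hm in
/-- the translation part is a statistic of generalized star height at most one -/
theorem thr_meas (c : α → ZMod 5) : Meas 1 (fun w : List α => thr m c 0 w) := by
  classical
  have := Fintype.ofFinite α
  have hpi := Meas.pi (fun b : α => meas_single m hm b)
  refine (hpi.comp (fun f => ∑ b, c b * f b)).congr ?_
  intro w
  rw [← thr_sum]
  congr 1
  funext a
  simp

end noinv

/-- from start `0` to arbitrary start -/
theorem meas_from {α : Type} (m c : α → ZMod 5) (x0 : ZMod 5)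
    (h : Meas 1 (fun w : List α => thr m (fun a => c a + (m a - 1) * x0) 0 w)) :
    Meas 1 (fun w : List α => thr m c x0 w) :=
  (h.comp (fun y => x0 + y)).congr (fun w => by simpa using thr_shift m c x0 w 0)

end Aff5

end Vale.Agent.Lib.P329
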