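import Vale.Agent.Lib.P329.Affine5

namespace Vale.Agent.Lib.P329

namespace Aff5

abbrev Q2 := Fin 2 × ZMod 5

/-- two-node thread automaton: letter `0` has multiplier `μ` and resets the node, letter `1` has
multiplier `4 = -1` and flips the node, letter `2` is the identity; the weights depend on the node -/
def d2 (μ p q r s : ZMod 5) : Q2 → Fin 3 → Q2 := fun st g =>
  if g = 0 then (0, μ * st.2 + (if st.1 = 0 then p else r))
  else if g = 1 then (if st.1 = 0 then (1, 4 * st.2 + q) else (0, 4 * st.2 + s))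
  else st

def code2 (st : Q2) : ℕ := 5 * st.1.val + st.2.val

def dec2 (s : ℕ) : Q2 := (Fin.ofNat 2 (s / 5), ((s % 5 : ℕ) : ZMod 5))

def stp2 (μ p q r s : ℕ) (st a : ℕ) : ℕ :=
  if st = 0 then 0 else
  if a = 0 then (μ * (st % 5) + (if st / 5 = 0 then p else r)) % 5
  else if a = 1 then (if st / 5 = 0 then 5 + (4 * (st % 5) + q) % 5 else (4 * (st % 5) + s) % 5)
  else st

theorem absorb_sim2 (d : Q2 → Fin 3 → Q2) (stp : ℕ → ℕ → ℕ)
    (h0 : ∀ a : Fin 3, stp 0 a.val = 0)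
    (h1 : ∀ (q : Q2) (a : Fin 3), q ≠ (0, 0) → code2 (d q a) = stp (code2 q) a.val)
    (q : Q2) (a : Fin 3) :
    code2 (absorb d (0, 0) q a) = stp (code2 q) a.val := by
  by_cases hq : q = (0, 0)
  · subst hq
    rw [absorb, if_pos rfl]
    exact (h0 a).symm
  · rw [absorb, if_neg hq]
    exact h1 q a hq

theorem cf2_of (μ p q r s : ZMod 5) (μn pn qn rn sn : ℕ)
    (hsim : ∀ (st : Q2) (a : Fin 3), st ≠ (0, 0) →
      code2 (d2 μ p q r s st a) = stp2 μn pn qn rn sn (code2 st) a.val)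
    (M : List (List ℕ)) (h0 : List.range 10 ∈ M)
    (hcl : ∀ L ∈ M, ∀ a ∈ List.range 3, L.map (fun s => stp2 μn pn qn rn sn s a) ∈ M)
    (hap : ∀ L ∈ M, ∀ s ∈ List.range 10,
      (fun t => L.getD t 0)^[10 + 1] s = (fun t => L.getD t 0)^[10] s) :
    CF (absorb (d2 μ p q r s) (0, 0)) :=
  CF_of_cert _ 10 code2 dec2 Fin.val 3 (stp2 μn pn qn rn sn)
    (by decide) (by decide) (by decide) (fun a => a.2)
    (absorb_sim2 _ _ (fun _ => rfl) hsim) M 10 h0 hcl hap


end Aff5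

end Vale.Agent.Lib.P329
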