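import Vale.Agent.Lib.P329.PrimeIndex

namespace Vale.Agent.Lib.P329

open Language

section dual

variable {p : ℕ} [Fact p.Prime] {B : Type} [AddCommGroup B] [Module (ZMod p) B] [Finite B]

instance : Finite (Module.Dual (ZMod p) B) := DFunLike.finite _

/-- the number of linear forms vanishing at a point -/
theorem card_dual_vanish [Fintype (Module.Dual (ZMod p) B)] (g : B) [Decidable (g = 0)] :
    p * (Finset.univ.filter (fun χ : Module.Dual (ZMod p) B => χ g = 0)).card =
      Fintype.card (Module.Dual (ZMod p) B) * (if g = 0 then p else 1) := by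
  classical
  by_cases hg : g = 0
  · subst hg
    simp [mul_comm]
  · rw [if_neg hg, mul_one]
    have hex : ∃ χ0 : Module.Dual (ZMod p) B, χ0 g ≠ 0 := by
      by_contra hc
      push Not at hc
      exact hg ((Module.forall_dual_apply_eq_zero_iff (ZMod p) g).mp hc)
    obtain ⟨χ0, h0⟩ := hex
    have hfib : ∀ t : ZMod p,
        (Finset.univ.filter (fun χ : Module.Dual (ZMod p) B => χ g = t)).card =
        (Finset.univ.filter (fun χ : Module.Dual (ZMod p) B => χ g = 0)).card := by
      intro t
      symm
      refine Finset.card_bij (fun χ _ => χ + (t * (χ0 g)⁻¹) • χ0) ?_ ?_ ?_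
      · intro χ hχ
        simp only [Finset.mem_filter, Finset.mem_univ, true_and] at hχ ⊢
        simp [hχ, mul_assoc, inv_mul_cancel₀ h0]
      · intro χ _ χ' _ h
        exact add_right_cancel h
      · intro χ hχ
        simp only [Finset.mem_filter, Finset.mem_univ, true_and] at hχ
        refine ⟨χ - (t * (χ0 g)⁻¹) • χ0, ?_, by simp⟩
        simp only [Finset.mem_filter, Finset.mem_univ, true_and]
        simp [hχ, mul_assoc, inv_mul_cancel₀ h0]
    have h1 := Finset.card_eq_sum_card_fiberwise
      (f := fun χ : Module.Dual (ZMod p) B => χ g) (s := Finset.univ) (t := Finset.univ)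
      (fun _ _ => Finset.mem_coe.mpr (Finset.mem_univ _))
    rw [Finset.card_univ] at h1
    rw [h1, Finset.sum_congr rfl (fun t _ => hfib t), Finset.sum_const, Finset.card_univ, ZMod.card,
      smul_eq_mul]

end dual

section elem

variable {p : ℕ} [Fact p.Prime] {B : Type} [AddCommGroup B] [Module (ZMod p) B] [Finite B]
  {α : Type} (v : α → B)

/-- the hyperplane identity -/
theorem hyperplane_ident [Fintype (Module.Dual (ZMod p) B)] (x : α) (w : List α) : ∀ θ : B,
    p * ∑ χ : Module.Dual (ZMod p) B, cnt0 (fun a => χ (v a)) x (χ θ) w =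
      Fintype.card (Module.Dual (ZMod p) B) * cnt0 (fun _ : α => (0 : ZMod p)) x 0 w +
        Fintype.card (Module.Dual (ZMod p) B) * (p - 1) * cntG v x θ w := by
  classical
  induction w with
  | nil => intro θ; simp [cnt0_nil, cntG_nil]
  | cons a w ih =>
    intro θ
    have h1 : ∀ χ : Module.Dual (ZMod p) B, cnt0 (fun a => χ (v a)) x (χ θ) (a :: w) =
        (if a = x ∧ χ θ = 0 then 1 else 0) + cnt0 (fun a => χ (v a)) x (χ (θ + v a)) w := by
      intro χ
      rw [cnt0_cons, map_add]
    simp only [h1, Finset.sum_add_distrib, mul_add, ih (θ + v a)]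
    rw [cnt0_cons, cntG_cons, add_zero]
    have hp1 : 1 ≤ p := (Fact.out : p.Prime).one_lt.le
    by_cases hax : a = x
    · have h2 : (∑ χ : Module.Dual (ZMod p) B, if a = x ∧ χ θ = 0 then 1 else 0 : ℕ) =
          (Finset.univ.filter (fun χ : Module.Dual (ZMod p) B => χ θ = 0)).card := by
        rw [Finset.card_filter]
        refine Finset.sum_congr rfl (fun χ _ => ?_)
        simp [hax]
      rw [h2, card_dual_vanish θ]
      by_cases hθ : θ = 0
      · simp only [hax, hθ, and_self, if_true]
        obtain ⟨q, rfl⟩ : ∃ q, p = q + 1 := ⟨p - 1, by omega⟩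
        simp only [Nat.add_sub_cancel]
        ring
      · simp only [hax, hθ, and_true, and_false, if_true, if_false]
        ring
    · simp [hax]

variable [Finite α]

include p in
theorem meas_cntG (x : α) (θ : B) (n : ℕ) [NeZero n] :
    Meas 1 (fun w : List α => (cntG v x θ w : ZMod n)) := by
  classical
  have := Fintype.ofFinite (Module.Dual (ZMod p) B)
  set m := Fintype.card (Module.Dual (ZMod p) B) * (p - 1) with hm
  have hp2 : 2 ≤ p := (Fact.out : p.Prime).two_le
  have hmpos : 0 < m := Nat.mul_pos Fintype.card_pos (by omega)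
  have hnpos : 0 < n := Nat.pos_of_ne_zero (NeZero.ne n)
  have : NeZero (m * n) := ⟨(Nat.mul_pos hmpos hnpos).ne'⟩
  have m1 : Meas 1 (fun w : List α => fun χ : Module.Dual (ZMod p) B =>
      (cnt0 (fun a => χ (v a)) x (χ θ) w : ZMod (m * n))) :=
    Meas.pi (fun χ => meas_cnt0 (fun a => χ (v a)) x (χ θ) (m * n))
  have m2 := meas_cnt0 (fun _ : α => (0 : ZMod p)) x 0 (m * n)
  have := (m1.prod m2).comp (fun y : (Module.Dual (ZMod p) B → ZMod (m * n)) × ZMod (m * n) =>
    ((((p : ZMod (m * n)) * ∑ χ, y.1 χ -
      (Fintype.card (Module.Dual (ZMod p) B) : ZMod (m * n)) * y.2).val / m : ℕ) : ZMod n))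
  refine this.congr ?_
  intro w
  have h := congrArg (fun k : ℕ => (k : ZMod (m * n))) (hyperplane_ident (p := p) v x w θ)
  simp only [Nat.cast_add, Nat.cast_mul, Nat.cast_sum] at h
  have h' : (p : ZMod (m * n)) * ∑ χ : Module.Dual (ZMod p) B,
      (cnt0 (fun a => χ (v a)) x (χ θ) w : ZMod (m * n)) -
      (Fintype.card (Module.Dual (ZMod p) B) : ZMod (m * n)) *
        (cnt0 (fun _ : α => (0 : ZMod p)) x 0 w : ZMod (m * n)) =
      ((m * cntG v x θ w : ℕ) : ZMod (m * n)) := by
    rw [hm]
    push_cast
    linear_combination h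
  simp only
  rw [h', ZMod.val_natCast, Nat.mul_mod_mul_left, Nat.mul_div_cancel_left _ hmpos, ZMod.natCast_mod]

theorem phG_dual (χ : Module.Dual (ZMod p) B) (w : List α) :
    χ (phG v w) = ph (fun a => χ (v a)) w := by
  induction w with
  | nil => simp [phG_nil, ph_nil]
  | cons a w ih => rw [phG_cons, ph_cons, map_add, ih]

include p in
theorem meas_phG : Meas 1 (fun w : List α => phG v w) := by
  classical
  have m1 : Meas 1 (fun w : List α => fun χ : Module.Dual (ZMod p) B => ph (fun a => χ (v a)) w) :=
    Meas.pi (fun χ => meas_ph (fun a => χ (v a)))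
  have := m1.comp (fun f : Module.Dual (ZMod p) B → ZMod p =>
    if h : ∃ b : B, ∀ χ, χ b = f χ then Classical.choose h else 0)
  refine this.congr ?_
  intro w
  have hex : ∃ b : B, ∀ χ : Module.Dual (ZMod p) B, χ b = ph (fun a => χ (v a)) w :=
    ⟨phG v w, fun χ => phG_dual v χ w⟩
  simp only [dif_pos hex]
  have hspec := Classical.choose_spec hex
  have : phG v w - Classical.choose hex = 0 := by
    rw [← Module.forall_dual_apply_eq_zero_iff (ZMod p)]
    intro χ
    rw [map_sub, hspec χ, phG_dual, sub_self]
  exact sub_eq_zero.mp this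

include p in
/-- the version with a homomorphism to an elementary abelian `p`-group -/
theorem main_module {G : Type} [Group G] [Finite G]
    (ν : G → B) (hν : ∀ x y, ν (x * y) = ν x + ν y)
    (hker : ∀ x y, ν x = 0 → ν y = 0 → x * y = y * x) (φ : α → G) (S : Set G) :
    Hk 1 (ofPred fun w : List α => (w.map φ).prod ∈ S) :=
  group_wrap ν hν hker φ (fun x θ n _ => meas_cntG (p := p) (fun a => ν (φ a)) x θ n)
    (meas_phG (p := p) (fun a => ν (φ a))) S

end elem

theorem main_elementary {α G : Type} [Finite α] [Group G] [Finite G] (A : Subgroup G) [A.Normal]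
    (hA : ∀ x ∈ A, ∀ y ∈ A, x * y = y * x) (p : ℕ) (hp : p.Prime)
    (hpow : ∀ g : G, g ^ p ∈ A) (hcomm : ∀ g h : G, g * h * g⁻¹ * h⁻¹ ∈ A)
    (φ : α → G) (S : Set G) :
    Hk 1 (ofPred fun w : List α => (w.map φ).prod ∈ S) := by
  have : Fact p.Prime := ⟨hp⟩
  let _ : CommGroup (G ⧸ A) :=
    { (inferInstance : Group (G ⧸ A)) with
      mul_comm := by
        intro x y
        induction x using QuotientGroup.induction_on with
        | H g =>
          induction y using QuotientGroup.induction_on with
          | H h =>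
            rw [← QuotientGroup.mk_mul, ← QuotientGroup.mk_mul]
            apply QuotientGroup.eq.mpr
            have h1 := A.inv_mem (hcomm h⁻¹ g⁻¹)
            have e : (g * h)⁻¹ * (h * g) = (h⁻¹ * g⁻¹ * h⁻¹⁻¹ * g⁻¹⁻¹) := by group
            rw [e]
            exact hcomm h⁻¹ g⁻¹ }
  let _ : Module (ZMod p) (Additive (G ⧸ A)) := AddCommGroup.zmodModule (by
    intro x
    induction x using Additive.rec with
    | ofMul x =>
      induction x using QuotientGroup.induction_on with
      | H g =>
        rw [← ofMul_pow, ← QuotientGroup.mk_pow, (QuotientGroup.eq_one_iff _).mpr (hpow g)]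
        rfl)
  refine main_module (p := p) (B := Additive (G ⧸ A))
    (fun g => Additive.ofMul (QuotientGroup.mk g : G ⧸ A)) ?_ ?_ φ S
  · intro x y
    rfl
  · intro x y hx hy
    have key : ∀ g : G, Additive.ofMul (QuotientGroup.mk g : G ⧸ A) = 0 → g ∈ A := by
      intro g hg
      exact (QuotientGroup.eq_one_iff g).mp hg
    exact hA x (key x hx) y (key y hy)

end Vale.Agent.Lib.P329
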