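import Vale.Agent.Lib.P329.Affine5Perm
import Vale.Agent.Lib.P329.Elem

namespace Vale.Agent.Lib.P329

namespace Aff5

/-- the action of the dihedral group of order ten on `ZMod 5` (letters act from left to right) -/
def dact : DihedralGroup 5 → ZMod 5 → ZMod 5
  | DihedralGroup.r i, x => x + i
  | DihedralGroup.sr i, x => i - x

def dnu : DihedralGroup 5 → ZMod 2
  | DihedralGroup.r _ => 0
  | DihedralGroup.sr _ => 1

theorem dact_mul : ∀ (g h : DihedralGroup 5) (x : ZMod 5), dact (g * h) x = dact h (dact g x) := by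
  decide +kernel

theorem dact_one : ∀ x : ZMod 5, dact 1 x = x := by decide +kernel

theorem dnu_mul : ∀ g h : DihedralGroup 5, dnu (g * h) = dnu g + dnu h := by decide +kernel

theorem dnu_ker : ∀ g h : DihedralGroup 5, dnu g = 0 → dnu h = 0 → g * h = h * g := by
  decide +kernel

theorem thr_meas_dih {α : Type} [Finite α] (m c : α → ZMod 5) (hm : ∀ a, m a = 1 ∨ m a = 4)
    (x0 : ZMod 5) : Meas 1 (fun w : List α => thr m c x0 w) := by
  classical
  have : Fact (Nat.Prime 2) := ⟨Nat.prime_two⟩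
  let ψ : α → DihedralGroup 5 := fun a =>
    if m a = 1 then DihedralGroup.r (c a) else DihedralGroup.sr (c a)
  have hψ : ∀ a x, dact (ψ a) x = m a * x + c a := by
    intro a x
    rcases hm a with h | h
    · simp [ψ, h, dact]
    · have h41 : (4 : ZMod 5) ≠ 1 := by decide
      have e : ∀ x c : ZMod 5, c - x = 4 * x + c := by decide
      simp [ψ, h, h41, dact, e]
  have hthr : ∀ (w : List α) (x : ZMod 5), thr m c x w = dact ((w.map ψ).prod) x := by
    intro w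
    induction w with
    | nil =>
      intro x
      rw [List.map_nil, List.prod_nil, dact_one]
      rfl
    | cons a w ih =>
      intro x
      rw [thr_cons, ih, List.map_cons, List.prod_cons, dact_mul, hψ]
  have hM : Meas 1 (fun w : List α => (w.map ψ).prod) := by
    intro b
    refine (main_module (p := 2) (B := ZMod 2) dnu dnu_mul dnu_ker ψ {b}).congr ?_
    intro w
    exact Iff.rfl
  exact (hM.comp (fun g => dact g x0)).congr (fun w => hthr w x0)

theorem perm_dih {α : Type} [Finite α] (φ : α → Equiv.Perm (ZMod 5))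
    (h : ∀ a, ∃ m c : ZMod 5, (m = 1 ∨ m = 4) ∧ ∀ x, φ a x = m * x + c)
    (S : Set (Equiv.Perm (ZMod 5))) :
    ∃ P : GRE α, P.sh ≤ 1 ∧ ∀ w : List α, w ∈ P.lang ↔ (w.map φ).prod ∈ S := by
  have h' : ∀ a, ∃ m c : ZMod 5, (m = 1 ∨ m = 4) ∧ ∀ x, (φ a)⁻¹ x = m * x + c := by
    intro a
    obtain ⟨m, c, hm, hx⟩ := h a
    rcases hm with rfl | rfl
    · exact ⟨1, _, Or.inl rfl, inv_aff (φ a) 1 1 c (by decide) hx⟩
    · exact ⟨4, _, Or.inr rfl, inv_aff (φ a) 4 4 c (by decide) hx⟩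
  choose m c hm hinv using h'
  exact glue_aff φ m c hinv (fun x0 => thr_meas_dih m _ hm 0) S

/-- at most two letter images different from the identity, both arbitrary in `AGL(1,5)` -/
theorem perm_two_all {α : Type} [Finite α] (φ : α → Equiv.Perm (ZMod 5))
    (g r : Equiv.Perm (ZMod 5))
    (hg : ∃ μ γ : ZMod 5, μ ≠ 0 ∧ ∀ x, g x = μ * x + γ)
    (hr : ∃ ρ β : ZMod 5, ρ ≠ 0 ∧ ∀ x, r x = ρ * x + β)
    (hφ : ∀ a, φ a = 1 ∨ φ a = g ∨ φ a = r) (S : Set (Equiv.Perm (ZMod 5))) :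
    ∃ P : GRE α, P.sh ≤ 1 ∧ ∀ w : List α, w ∈ P.lang ↔ (w.map φ).prod ∈ S := by
  have key : ∀ μ : ZMod 5, μ ≠ 0 → (μ = 2 ∨ μ = 3) ∨ (μ = 1 ∨ μ = 4) := by decide
  obtain ⟨μ, γ, hμ, hgx⟩ := hg
  obtain ⟨ρ, β, hρ, hrx⟩ := hr
  rcases key μ hμ with h1 | h1
  · exact perm_two φ g r ⟨μ, γ, h1, hgx⟩ ⟨ρ, β, hρ, hrx⟩ hφ S
  · rcases key ρ hρ with h2 | h2
    · exact perm_two φ r g ⟨ρ, β, h2, hrx⟩ ⟨μ, γ, hμ, hgx⟩
        (fun a => by rcases hφ a with h | h | h <;> simp [h]) S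
    · refine perm_dih φ (fun a => ?_) S
      rcases hφ a with h | h | h
      · exact ⟨1, 0, Or.inl rfl, fun x => by rw [h]; simp⟩
      · exact ⟨μ, γ, h1, fun x => by rw [h]; exact hgx x⟩
      · exact ⟨ρ, β, h2, fun x => by rw [h]; exact hrx x⟩

end Aff5

end Vale.Agent.Lib.P329
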