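import Mathlib
import Vale.Agent.Lib.P329.Core

namespace Vale.Agent.Lib.P329

lemma prod_inv_apply {α X : Type} (φ : α → Equiv.Perm X) (w : List α) :
    ∀ x0 : X, ((w.map φ).prod)⁻¹ x0 = w.foldl (fun x a => (φ a)⁻¹ x) x0 := by
  induction w with
  | nil => intro x0; simp
  | cons a w ih =>
    intro x0
    rw [List.map_cons, List.prod_cons, mul_inv_rev, Equiv.Perm.mul_apply, ih, List.foldl_cons]

theorem perm_glue {α X : Type} [Finite α] [Finite X] (φ : α → Equiv.Perm X)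
    (h : ∀ x0 : X, Meas 1 (fun w : List α => w.foldl (fun x a => (φ a)⁻¹ x) x0))
    (S : Set (Equiv.Perm X)) :
    ∃ P : GRE α, P.sh ≤ 1 ∧ ∀ w : List α, w ∈ P.lang ↔ (w.map φ).prod ∈ S := by
  have hm : Meas 1 (fun w : List α => fun x0 : X => w.foldl (fun x a => (φ a)⁻¹ x) x0) :=
    Meas.pi h
  obtain ⟨P, hP, hl⟩ := hm.pred (fun f : X → X => ∃ σ ∈ S, ∀ x, σ⁻¹ x = f x)
  refine ⟨P, hP, ?_⟩
  intro w
  rw [hl]
  show (∃ σ ∈ S, ∀ x, σ⁻¹ x = w.foldl (fun x a => (φ a)⁻¹ x) x) ↔ _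
  constructor
  · rintro ⟨σ, hσ, hx⟩
    have : σ = (w.map φ).prod := by
      apply inv_injective
      ext x
      rw [hx, prod_inv_apply]
    rw [← this]
    exact hσ
  · intro hS
    exact ⟨_, hS, fun x => prod_inv_apply φ w x⟩

end Vale.Agent.Lib.P329
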