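import Vale.Agent.Lib.P329.Affine5Two
import Vale.Agent.Lib.P329.PermGlue

namespace Vale.Agent.Lib.P329

namespace Aff5

theorem inv_aff (σ : Equiv.Perm (ZMod 5)) (m m' c : ZMod 5) (hmm : m * m' = 1)
    (h : ∀ x, σ x = m * x + c) (x : ZMod 5) : σ⁻¹ x = m' * x + (-(m' * c)) := by
  rw [Equiv.Perm.inv_eq_iff_eq, h]
  linear_combination (c - x) * hmm

theorem glue_aff {α : Type} [Finite α] (φ : α → Equiv.Perm (ZMod 5)) (m c : α → ZMod 5)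
    (hinv : ∀ a x, (φ a)⁻¹ x = m a * x + c a)
    (hM : ∀ x0, Meas 1 (fun w : List α => thr m (fun a => c a + (m a - 1) * x0) 0 w))
    (S : Set (Equiv.Perm (ZMod 5))) :
    ∃ P : GRE α, P.sh ≤ 1 ∧ ∀ w : List α, w ∈ P.lang ↔ (w.map φ).prod ∈ S := by
  refine perm_glue φ (fun x0 => ?_) S
  have h := meas_from m c x0 (hM x0)
  have e : (fun (x : ZMod 5) (a : α) => (φ a)⁻¹ x) = fun x a => m a * x + c a := by
    funext x a
    exact hinv a x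
  rw [e]
  exact h

/-- every morphism into `AGL(1,5)` none of whose letters has multiplier `-1` -/
theorem perm_noinv {α : Type} [Finite α] (φ : α → Equiv.Perm (ZMod 5))
    (h : ∀ a, ∃ m c : ZMod 5, (m = 1 ∨ m = 2 ∨ m = 3) ∧ ∀ x, φ a x = m * x + c)
    (S : Set (Equiv.Perm (ZMod 5))) :
    ∃ P : GRE α, P.sh ≤ 1 ∧ ∀ w : List α, w ∈ P.lang ↔ (w.map φ).prod ∈ S := by
  have h' : ∀ a, ∃ m c : ZMod 5, (m = 1 ∨ m = 2 ∨ m = 3) ∧ ∀ x, (φ a)⁻¹ x = m * x + c := by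
    intro a
    obtain ⟨m, c, hm, hx⟩ := h a
    rcases hm with rfl | rfl | rfl
    · exact ⟨1, _, Or.inl rfl, inv_aff (φ a) 1 1 c (by decide) hx⟩
    · exact ⟨3, _, Or.inr (Or.inr rfl), inv_aff (φ a) 2 3 c (by decide) hx⟩
    · exact ⟨2, _, Or.inr (Or.inl rfl), inv_aff (φ a) 3 2 c (by decide) hx⟩
  choose m c hm hinv using h'
  exact glue_aff φ m c hinv (fun x0 => thr_meas m hm _) S

/-- one letter image of order four, one arbitrary further letter image, neutral letters -/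
theorem perm_two {α : Type} [Finite α] (φ : α → Equiv.Perm (ZMod 5)) (g r : Equiv.Perm (ZMod 5))
    (hg : ∃ μ γ : ZMod 5, (μ = 2 ∨ μ = 3) ∧ ∀ x, g x = μ * x + γ)
    (hr : ∃ ρ β : ZMod 5, ρ ≠ 0 ∧ ∀ x, r x = ρ * x + β)
    (hφ : ∀ a, φ a = 1 ∨ φ a = g ∨ φ a = r) (S : Set (Equiv.Perm (ZMod 5))) :
    ∃ P : GRE α, P.sh ≤ 1 ∧ ∀ w : List α, w ∈ P.lang ↔ (w.map φ).prod ∈ S := by
  obtain ⟨μ, γ, hμ, hgx⟩ := hg
  obtain ⟨ρ, β, hρ, hrx⟩ := hr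
  have hρ4 : ρ = 1 ∨ ρ = 2 ∨ ρ = 3 ∨ ρ = 4 := by
    revert hρ
    clear hrx
    revert ρ
    decide
  by_cases h4 : ρ = 4
  · subst h4
    obtain ⟨μ', hμ', hmm⟩ : ∃ μ' : ZMod 5, (μ' = 2 ∨ μ' = 3) ∧ μ * μ' = 1 := by
      rcases hμ with rfl | rfl
      · exact ⟨3, Or.inr rfl, by decide⟩
      · exact ⟨2, Or.inl rfl, by decide⟩
    have h' : ∀ a, ∃ m c : ZMod 5, ((m = 1 ∧ c = 0) ∨ (m = μ' ∧ c = -(μ' * γ)) ∨
        (m = 4 ∧ c = -(4 * β))) ∧ ∀ x, (φ a)⁻¹ x = m * x + c := by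
      intro a
      rcases hφ a with h | h | h
      · exact ⟨1, 0, Or.inl ⟨rfl, rfl⟩, fun x => by rw [h]; simp⟩
      · exact ⟨μ', _, Or.inr (Or.inl ⟨rfl, rfl⟩), fun x => by rw [h]; exact inv_aff g μ μ' γ hmm hgx x⟩
      · exact ⟨4, _, Or.inr (Or.inr ⟨rfl, rfl⟩),
          fun x => by rw [h]; exact inv_aff r 4 4 β (by decide) hrx x⟩
    choose m c hmc hinv using h'
    refine glue_aff φ m c hinv (fun x0 => ?_) S
    refine thr_meas_two m _ μ' (-(μ' * γ) + (μ' - 1) * x0) (-(4 * β) + (4 - 1) * x0) hμ' ?_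
    intro a
    rcases hmc a with ⟨h1, h2⟩ | ⟨h1, h2⟩ | ⟨h1, h2⟩
    · exact Or.inl ⟨h1, by rw [h1, h2]; ring⟩
    · exact Or.inr (Or.inl ⟨h1, by rw [h1, h2]⟩)
    · exact Or.inr (Or.inr ⟨h1, by rw [h1, h2]⟩)
  · have hρ3 : ρ = 1 ∨ ρ = 2 ∨ ρ = 3 := by
      rcases hρ4 with h | h | h | h
      · exact Or.inl h
      · exact Or.inr (Or.inl h)
      · exact Or.inr (Or.inr h)
      · exact absurd h h4
    refine perm_noinv φ (fun a => ?_) S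
    rcases hφ a with h | h | h
    · exact ⟨1, 0, Or.inl rfl, fun x => by rw [h]; simp⟩
    · exact ⟨μ, γ, Or.inr hμ, fun x => by rw [h]; exact hgx x⟩
    · exact ⟨ρ, β, hρ3, fun x => by rw [h]; exact hrx x⟩

end Aff5

end Vale.Agent.Lib.P329
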