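import Vale.Agent.Lib.P329.Affine5C32

namespace Vale.Agent.Lib.P329

namespace Aff5

/-- linear read-off from three two-node threads -/
def G (t1 t2 t3 κ : ZMod 5) (q1 q2 q3 : Q2) : ZMod 5 :=
  t1 * q1.2 + t2 * q2.2 + t3 * q3.2 + κ * (if q1.1 = 1 then 1 else 0)

theorem thr_eq_G (D1 D2 D3 : Q2 → Fin 3 → Q2) (t1 t2 t3 κ : ZMod 5) (mT cT : Fin 3 → ZMod 5)
    (hstep : ∀ (ν : Fin 2) (x1 x2 x3 : ZMod 5) (g : Fin 3),
      mT g * G t1 t2 t3 κ (ν, x1) (ν, x2) (ν, x3) + cT g =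
        G t1 t2 t3 κ (D1 (ν, x1) g) (D2 (ν, x2) g) (D3 (ν, x3) g) ∧
      (D2 (ν, x2) g).1 = (D1 (ν, x1) g).1 ∧ (D3 (ν, x3) g).1 = (D1 (ν, x1) g).1)
    (w : List (Fin 3)) : ∀ (ν : Fin 2) (x1 x2 x3 : ZMod 5),
    thr mT cT (G t1 t2 t3 κ (ν, x1) (ν, x2) (ν, x3)) w =
      G t1 t2 t3 κ (run D1 (ν, x1) w) (run D2 (ν, x2) w) (run D3 (ν, x3) w) := by
  induction w with
  | nil => intro ν x1 x2 x3; rfl
  | cons g w ih =>
    intro ν x1 x2 x3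
    obtain ⟨h1, h2, h3⟩ := hstep ν x1 x2 x3 g
    rw [thr_cons, run_cons, run_cons, run_cons, h1]
    generalize D1 (ν, x1) g = q1 at *
    generalize D2 (ν, x2) g = q2 at *
    generalize D3 (ν, x3) g = q3 at *
    obtain ⟨n1, y1⟩ := q1
    obtain ⟨n2, y2⟩ := q2
    obtain ⟨n3, y3⟩ := q3
    simp only at h2 h3
    subst h2 h3
    exact ih _ y1 y2 y3

theorem meas_G (D1 D2 D3 : Q2 → Fin 3 → Q2) (c1 : CF (absorb D1 (0, 0)))
    (c2 : CF (absorb D2 (0, 0))) (c3 : CF (absorb D3 (0, 0)))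
    (t1 t2 t3 κ : ZMod 5) (mT cT : Fin 3 → ZMod 5)
    (hstep : ∀ (ν : Fin 2) (x1 x2 x3 : ZMod 5) (g : Fin 3),
      mT g * G t1 t2 t3 κ (ν, x1) (ν, x2) (ν, x3) + cT g =
        G t1 t2 t3 κ (D1 (ν, x1) g) (D2 (ν, x2) g) (D3 (ν, x3) g) ∧
      (D2 (ν, x2) g).1 = (D1 (ν, x1) g).1 ∧ (D3 (ν, x3) g).1 = (D1 (ν, x1) g).1) :
    Meas 1 (fun w : List (Fin 3) => thr mT cT 0 w) := by
  have r1 : Meas 1 (fun w : List (Fin 3) => run D1 (0, 0) w) := fun b => final_H1 D1 (0, 0) c1 b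
  have r2 : Meas 1 (fun w : List (Fin 3) => run D2 (0, 0) w) := fun b => final_H1 D2 (0, 0) c2 b
  have r3 : Meas 1 (fun w : List (Fin 3) => run D3 (0, 0) w) := fun b => final_H1 D3 (0, 0) c3 b
  refine ((r1.prod (r2.prod r3)).comp (fun p => G t1 t2 t3 κ p.1 p.2.1 p.2.2)).congr ?_
  intro w
  have h := thr_eq_G D1 D2 D3 t1 t2 t3 κ mT cT hstep w 0 0 0 0
  have h0 : G t1 t2 t3 κ ((0 : Fin 2), (0 : ZMod 5)) (0, 0) (0, 0) = 0 := by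
    simp [G]
  rw [h0] at h
  exact h

theorem meas_2a : Meas 1 (fun w : List (Fin 3) => thr ![2, 4, 1] ![1, 0, 0] 0 w) :=
  meas_G _ _ _ cf_2_0 cf_2_1 cf_2_2 3 3 0 0 _ _ (by decide +kernel)

theorem meas_2b : Meas 1 (fun w : List (Fin 3) => thr ![2, 4, 1] ![0, 1, 0] 0 w) :=
  meas_G _ _ _ cf_2_0 cf_2_1 cf_2_2 4 3 3 1 _ _ (by decide +kernel)

theorem meas_3a : Meas 1 (fun w : List (Fin 3) => thr ![3, 4, 1] ![1, 0, 0] 0 w) :=
  meas_G _ _ _ cf_3_0 cf_3_1 cf_3_2 4 0 2 0 _ _ (by decide +kernel)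

theorem meas_3b : Meas 1 (fun w : List (Fin 3) => thr ![3, 4, 1] ![0, 1, 0] 0 w) :=
  meas_G _ _ _ cf_3_0 cf_3_1 cf_3_2 4 3 3 1 _ _ (by decide +kernel)

theorem meas_gen (μ : ZMod 5) (hμ : μ = 2 ∨ μ = 3) (γ β : ZMod 5) :
    Meas 1 (fun w : List (Fin 3) => thr ![μ, 4, 1] ![γ, β, 0] 0 w) := by
  have key : ∀ (ha : Meas 1 (fun w : List (Fin 3) => thr ![μ, 4, 1] ![1, 0, 0] 0 w))
      (hb : Meas 1 (fun w : List (Fin 3) => thr ![μ, 4, 1] ![0, 1, 0] 0 w)),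
      Meas 1 (fun w : List (Fin 3) => thr ![μ, 4, 1] ![γ, β, 0] 0 w) := by
    intro ha hb
    refine ((ha.prod hb).comp (fun p => γ * p.1 + β * p.2)).congr ?_
    intro w
    rw [← thr_comb]
    congr 1
    funext g
    fin_cases g <;> simp
  rcases hμ with rfl | rfl
  · exact key meas_2a meas_2b
  · exact key meas_3a meas_3b

/-- one letter image of order four, one involution, identity letters -/
theorem thr_meas_two {α : Type} [Finite α] (m c : α → ZMod 5) (μ γ β : ZMod 5)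
    (hμ : μ = 2 ∨ μ = 3)
    (h : ∀ a, (m a = 1 ∧ c a = 0) ∨ (m a = μ ∧ c a = γ) ∨ (m a = 4 ∧ c a = β)) :
    Meas 1 (fun w : List α => thr m c 0 w) := by
  classical
  have h41 : (4 : ZMod 5) ≠ 1 := by decide
  have hμ1 : μ ≠ 1 := by rcases hμ with rfl | rfl <;> decide
  have hμ4 : μ ≠ 4 := by rcases hμ with rfl | rfl <;> decide
  refine meas_of_code m (meas_gen μ hμ γ β)
    (fun a => if m a = 1 then 2 else if m a = 4 then 1 else 0) c ?_ ?_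
  · intro a
    rcases h a with ⟨h1, _⟩ | ⟨h1, _⟩ | ⟨h1, _⟩
    · simp [h1]
    · simp [h1, hμ1, hμ4]
    · simp [h1, h41]
  · intro a
    rcases h a with ⟨h1, h2⟩ | ⟨h1, h2⟩ | ⟨h1, h2⟩
    · simp [h1, h2]
    · simp [h1, h2, hμ1, hμ4]
    · simp [h1, h2, h41]

end Aff5

end Vale.Agent.Lib.P329
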