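import Vale.Agent.Lib.P329.Defs

namespace Vale.Agent.Lib.P329

open Language

variable {α : Type}

/-- the language of all words satisfying `p` -/
def ofPred (p : List α → Prop) : Language α := {w | p w}

theorem mem_ofPred {p : List α → Prop} {w : List α} : w ∈ ofPred p ↔ p w := Iff.rfl

/-- `Hk k L`: the language `L` is denoted by an expression of star height at most `k`. -/
def Hk (k : ℕ) (L : Language α) : Prop := ∃ P : GRE α, P.sh ≤ k ∧ P.lang = L

namespace Hk

variable {k : ℕ} {L M : Language α}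

theorem zero : Hk k (0 : Language α) := ⟨GRE.zero, Nat.zero_le _, rfl⟩

theorem one : Hk k (1 : Language α) := ⟨GRE.one, Nat.zero_le _, rfl⟩

theorem letter (a : α) : Hk k ({[a]} : Language α) := ⟨GRE.letter a, Nat.zero_le _, rfl⟩

theorem add (hL : Hk k L) (hM : Hk k M) : Hk k (L + M) := by
  obtain ⟨P, hP, rfl⟩ := hL
  obtain ⟨Q, hQ, rfl⟩ := hM
  exact ⟨GRE.union P Q, max_le hP hQ, rfl⟩

theorem mul (hL : Hk k L) (hM : Hk k M) : Hk k (L * M) := by
  obtain ⟨P, hP, rfl⟩ := hL
  obtain ⟨Q, hQ, rfl⟩ := hM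
  exact ⟨GRE.cat P Q, max_le hP hQ, rfl⟩

theorem compl (hL : Hk k L) : Hk k Lᶜ := by
  obtain ⟨P, hP, rfl⟩ := hL
  exact ⟨GRE.neg P, hP, rfl⟩

theorem star (hL : Hk k L) : Hk (k + 1) (KStar.kstar L) := by
  obtain ⟨P, hP, rfl⟩ := hL
  exact ⟨GRE.star P, Nat.succ_le_succ hP, rfl⟩

theorem mono {k' : ℕ} (h : k ≤ k') (hL : Hk k L) : Hk k' L := by
  obtain ⟨P, hP, rfl⟩ := hL
  exact ⟨P, hP.trans h, rfl⟩

theorem top : Hk k (⊤ : Language α) := by
  have h : Hk k ((0 : Language α)ᶜ) := zero.compl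
  have e : ((0 : Language α)ᶜ) = ⊤ := by
    ext w
    simp only [Language.zero_def]
    constructor
    · intro _; trivial
    · intro _ h; exact h
  rwa [e] at h

theorem inf (hL : Hk k L) (hM : Hk k M) : Hk k (L ⊓ M) := by
  have h : Hk k ((Lᶜ + Mᶜ)ᶜ) := (hL.compl.add hM.compl).compl
  have e : (Lᶜ + Mᶜ)ᶜ = L ⊓ M := by
    rw [Language.add_def]
    show (Lᶜ ⊔ Mᶜ)ᶜ = L ⊓ M
    rw [compl_sup, _root_.compl_compl, _root_.compl_compl]
  rwa [e] at h

theorem pow (hL : Hk k L) (j : ℕ) : Hk k (L ^ j) := by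
  induction j with
  | zero => rw [pow_zero]; exact one
  | succ j ih => rw [pow_succ]; exact ih.mul hL

theorem congr (hL : Hk k L) (h : ∀ w, w ∈ M ↔ w ∈ L) : Hk k M := by
  have : M = L := Language.ext h
  rwa [this]

theorem finUnion {ι : Type} (s : Finset ι) (f : ι → Language α) (h : ∀ i ∈ s, Hk k (f i)) :
    Hk k (ofPred fun w => ∃ i ∈ s, w ∈ f i) := by
  classical
  induction s using Finset.induction_on with
  | empty =>
    refine zero.congr ?_
    intro w
    constructor
    · rintro ⟨i, hi, _⟩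
      simp at hi
    · intro hw
      exact absurd hw (Language.notMem_zero w)
  | insert a s ha ih =>
    have h1 : Hk k (f a) := h a (Finset.mem_insert_self a s)
    have h2 := ih (fun i hi => h i (Finset.mem_insert_of_mem hi))
    refine (h1.add h2).congr ?_
    intro w
    rw [Language.mem_add]
    constructor
    · rintro ⟨i, hi, hw⟩
      rcases Finset.mem_insert.mp hi with rfl | hi
      · exact Or.inl hw
      · exact Or.inr ⟨i, hi, hw⟩
    · rintro (hw | ⟨i, hi, hw⟩)
      · exact ⟨a, Finset.mem_insert_self a s, hw⟩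
      · exact ⟨i, Finset.mem_insert_of_mem hi, hw⟩

theorem finInter {ι : Type} (s : Finset ι) (f : ι → Language α) (h : ∀ i ∈ s, Hk k (f i)) :
    Hk k (ofPred fun w => ∀ i ∈ s, w ∈ f i) := by
  have h1 := (finUnion s (fun i => (f i)ᶜ) (fun i hi => (h i hi).compl)).compl
  refine h1.congr ?_
  intro w
  constructor
  · intro hw hc
    obtain ⟨i, hi, hwi⟩ := hc
    exact hwi (hw i hi)
  · intro hw i hi
    by_contra hc
    exact hw ⟨i, hi, hc⟩

end Hk

/-- one-letter words whose letter lies in `B` -/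
def letters (B : Set α) : Language α := ofPred fun w => ∃ a ∈ B, w = [a]

/-- words all of whose letters lie in `B` -/
def starOf (B : Set α) : Language α := ofPred fun w => ∀ x ∈ w, x ∈ B

theorem mem_letters {B : Set α} {w : List α} : w ∈ letters B ↔ ∃ a ∈ B, w = [a] := Iff.rfl

theorem mem_starOf {B : Set α} {w : List α} : w ∈ starOf B ↔ ∀ x ∈ w, x ∈ B := Iff.rfl

theorem Hk_letters [Finite α] (k : ℕ) (B : Set α) : Hk k (letters B) := by
  classical
  have := Fintype.ofFinite α
  have h := Hk.finUnion (k := k) (Finset.univ.filter (fun a => a ∈ B))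
    (fun a => ({[a]} : Language α)) (fun a _ => Hk.letter a)
  refine h.congr ?_
  intro w
  constructor
  · rintro ⟨a, ha, rfl⟩
    exact ⟨a, by simpa using ha, rfl⟩
  · rintro ⟨a, ha, hw⟩
    exact ⟨a, by simpa using ha, hw⟩

theorem Hk_starOf [Finite α] (k : ℕ) (B : Set α) : Hk k (starOf B) := by
  have h : Hk k (((⊤ : Language α) * letters Bᶜ * ⊤)ᶜ) :=
    ((Hk.top.mul (Hk_letters k Bᶜ)).mul Hk.top).compl
  refine h.congr ?_
  intro w
  constructor
  · intro hw hc
    obtain ⟨u, hu, v, _, rfl⟩ := Language.mem_mul.mp hc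
    obtain ⟨u1, _, u2, hu2, rfl⟩ := Language.mem_mul.mp hu
    obtain ⟨a, ha, rfl⟩ := hu2
    exact ha (hw a (by simp))
  · intro hw x hx
    by_contra hc
    apply hw
    obtain ⟨s, t, rfl⟩ := List.append_of_mem hx
    refine Language.mem_mul.mpr ⟨s ++ [x], ?_, t, trivial, by simp⟩
    exact Language.mem_mul.mpr ⟨s, trivial, [x], ⟨x, hc, rfl⟩, rfl⟩

end Vale.Agent.Lib.P329
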