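import Vale.Agent.Lib.P329.Cycle

namespace Vale.Agent.Lib.P329

section cert

variable {Q Γ : Type}

/-- A finite certificate for counter-freeness: `M` lists (in coded form) all transformations
induced by words; it contains the identity, is closed under the letters, and every member is
aperiodic. -/
theorem CF_of_cert (δ0 : Q → Γ → Q) (n : ℕ) (code : Q → ℕ) (dec : ℕ → Q) (lc : Γ → ℕ) (k : ℕ)
    (stp : ℕ → ℕ → ℕ)
    (hcd : ∀ q, dec (code q) = q) (hlt : ∀ q, code q < n) (hdc : ∀ s, s < n → code (dec s) = s)
    (hlc : ∀ a, lc a < k)
    (hsim : ∀ q a, code (δ0 q a) = stp (code q) (lc a))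
    (M : List (List ℕ)) (N : ℕ)
    (h0 : List.range n ∈ M)
    (hcl : ∀ L ∈ M, ∀ a ∈ List.range k, L.map (fun s => stp s a) ∈ M)
    (hap : ∀ L ∈ M, ∀ s ∈ List.range n,
      (fun t => L.getD t 0)^[N + 1] s = (fun t => L.getD t 0)^[N] s) :
    CF δ0 := by
  have himg : ∀ u : List Γ, (List.range n).map (fun s => code (run δ0 (dec s) u)) ∈ M := by
    intro u
    induction u using List.reverseRecOn with
    | nil =>
      have : (List.range n).map (fun s => code (run δ0 (dec s) [])) = List.range n := by
        conv_rhs => rw [← List.map_id (List.range n)]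
        apply List.map_congr_left
        intro s hs
        simp only [run_nil, id]
        exact hdc s (List.mem_range.mp hs)
      rw [this]
      exact h0
    | append_singleton u a ih =>
      have := hcl _ ih (lc a) (List.mem_range.mpr (hlc a))
      rw [List.map_map] at this
      refine (congrArg (· ∈ M) ?_).mp this
      apply List.map_congr_left
      intro s _
      simp only [Function.comp, run_append, run_cons, run_nil]
      exact (hsim _ _).symm
  intro u
  refine ⟨N, fun q => ?_⟩
  set L := (List.range n).map (fun s => code (run δ0 (dec s) u)) with hL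
  have hg : ∀ q, L.getD (code q) 0 = code (run δ0 q u) := by
    intro q
    have hlen : code q < L.length := by simp [hL, hlt q]
    rw [List.getD_eq_getElem _ _ hlen]
    simp [hL, hcd]
  have hit : ∀ j q, code ((fun q => run δ0 q u)^[j] q) = (fun t => L.getD t 0)^[j] (code q) := by
    intro j
    induction j with
    | zero => intro q; rfl
    | succ j ih =>
      intro q
      rw [Function.iterate_succ_apply', Function.iterate_succ_apply', ← ih q]
      exact (hg _).symm
  have h1 := hap L (himg u) (code q) (List.mem_range.mpr (hlt q))
  rw [← hit, ← hit] at h1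
  have h2 := congrArg dec h1
  rwa [hcd, hcd] at h2

end cert

end Vale.Agent.Lib.P329
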