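import Vale.Agent.Lib.P329.Mono

/-! Collection formula in groups of nilpotency class at most three. -/

namespace Vale.Agent.Lib.P329

section basic

variable {G : Type} [Group G]

/-- the commutator of two elements -/
def cm (x y : G) : G := x * y * x⁻¹ * y⁻¹

lemma cm_rel (x y : G) : x * y = cm x y * y * x := by unfold cm; group

lemma cm_eq_one {x y : G} (h : cm x y = 1) : x * y = y * x := by
  rw [cm_rel x y, h, one_mul]

lemma cm_of_comm {x y : G} (h : x * y = y * x) : cm x y = 1 := by
  unfold cm; rw [h]; group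

lemma cm_swap (x y : G) : cm y x = (cm x y)⁻¹ := by unfold cm; group

lemma cen_comm {z : G} (hz : z ∈ Subgroup.center G) (s : G) : s * z = z * s :=
  Subgroup.mem_center_iff.mp hz s

lemma cm_cen {z : G} (hz : z ∈ Subgroup.center G) (x : G) : cm x z = 1 :=
  cm_of_comm (cen_comm hz x)

lemma cm_cen_left {z : G} (hz : z ∈ Subgroup.center G) (a b : G) : cm (z * a) b = cm a b := by
  unfold cm
  calc z * a * b * (z * a)⁻¹ * b⁻¹ = a * (z * b) * (a * z)⁻¹ * b⁻¹ := by
        rw [← cen_comm hz a]; group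
    _ = a * (b * z) * (a * z)⁻¹ * b⁻¹ := by rw [← cen_comm hz b]
    _ = a * b * a⁻¹ * b⁻¹ := by group

lemma cm_cen_right {z : G} (hz : z ∈ Subgroup.center G) (a b : G) : cm a (z * b) = cm a b := by
  rw [cm_swap (z * b) a, cm_cen_left hz, ← cm_swap]

lemma rel_pow_right {z k x : G} (hz : z ∈ Subgroup.center G) (h : x * k = z * k * x) (e : ℕ) :
    x * k ^ e = z ^ e * k ^ e * x := by
  induction e with
  | zero => simp
  | succ e ih =>
    calc x * k ^ (e + 1) = (x * k ^ e) * k := by rw [pow_succ, mul_assoc]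
      _ = z ^ e * k ^ e * (x * k) := by rw [ih]; simp only [mul_assoc]
      _ = z ^ e * (k ^ e * z) * k * x := by rw [h]; simp only [mul_assoc]
      _ = z ^ e * (z * k ^ e) * k * x := by rw [cen_comm hz]
      _ = z ^ (e + 1) * k ^ (e + 1) * x := by simp only [pow_succ, mul_assoc]

lemma rel_pow_left {z k x : G} (hz : z ∈ Subgroup.center G) (h : x * k = z * k * x) (s : ℕ) :
    x ^ s * k = z ^ s * k * x ^ s := by
  induction s with
  | zero => simp
  | succ s ih =>
    calc x ^ (s + 1) * k = x * (x ^ s * k) := by rw [pow_succ', mul_assoc]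
      _ = (x * z ^ s) * k * x ^ s := by rw [ih]; simp only [mul_assoc]
      _ = z ^ s * (x * k) * x ^ s := by rw [cen_comm (pow_mem hz s)]; simp only [mul_assoc]
      _ = z ^ s * z * k * (x * x ^ s) := by rw [h]; simp only [mul_assoc]
      _ = z ^ (s + 1) * k * x ^ (s + 1) := by rw [← pow_succ, ← pow_succ']

/-- (g0) -/
lemma rel_pow {k x : G} (hz : cm x k ∈ Subgroup.center G) (s e : ℕ) :
    x ^ s * k ^ e = cm x k ^ (s * e) * k ^ e * x ^ s := by
  have h := rel_pow_left (pow_mem hz e) (rel_pow_right hz (cm_rel x k) e) s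
  rw [h, ← pow_mul, mul_comm e s]

/-- (g1) -/
lemma pow_collect {x g : G} (hz : cm x (cm x g) ∈ Subgroup.center G) (s : ℕ) :
    x ^ s * g = cm x g ^ s * cm x (cm x g) ^ (s.choose 2) * g * x ^ s := by
  induction s with
  | zero => simp
  | succ s ih =>
    have h1 : x * cm x g ^ s = cm x (cm x g) ^ s * cm x g ^ s * x :=
      rel_pow_right hz (cm_rel x (cm x g)) s
    have hc : (s + 1).choose 2 = s + s.choose 2 := by
      rw [Nat.choose_succ_succ' s 1, Nat.choose_one_right]
    have hzs := pow_mem hz s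
    have hzc := pow_mem hz (s.choose 2)
    calc x ^ (s + 1) * g = x * (x ^ s * g) := by rw [pow_succ', mul_assoc]
      _ = (x * cm x g ^ s) * cm x (cm x g) ^ (s.choose 2) * g * x ^ s := by
          rw [ih]; simp only [mul_assoc]
      _ = cm x (cm x g) ^ s * cm x g ^ s * (x * cm x (cm x g) ^ (s.choose 2)) * g * x ^ s := by
          rw [h1]; simp only [mul_assoc]
      _ = cm x (cm x g) ^ s * cm x g ^ s * cm x (cm x g) ^ (s.choose 2) * (x * g) * x ^ s := by
          rw [cen_comm hzc x]; simp only [mul_assoc]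
      _ = (cm x (cm x g) ^ s * cm x g ^ s) * (cm x (cm x g) ^ (s.choose 2) * cm x g) * g
            * (x * x ^ s) := by
          rw [cm_rel x g]; simp only [mul_assoc]
      _ = (cm x g ^ s * cm x (cm x g) ^ s) * (cm x g * cm x (cm x g) ^ (s.choose 2)) * g
            * (x * x ^ s) := by
          rw [cen_comm hzs, cen_comm hzc]
      _ = cm x g ^ s * (cm x (cm x g) ^ s * cm x g) * cm x (cm x g) ^ (s.choose 2) * g
            * (x * x ^ s) := by simp only [mul_assoc]
      _ = cm x g ^ s * (cm x g * cm x (cm x g) ^ s) * cm x (cm x g) ^ (s.choose 2) * g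
            * (x * x ^ s) := by rw [cen_comm hzs]
      _ = cm x g ^ (s + 1) * cm x (cm x g) ^ ((s + 1).choose 2) * g * x ^ (s + 1) := by
          rw [hc, pow_add (cm x (cm x g)) s, pow_succ (cm x g) s, pow_succ' x s]; simp only [mul_assoc]

end basic

section classthree

variable {G : Type} [Group G]

lemma cen_left (h4 : ∀ x y z t : G, cm (cm (cm x y) z) t = 1) (x y t : G) :
    cm (cm x y) t ∈ Subgroup.center G := by
  rw [Subgroup.mem_center_iff]
  intro s
  exact (cm_eq_one (h4 x y t s)).symm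

lemma cen_right (h4 : ∀ x y z t : G, cm (cm (cm x y) z) t = 1) (x y t : G) :
    cm t (cm x y) ∈ Subgroup.center G := by
  rw [cm_swap]
  exact inv_mem (cen_left h4 x y t)

/-- (k) two commutators commute -/
lemma comm_comm (h4 : ∀ x y z t : G, cm (cm (cm x y) z) t = 1) (x y a b : G) :
    Commute (cm x y) (cm a b) := by
  have h1 : cm x y * cm a b * (cm x y)⁻¹
      = cm (cm (cm x y) a * a) (cm (cm x y) b * b) := by
    generalize cm x y = u
    unfold cm
    group
  rw [cm_cen_left (cen_left h4 x y a), cm_cen_right (cen_left h4 x y b)] at h1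
  have h2 : cm x y * cm a b = cm a b * cm x y := by
    calc cm x y * cm a b = cm x y * cm a b * (cm x y)⁻¹ * cm x y := by group
      _ = cm a b * cm x y := by rw [h1]
  exact h2

end classthree

section lists

variable {α G : Type} [Group G]

/-- value of a list of terms -/
def ev (θ : α → ℕ) (T : List (G × Mono α)) : G := (T.map fun t => t.1 ^ t.2.eval θ).prod

lemma ev_nil (θ : α → ℕ) : ev θ ([] : List (G × Mono α)) = 1 := rfl

lemma ev_cons (θ : α → ℕ) (t : G × Mono α) (T : List (G × Mono α)) :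
    ev θ (t :: T) = t.1 ^ t.2.eval θ * ev θ T := by
  simp [ev]

lemma ev_append (θ : α → ℕ) (T T' : List (G × Mono α)) :
    ev θ (T ++ T') = ev θ T * ev θ T' := by
  simp [ev]

/-- multiplication of a monomial by the count of `l` -/
def lmul (l : α) : Mono α → Mono α
  | Mono.one => Mono.lin l
  | Mono.lin i => Mono.mul l i
  | _ => Mono.one

/-- the terms obtained when a power of `x` (with exponent the count of `l`) moves across `T` -/
def conjT (x : G) (l : α) : List (G × Mono α) → List (G × Mono α)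
  | [] => []
  | t :: T => (cm x t.1, lmul l t.2) :: t :: conjT x l T

/-- admissible terms -/
def Good (t : G × Mono α) : Prop :=
  ((∃ a b, t.1 = cm a b) ∧ (t.2 = Mono.one ∨ ∃ i, t.2 = Mono.lin i)) ∨ t.1 ∈ Subgroup.center G

lemma good_cm_cen (h4 : ∀ x y z t : G, cm (cm (cm x y) z) t = 1) {t : G × Mono α} (ht : Good t)
    (x : G) : cm x t.1 ∈ Subgroup.center G := by
  rcases ht with ⟨⟨a, b, hab⟩, _⟩ | hz
  · rw [hab]; exact cen_right h4 a b x
  · rw [cm_cen hz]; exact one_mem _

lemma good_commute (h4 : ∀ x y z t : G, cm (cm (cm x y) z) t = 1) {t t' : G × Mono α}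
    (ht : Good t) (ht' : Good t') : Commute t.1 t'.1 := by
  rcases ht with ⟨⟨a, b, hab⟩, _⟩ | hz
  · rcases ht' with ⟨⟨a', b', hab'⟩, _⟩ | hz'
    · rw [hab, hab']; exact comm_comm h4 a b a' b'
    · exact cen_comm hz' t.1
  · exact (cen_comm hz t'.1).symm

lemma good_step (h4 : ∀ x y z t : G, cm (cm (cm x y) z) t = 1) {t : G × Mono α} (ht : Good t)
    (x : G) (l : α) (θ : α → ℕ) :
    x ^ θ l * t.1 ^ t.2.eval θ
      = cm x t.1 ^ (lmul l t.2).eval θ * t.1 ^ t.2.eval θ * x ^ θ l := by
  rw [rel_pow (good_cm_cen h4 ht x)]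
  rcases ht with ⟨_, h | ⟨i, h⟩⟩ | hz
  · rw [h]; simp [lmul, Mono.eval]
  · rw [h]; simp [lmul, Mono.eval]
  · rw [cm_cen hz]; simp

lemma ev_conjT (h4 : ∀ x y z t : G, cm (cm (cm x y) z) t = 1) (x : G) (l : α) (θ : α → ℕ)
    (T : List (G × Mono α)) (hT : ∀ t ∈ T, Good t) :
    x ^ θ l * ev θ T = ev θ (conjT x l T) * x ^ θ l := by
  induction T with
  | nil => simp [conjT, ev_nil]
  | cons t T ih =>
    have ht : Good t := hT t (by simp)
    have ih' := ih (fun t' h' => hT t' (by simp [h']))
    calc x ^ θ l * ev θ (t :: T) = (x ^ θ l * t.1 ^ t.2.eval θ) * ev θ T := by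
          rw [ev_cons, mul_assoc]
      _ = cm x t.1 ^ (lmul l t.2).eval θ * t.1 ^ t.2.eval θ * (x ^ θ l * ev θ T) := by
          rw [good_step h4 ht]; simp only [mul_assoc]
      _ = ev θ (conjT x l (t :: T)) * x ^ θ l := by
          rw [ih', conjT, ev_cons, ev_cons]; simp only [mul_assoc]

lemma good_conjT (h4 : ∀ x y z t : G, cm (cm (cm x y) z) t = 1) (x : G) (l : α)
    (T : List (G × Mono α)) (hT : ∀ t ∈ T, Good t) : ∀ t ∈ conjT x l T, Good t := by
  induction T with
  | nil => simp [conjT]
  | cons t T ih =>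
    have ht : Good t := hT t (by simp)
    have ih' := ih (fun t' h' => hT t' (by simp [h']))
    intro t' h'
    simp only [conjT, List.mem_cons] at h'
    rcases h' with h' | h' | h'
    · rw [h']; exact Or.inr (good_cm_cen h4 ht x)
    · rw [h']; exact ht
    · exact ih' t' h'

/-- the ordered product of powers -/
def PL (γ : α → G) (θ : α → ℕ) (ls : List α) : G := (ls.map fun l => γ l ^ θ l).prod

lemma PL_cons (γ : α → G) (θ : α → ℕ) (l : α) (ls : List α) :
    PL γ θ (l :: ls) = γ l ^ θ l * PL γ θ ls := by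
  simp [PL]

/-- the terms created when `g` moves across the ordered product -/
def TC (γ : α → G) (g : G) : List α → List (G × Mono α)
  | [] => []
  | l :: ls => conjT (γ l) l (TC γ g ls) ++
      [(cm (γ l) g, Mono.lin l), (cm (γ l) (cm (γ l) g), Mono.bin l)]

lemma good_TC (h4 : ∀ x y z t : G, cm (cm (cm x y) z) t = 1) (γ : α → G) (g : G) (ls : List α) :
    ∀ t ∈ TC γ g ls, Good t := by
  induction ls with
  | nil => simp [TC]
  | cons l ls ih =>
    intro t ht
    simp only [TC, List.mem_append, List.mem_cons, List.not_mem_nil, or_false] at ht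
    rcases ht with ht | ht | ht
    · exact good_conjT h4 _ _ _ ih t ht
    · rw [ht]; exact Or.inl ⟨⟨_, _, rfl⟩, Or.inr ⟨l, rfl⟩⟩
    · rw [ht]; exact Or.inr (cen_right h4 _ _ _)

lemma ev_TC (h4 : ∀ x y z t : G, cm (cm (cm x y) z) t = 1) (γ : α → G) (g : G) (θ : α → ℕ)
    (ls : List α) : PL γ θ ls * g = ev θ (TC γ g ls) * g * PL γ θ ls := by
  induction ls with
  | nil => simp [TC, PL, ev_nil]
  | cons l ls ih =>
    have h1 := ev_conjT h4 (γ l) l θ (TC γ g ls) (good_TC h4 γ g ls)
    have h2 := pow_collect (x := γ l) (g := g) (cen_right h4 _ _ _) (θ l)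
    calc PL γ θ (l :: ls) * g = γ l ^ θ l * (PL γ θ ls * g) := by rw [PL_cons, mul_assoc]
      _ = (γ l ^ θ l * ev θ (TC γ g ls)) * g * PL γ θ ls := by rw [ih]; simp only [mul_assoc]
      _ = ev θ (conjT (γ l) l (TC γ g ls)) * (γ l ^ θ l * g) * PL γ θ ls := by
          rw [h1]; simp only [mul_assoc]
      _ = ev θ (TC γ g (l :: ls)) * g * PL γ θ (l :: ls) := by
          rw [h2, TC, ev_append, ev_cons, ev_cons, ev_nil, PL_cons]
          simp only [Mono.eval, mul_assoc, mul_one]

lemma PL_congr (γ : α → G) (θ θ' : α → ℕ) (ls : List α) (h : ∀ l ∈ ls, γ l ^ θ l = γ l ^ θ' l) :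
    PL γ θ ls = PL γ θ' ls := by
  unfold PL
  congr 1
  exact List.map_congr_left h

variable [DecidableEq α]

/-- the terms created when one more `γ y` is inserted in the ordered product -/
def TI (γ : α → G) (y : α) : List α → List (G × Mono α)
  | [] => []
  | l :: ls => if l = y then conjT (γ y) y (TC γ (γ y) ls) else conjT (γ l) l (TI γ y ls)

lemma good_TI (h4 : ∀ x y z t : G, cm (cm (cm x y) z) t = 1) (γ : α → G) (y : α) (ls : List α) :
    ∀ t ∈ TI γ y ls, Good t := by
  induction ls with
  | nil => simp [TI]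
  | cons l ls ih =>
    by_cases hl : l = y
    · simp only [TI, hl, if_true]
      exact good_conjT h4 _ _ _ (good_TC h4 γ (γ y) ls)
    · simp only [TI, hl, if_false]
      exact good_conjT h4 _ _ _ ih

lemma bump_same (θ : α → ℕ) (y : α) : bump θ y y = θ y + 1 := by simp [bump]

lemma bump_ne (θ : α → ℕ) {y l : α} (h : l ≠ y) : bump θ y l = θ l := by simp [bump, h]

lemma ev_TI (h4 : ∀ x y z t : G, cm (cm (cm x y) z) t = 1) (γ : α → G) (y : α) (θ : α → ℕ)
    (ls : List α) (hnd : ls.Nodup) (hy : y ∈ ls) :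
    PL γ θ ls * γ y = ev θ (TI γ y ls) * PL γ (bump θ y) ls := by
  induction ls with
  | nil => simp at hy
  | cons l ls ih =>
    rw [List.nodup_cons] at hnd
    by_cases hl : l = y
    · subst hl
      have h1 := ev_conjT h4 (γ l) l θ (TC γ (γ l) ls) (good_TC h4 γ (γ l) ls)
      have h2 : PL γ (bump θ l) ls = PL γ θ ls := by
        apply PL_congr
        intro l' hl'
        have hne : l' ≠ l := by
          intro h
          rw [h] at hl'
          exact hnd.1 hl'
        rw [bump_ne θ hne]
      calc PL γ θ (l :: ls) * γ l = γ l ^ θ l * (PL γ θ ls * γ l) := by rw [PL_cons, mul_assoc]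
        _ = (γ l ^ θ l * ev θ (TC γ (γ l) ls)) * γ l * PL γ θ ls := by
            rw [ev_TC h4]; simp only [mul_assoc]
        _ = ev θ (conjT (γ l) l (TC γ (γ l) ls)) * (γ l ^ θ l * γ l) * PL γ θ ls := by
            rw [h1]; simp only [mul_assoc]
        _ = ev θ (TI γ l (l :: ls)) * PL γ (bump θ l) (l :: ls) := by
            rw [PL_cons, bump_same, h2, pow_succ]
            simp only [TI, if_true, mul_assoc]
    · have hy' : y ∈ ls := by
        rcases List.mem_cons.mp hy with h | h
        · exact absurd h.symm hl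
        · exact h
      have h1 := ev_conjT h4 (γ l) l θ (TI γ y ls) (good_TI h4 γ y ls)
      calc PL γ θ (l :: ls) * γ y = γ l ^ θ l * (PL γ θ ls * γ y) := by rw [PL_cons, mul_assoc]
        _ = (γ l ^ θ l * ev θ (TI γ y ls)) * PL γ (bump θ y) ls := by
            rw [ih hnd.2 hy']; simp only [mul_assoc]
        _ = ev θ (TI γ y (l :: ls)) * PL γ (bump θ y) (l :: ls) := by
            rw [h1, PL_cons, bump_ne θ hl]
            simp only [TI, hl, if_false, mul_assoc]

/-- all the terms, tagged by the inserted letter -/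
def TTl (γ : α → G) (full : List α) : List α → List (α × G × Mono α)
  | [] => []
  | y :: ys => (TI γ y full).map (fun t => (y, t.1, t.2)) ++ TTl γ full ys

lemma mem_TTl (γ : α → G) (full ys : List α) (t : α × G × Mono α) (ht : t ∈ TTl γ full ys) :
    (t.2.1, t.2.2) ∈ TI γ t.1 full := by
  induction ys with
  | nil => simp [TTl] at ht
  | cons y ys ih =>
    simp only [TTl, List.mem_append, List.mem_map] at ht
    rcases ht with ⟨t', ht', rfl⟩ | ht
    · exact ht'
    · exact ih ht

lemma prod_tag_same (θ : α → ℕ) (y : α) (T : List (G × Mono α)) :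
    ((T.map (fun t => ((y, t.1, t.2) : α × G × Mono α))).map
      (fun t => t.2.1 ^ (if t.1 = y then t.2.2.eval θ else 0))).prod = ev θ T := by
  simp [ev, List.map_map, Function.comp_def]

lemma prod_tag_ne (θ : α → ℕ) {y y' : α} (h : y' ≠ y) (T : List (G × Mono α)) :
    ((T.map (fun t => ((y', t.1, t.2) : α × G × Mono α))).map
      (fun t => t.2.1 ^ (if t.1 = y then t.2.2.eval θ else 0))).prod = 1 := by
  induction T with
  | nil => simp
  | cons t T ih =>
    simp only [List.map_cons, List.prod_cons, ih, h, if_false, pow_zero, mul_one]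

lemma prod_TTl_notMem (γ : α → G) (θ : α → ℕ) (y : α) (full ys : List α) (hy : y ∉ ys) :
    ((TTl γ full ys).map (fun t => t.2.1 ^ (if t.1 = y then t.2.2.eval θ else 0))).prod = 1 := by
  induction ys with
  | nil => simp [TTl]
  | cons y' ys ih =>
    rw [List.mem_cons, not_or] at hy
    rw [TTl, List.map_append, List.prod_append, ih hy.2, prod_tag_ne θ (Ne.symm hy.1), mul_one]

lemma prod_TTl (γ : α → G) (θ : α → ℕ) (y : α) (full ys : List α) (hnd : ys.Nodup)
    (hy : y ∈ ys) :
    ((TTl γ full ys).map (fun t => t.2.1 ^ (if t.1 = y then t.2.2.eval θ else 0))).prod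
      = ev θ (TI γ y full) := by
  induction ys with
  | nil => simp at hy
  | cons y' ys ih =>
    rw [List.nodup_cons] at hnd
    rw [TTl, List.map_append, List.prod_append]
    by_cases h : y' = y
    · subst h
      rw [prod_tag_same, prod_TTl_notMem γ θ y' full ys hnd.1, mul_one]
    · have hy' : y ∈ ys := by
        rcases List.mem_cons.mp hy with h' | h'
        · exact absurd h'.symm h
        · exact h'
      rw [prod_tag_ne θ h, ih hnd.2 hy', one_mul]

end lists

theorem collect {α G : Type} [DecidableEq α] [Finite α] [Group G]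
    (h4 : ∀ x y z t : G, cm (cm (cm x y) z) t = 1) (γ : α → G) :
    ∃ (P : (α → ℕ) → G) (TT : List (α × G × Mono α)),
      P (fun _ => 0) = 1 ∧
      (∀ N, (∀ g : G, g ^ N = 1) → ∀ θ θ', (∀ i, θ i % N = θ' i % N) → P θ = P θ') ∧
      (∀ t ∈ TT, ∀ t' ∈ TT, Commute t.2.1 t'.2.1) ∧
      (∀ θ y, P θ * γ y =
        (TT.map (fun t => t.2.1 ^ (if t.1 = y then t.2.2.eval θ else 0))).prod
          * P (bump θ y)) := by
  classical
  have : Fintype α := Fintype.ofFinite α
  let ls : List α := (Finset.univ : Finset α).toList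
  have hnd : ls.Nodup := Finset.nodup_toList _
  have hmem : ∀ y, y ∈ ls := fun y => by simp [ls]
  refine ⟨fun θ => PL γ θ ls, TTl γ ls ls, ?_, ?_, ?_, ?_⟩
  · show PL γ (fun _ => 0) ls = 1
    unfold PL
    simp
  · intro N hN θ θ' h
    apply PL_congr
    intro l _
    rw [pow_eq_pow_mod (θ l) (hN (γ l)), pow_eq_pow_mod (θ' l) (hN (γ l)), h l]
  · intro t ht t' ht'
    exact good_commute h4 (good_TI h4 γ t.1 ls _ (mem_TTl γ ls ls t ht))
      (good_TI h4 γ t'.1 ls _ (mem_TTl γ ls ls t' ht'))
  · intro θ y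
    rw [prod_TTl γ θ y ls ls hnd (hmem y)]
    exact ev_TI h4 γ y θ ls hnd (hmem y)

end Vale.Agent.Lib.P329
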