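import Vale.Agent.Lib.P329.MeasPsum
import Vale.Agent.Lib.P329.Collect

namespace Vale.Agent.Lib.P329

open Language

theorem prod_pow_merge {G ι : Type} [Group G] (κ : ι → G) (e1 e2 : ι → ℕ) (L : List ι) :
    (∀ t ∈ L, ∀ t' ∈ L, Commute (κ t) (κ t')) →
    (L.map fun t => κ t ^ e1 t).prod * (L.map fun t => κ t ^ e2 t).prod =
      (L.map fun t => κ t ^ (e1 t + e2 t)).prod := by
  induction L with
  | nil => intro _; simp
  | cons t L ih =>
    intro hc
    have ih' := ih (fun a ha b hb => hc a (List.mem_cons_of_mem _ ha) b (List.mem_cons_of_mem _ hb))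
    simp only [List.map_cons, List.prod_cons]
    have hcm : Commute (L.map fun t => κ t ^ e1 t).prod (κ t ^ e2 t) := by
      apply Commute.list_prod_left
      intro x hx
      obtain ⟨s, hs, rfl⟩ := List.mem_map.mp hx
      exact ((hc s (List.mem_cons_of_mem _ hs) t List.mem_cons_self).pow_left _).pow_right _
    calc κ t ^ e1 t * (L.map fun t => κ t ^ e1 t).prod * (κ t ^ e2 t * (L.map fun t => κ t ^ e2 t).prod)
        = κ t ^ e1 t * ((L.map fun t => κ t ^ e1 t).prod * κ t ^ e2 t) *
            (L.map fun t => κ t ^ e2 t).prod := by group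
      _ = κ t ^ e1 t * (κ t ^ e2 t * (L.map fun t => κ t ^ e1 t).prod) *
            (L.map fun t => κ t ^ e2 t).prod := by rw [hcm.eq]
      _ = κ t ^ (e1 t + e2 t) * ((L.map fun t => κ t ^ e1 t).prod *
            (L.map fun t => κ t ^ e2 t).prod) := by rw [pow_add]; group
      _ = _ := by rw [ih']

theorem class3_formula {α G : Type} [DecidableEq α] [Group G] (γ : α → G)
    (P : (α → ℕ) → G) (TT : List (α × G × Mono α))
    (hcomm : ∀ t ∈ TT, ∀ t' ∈ TT, Commute t.2.1 t'.2.1)
    (hstep : ∀ (θ : α → ℕ) (y : α), P θ * γ y =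
      (TT.map (fun t => t.2.1 ^ (if t.1 = y then t.2.2.eval θ else 0))).prod * P (bump θ y))
    (w : List α) : ∀ θ : α → ℕ,
    P θ * (w.map γ).prod =
      (TT.map (fun t => t.2.1 ^ psum t.1 (fun θ => t.2.2.eval θ) θ w)).prod * P (adv θ w) := by
  induction w with
  | nil => intro θ; simp [psum_nil, adv_nil]
  | cons y w ih =>
    intro θ
    rw [List.map_cons, List.prod_cons, ← mul_assoc, hstep, mul_assoc, ih, ← mul_assoc,
      prod_pow_merge (fun t : α × G × Mono α => t.2.1) _ _ TT hcomm, adv_cons]
    congr 2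
    refine List.map_congr_left (fun t _ => ?_)
    rw [psum_cons]
    by_cases h : t.1 = y
    · rw [if_pos h, if_pos h.symm]
    · rw [if_neg h, if_neg (fun e => h e.symm)]

theorem meas_list_prod {α G ι : Type} [Group G] [Finite G] {N : ℕ} [NeZero N] (κ : ι → G)
    (F : ι → List α → ZMod N) (hF : ∀ t, Meas 1 (F t)) (L : List ι) :
    Meas 1 (fun w : List α => (L.map fun t => κ t ^ (F t w).val).prod) := by
  induction L with
  | nil => exact Meas.const 1 _
  | cons t L ih =>
    exact ((hF t).prod ih).comp (fun x : ZMod N × G => κ t ^ x.1.val * x.2)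

/-- every language recognised by a finite group in which all commutators of weight four are trivial
has generalized star height at most one -/
theorem main_class3 {α G : Type} [Finite α] [Group G] [Finite G]
    (h4 : ∀ x y z t : G, cm (cm (cm x y) z) t = 1) (φ : α → G) (S : Set G) :
    Hk 1 (ofPred fun w : List α => (w.map φ).prod ∈ S) := by
  classical
  obtain ⟨P, TT, hP0, hPer, hcomm, hstep⟩ := collect h4 φ
  set N := Nat.card G with hN
  have hNpos : 0 < N := Nat.card_pos
  have : NeZero N := ⟨by omega⟩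
  have hpow : ∀ g : G, g ^ N = 1 := fun g => pow_card_eq_one'
  have m1 := meas_list_prod (α := α) (N := N) (fun t : α × G × Mono α => t.2.1)
    (fun t w => (psum t.1 (fun θ => t.2.2.eval θ) (fun _ => 0) w : ZMod N))
    (fun t => meas_psum t.1 t.2.2 N) TT
  have m2 : Meas 1 (fun w : List α => fun a : α => (cnt ({a} : Set α) w : ZMod N)) :=
    Meas.pi (fun a => meas_cnt {a} N)
  have hfin := (m1.prod m2).pred (fun x : G × (α → ZMod N) => x.1 * P (fun a => (x.2 a).val) ∈ S)
  refine hfin.congr ?_
  intro w
  have e : (w.map φ).prod =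
      (TT.map fun t => t.2.1 ^ ((psum t.1 (fun θ => t.2.2.eval θ) (fun _ => 0) w : ℕ) : ZMod N).val).prod *
        P (fun a => ((cnt ({a} : Set α) w : ℕ) : ZMod N).val) := by
    have h0 := class3_formula φ P TT hcomm hstep w (fun _ => 0)
    rw [hP0, one_mul] at h0
    rw [h0]
    congr 1
    · congr 1
      refine List.map_congr_left (fun t _ => ?_)
      rw [ZMod.val_natCast]
      exact pow_eq_pow_mod _ (hpow _)
    · apply hPer N hpow
      intro i
      rw [adv_apply, ZMod.val_natCast, Nat.mod_mod, zero_add]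
  show (w.map φ).prod ∈ S ↔ _ ∈ S
  rw [← e]

/-- every language recognised by a finite nilpotent group of class at most three has generalized
star height at most one -/
theorem main_nilpotent3 {α G : Type} [Finite α] [Group G] [Finite G] [Group.IsNilpotent G]
    (hc : Group.nilpotencyClass G ≤ 3) (φ : α → G) (S : Set G) :
    Hk 1 (ofPred fun w : List α => (w.map φ).prod ∈ S) := by
  refine main_class3 ?_ φ S
  intro x y z t
  have h3 : Subgroup.lowerCentralSeries (⊤ : Subgroup G) 3 = ⊥ :=
    Subgroup.lowerCentralSeries_eq_bot_iff_nilpotencyClass_le.mpr hc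
  have hm : cm (cm (cm x y) z) t ∈ Subgroup.lowerCentralSeries (⊤ : Subgroup G) 3 := by
    have h1 : cm x y ∈ Subgroup.lowerCentralSeries (⊤ : Subgroup G) 1 :=
      Subgroup.commutator_mem_commutator (Subgroup.mem_top x) (Subgroup.mem_top y)
    have h2 : cm (cm x y) z ∈ Subgroup.lowerCentralSeries (⊤ : Subgroup G) 2 :=
      Subgroup.commutator_mem_commutator h1 (Subgroup.mem_top z)
    exact Subgroup.commutator_mem_commutator h2 (Subgroup.mem_top t)
  rw [h3] at hm
  exact Subgroup.mem_bot.mp hm

end Vale.Agent.Lib.P329
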