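import Vale.Agent.Lib.P329.Hub

namespace Vale.Agent.Lib.P329

open Language

open Classical in
/-- number of letters of `w` that lie in `T` -/
noncomputable def cnt {α : Type} (T : Set α) : List α → ℕ
  | [] => 0
  | x :: w => (if x ∈ T then 1 else 0) + cnt T w

open Classical in
/-- number of occurrences in `w` of letters of `S` (outside `T`) such that `p` plus the number of
letters of `T` before the occurrence is congruent to `t` modulo `m` -/
noncomputable def cntAt {α : Type} (T S : Set α) (m t : ℕ) : ℕ → List α → ℕ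
  | _, [] => 0
  | p, x :: w =>
    if x ∈ T then cntAt T S m t (p + 1) w
    else (if x ∈ S ∧ p % m = t then 1 else 0) + cntAt T S m t p w

variable {α : Type} (T S : Set α) (m t : ℕ)

theorem cnt_nil : cnt T ([] : List α) = 0 := rfl

theorem cnt_cons_mem {x : α} (hx : x ∈ T) (w : List α) : cnt T (x :: w) = cnt T w + 1 := by
  simp [cnt, hx, add_comm]

theorem cnt_cons_notMem {x : α} (hx : x ∉ T) (w : List α) : cnt T (x :: w) = cnt T w := by
  simp [cnt, hx]

theorem cnt_append (u w : List α) : cnt T (u ++ w) = cnt T u + cnt T w := by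
  induction u with
  | nil => simp [cnt]
  | cons x u ih =>
    by_cases hx : x ∈ T
    · rw [List.cons_append, cnt_cons_mem T hx, cnt_cons_mem T hx, ih]; omega
    · rw [List.cons_append, cnt_cons_notMem T hx, cnt_cons_notMem T hx, ih]

theorem cnt_starOf {u : List α} (hu : u ∈ starOf Tᶜ) : cnt T u = 0 := by
  induction u with
  | nil => rfl
  | cons x u ih =>
    have hx : x ∉ T := hu x (by simp)
    rw [cnt_cons_notMem T hx]
    exact ih (fun y hy => hu y (by simp [hy]))

theorem starOf_of_cnt {u : List α} (hu : cnt T u = 0) : u ∈ starOf Tᶜ := by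
  induction u with
  | nil => intro x hx; simp at hx
  | cons x u ih =>
    by_cases hx : x ∈ T
    · rw [cnt_cons_mem T hx] at hu; omega
    · rw [cnt_cons_notMem T hx] at hu
      intro y hy
      rcases List.mem_cons.mp hy with rfl | hy
      · exact hx
      · exact ih hu y hy

/-- the code `(complement of T)^* T` -/
def codeD : Language α := starOf Tᶜ * letters T

theorem Hk_codeD [Finite α] (k : ℕ) : Hk k (codeD T) := (Hk_starOf k _).mul (Hk_letters k _)

theorem cons_mem_starOf {B : Set α} {x : α} {u : List α} (hx : x ∈ B) (hu : u ∈ starOf B) :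
    x :: u ∈ starOf B := by
  intro y hy
  rcases List.mem_cons.mp hy with rfl | hy
  · exact hx
  · exact hu y hy

theorem nil_mem_starOf {B : Set α} : ([] : List α) ∈ starOf B := by
  intro y hy
  simp at hy

theorem cnt_codeD {k : List α} (hk : k ∈ codeD T) (w : List α) :
    cnt T (k ++ w) = cnt T w + 1 := by
  obtain ⟨u, hu, v, ⟨x, hx, rfl⟩, rfl⟩ := Language.mem_mul.mp hk
  rw [cnt_append, cnt_append, cnt_starOf T hu, cnt_cons_mem T hx, cnt_nil]
  omega

theorem exists_codeD (w : List α) (hw : cnt T w ≠ 0) : ∃ k ∈ codeD T, ∃ w', w = k ++ w' := by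
  induction w with
  | nil => exact absurd rfl hw
  | cons x w ih =>
    by_cases hx : x ∈ T
    · exact ⟨[x], Language.mem_mul.mpr ⟨[], nil_mem_starOf, [x], ⟨x, hx, rfl⟩, rfl⟩, w, rfl⟩
    · rw [cnt_cons_notMem T hx] at hw
      obtain ⟨k, hk, w', rfl⟩ := ih hw
      obtain ⟨u, hu, v, hv, rfl⟩ := Language.mem_mul.mp hk
      exact ⟨x :: (u ++ v), Language.mem_mul.mpr ⟨x :: u, cons_mem_starOf hx hu, v, hv, rfl⟩, w', rfl⟩

theorem H1_cnt_mod [Finite α] (n r : ℕ) : Hk 1 (ofPred fun w => cnt T w % n = r) :=
  hub_H1 (cnt T) (codeD T) (fun _ hk w => cnt_codeD T hk w) (exists_codeD T) (Hk_codeD T 0) n r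

theorem exists_codeD_pow (j : ℕ) : ∀ (w : List α), j ≤ cnt T w →
    ∃ d ∈ codeD T ^ j, ∃ w', w = d ++ w' := by
  induction j with
  | zero =>
    intro w _
    exact ⟨[], by rw [pow_zero]; exact Language.nil_mem_one, w, rfl⟩
  | succ j ih =>
    intro w hw
    obtain ⟨k, hk, w', rfl⟩ := exists_codeD T w (by omega)
    rw [cnt_codeD T hk] at hw
    obtain ⟨d, hd, w'', rfl⟩ := ih w' (by omega)
    refine ⟨k ++ d, ?_, w'', by simp⟩
    rw [pow_succ']
    exact Language.append_mem_mul hk hd

theorem cnt_codeD_pow (j : ℕ) : ∀ {d : List α}, d ∈ codeD T ^ j → ∀ w,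
    cnt T (d ++ w) = cnt T w + j := by
  induction j with
  | zero =>
    intro d hd w
    rw [pow_zero, Language.mem_one] at hd
    subst hd
    rfl
  | succ j ih =>
    intro d hd w
    rw [pow_succ'] at hd
    obtain ⟨k, hk, d', hd', rfl⟩ := Language.mem_mul.mp hd
    rw [List.append_assoc, cnt_codeD T hk, ih hd']
    omega

/-! ### the statistic `cntAt` -/

theorem cntAt_nil (p : ℕ) : cntAt T S m t p ([] : List α) = 0 := by
  simp [cntAt]

theorem cntAt_cons_mem {x : α} (hx : x ∈ T) (p : ℕ) (w : List α) :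
    cntAt T S m t p (x :: w) = cntAt T S m t (p + 1) w := by
  simp [cntAt, hx]

theorem cntAt_cons_hit {x : α} (hx : x ∉ T) (hS : x ∈ S) {p : ℕ} (hp : p % m = t) (w : List α) :
    cntAt T S m t p (x :: w) = cntAt T S m t p w + 1 := by
  simp [cntAt, hx, hS, hp, add_comm]

theorem cntAt_cons_miss {x : α} (hx : x ∉ T) {p : ℕ} (h : ¬ (x ∈ S ∧ p % m = t)) (w : List α) :
    cntAt T S m t p (x :: w) = cntAt T S m t p w := by
  simp only [cntAt, hx, if_false, h, zero_add]

theorem cntAt_add_period (w : List α) : ∀ p, cntAt T S m t (p + m) w = cntAt T S m t p w := by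
  induction w with
  | nil => intro p; rw [cntAt_nil, cntAt_nil]
  | cons x w ih =>
    intro p
    by_cases hx : x ∈ T
    · rw [cntAt_cons_mem T S m t hx, cntAt_cons_mem T S m t hx, ← ih (p + 1)]
      congr 1
      omega
    · by_cases h : x ∈ S ∧ p % m = t
      · rw [cntAt_cons_hit T S m t hx h.1 h.2,
          cntAt_cons_hit T S m t hx h.1 (by rw [Nat.add_mod_right]; exact h.2), ih]
      · rw [cntAt_cons_miss T S m t hx h,
          cntAt_cons_miss T S m t hx (by rw [Nat.add_mod_right]; exact h), ih]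

/-- reading letters that are neither toggles nor counted -/
theorem cntAt_skip {u : List α} (hu : u ∈ starOf (Tᶜ ∩ Sᶜ)) (p : ℕ) (w : List α) :
    cntAt T S m t p (u ++ w) = cntAt T S m t p w := by
  induction u with
  | nil => rfl
  | cons x u ih =>
    have hx := hu x (by simp)
    rw [List.cons_append, cntAt_cons_miss T S m t hx.1 (fun h => hx.2 h.1)]
    exact ih (fun y hy => hu y (by simp [hy]))

/-- reading non-toggles at a phase different from `t` -/
theorem cntAt_skip' {u : List α} (hu : u ∈ starOf Tᶜ) {p : ℕ} (hp : p % m ≠ t) (w : List α) :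
    cntAt T S m t p (u ++ w) = cntAt T S m t p w := by
  induction u with
  | nil => rfl
  | cons x u ih =>
    have hx := hu x (by simp)
    rw [List.cons_append, cntAt_cons_miss T S m t hx (fun h => hp h.2)]
    exact ih (fun y hy => hu y (by simp [hy]))

theorem cntAt_codeD {k : List α} (hk : k ∈ codeD T) {p : ℕ} (hp : p % m ≠ t) (w : List α) :
    cntAt T S m t p (k ++ w) = cntAt T S m t (p + 1) w := by
  obtain ⟨u, hu, v, ⟨x, hx, rfl⟩, rfl⟩ := Language.mem_mul.mp hk
  rw [List.append_assoc, cntAt_skip' T S m t hu hp, List.singleton_append,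
    cntAt_cons_mem T S m t hx]

theorem cntAt_codeD_pow (j : ℕ) : ∀ {d : List α}, d ∈ codeD T ^ j → ∀ (q : ℕ),
    (∀ i < j, (q + i) % m ≠ t) → ∀ w, cntAt T S m t q (d ++ w) = cntAt T S m t (q + j) w := by
  induction j with
  | zero =>
    intro d hd q _ w
    rw [pow_zero, Language.mem_one] at hd
    subst hd
    rfl
  | succ j ih =>
    intro d hd q hq w
    rw [pow_succ'] at hd
    obtain ⟨k, hk, d', hd', rfl⟩ := Language.mem_mul.mp hd
    rw [List.append_assoc, cntAt_codeD T S m t hk (by simpa using hq 0 (by omega)),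
      ih hd' (q + 1) (fun i hi => by
        have := hq (i + 1) (by omega)
        rwa [show q + 1 + i = q + (i + 1) by omega])]
    congr 1
    omega

theorem cntAt_eq_zero (w : List α) : ∀ q, (∀ i ≤ cnt T w, (q + i) % m ≠ t) →
    cntAt T S m t q w = 0 := by
  induction w with
  | nil => intro q _; exact cntAt_nil T S m t q
  | cons x w ih =>
    intro q hq
    by_cases hx : x ∈ T
    · rw [cntAt_cons_mem T S m t hx]
      rw [cnt_cons_mem T hx] at hq
      apply ih
      intro i hi
      have := hq (i + 1) (by omega)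
      rwa [show q + 1 + i = q + (i + 1) by omega]
    · rw [cnt_cons_notMem T hx] at hq
      rw [cntAt_cons_miss T S m t hx (fun h => hq 0 (by omega) (by simpa using h.2))]
      exact ih q hq

end Vale.Agent.Lib.P329
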