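import Vale.Agent.Lib.P329.Dfa

namespace Vale.Agent.Lib.P329

section generic

variable {Q Γ : Type} (δ : Q → Γ → Q) (h : Q)

/-- action of the word `u` on the automaton with absorbing hub -/
noncomputable def act (u : List Γ) : Q → Q := fun q => run (absorb δ h) q u

theorem act_hub (u : List Γ) : act δ h u h = h := absorb_hub δ h u

theorem act_append (u w : List Γ) (q : Q) : act δ h (u ++ w) q = act δ h w (act δ h u q) :=
  run_append _ _ _ _

theorem act_nil (q : Q) : act δ h [] q = q := rfl

theorem act_cons (a : Γ) (w : List Γ) (q : Q) :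
    act δ h (a :: w) q = act δ h w (absorb δ h q a) := rfl

theorem absorb_of_ne {q : Q} (hq : q ≠ h) (a : Γ) : absorb δ h q a = δ q a := by
  simp [absorb, hq]

theorem act_iter_hub (u : List Γ) (j : ℕ) : (act δ h u)^[j] h = h := by
  induction j with
  | zero => rfl
  | succ j ih => rw [Function.iterate_succ_apply', ih, act_hub]

theorem alive_prefix {u w : List Γ} {q : Q} (hq : act δ h (u ++ w) q ≠ h) : act δ h u q ≠ h := by
  intro hc
  rw [act_append, hc, act_hub] at hq
  exact hq rfl

theorem act_eq_run (w : List Γ) : ∀ {q : Q}, act δ h w q ≠ h → act δ h w q = run δ q w := by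
  induction w with
  | nil => intro q _; rfl
  | cons a w ih =>
    intro q hq
    have hq0 : q ≠ h := by
      intro hc
      rw [hc, act_hub] at hq
      exact hq rfl
    rw [act_cons, absorb_of_ne δ h hq0] at hq ⊢
    rw [ih hq, run_cons]

/-- a finite self-map without nontrivial cycles is aperiodic -/
theorem iterate_stabilises [Finite Q] (f : Q → Q)
    (hf : ∀ (x : Q) (k : ℕ), 0 < k → f^[k] x = x → f x = x) :
    ∀ q, f^[Nat.card Q + 1] q = f^[Nat.card Q] q := by
  classical
  have := Fintype.ofFinite Q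
  intro q
  -- two of the first `card Q + 1` iterates coincide
  have hpig : ∃ i j : Fin (Nat.card Q + 1), i ≠ j ∧ f^[i] q = f^[j] q := by
    apply Fintype.exists_ne_map_eq_of_card_lt (fun i : Fin (Nat.card Q + 1) => f^[i] q)
    rw [Fintype.card_fin, Nat.card_eq_fintype_card]
    omega
  obtain ⟨i, j, hij, e⟩ := hpig
  have key : ∀ i j : ℕ, i < j → j ≤ Nat.card Q → f^[i] q = f^[j] q →
      f^[Nat.card Q + 1] q = f^[Nat.card Q] q := by
    intro i j hlt hj e
    have h1 : f^[j - i] (f^[i] q) = f^[i] q := by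
      rw [← Function.iterate_add_apply, Nat.sub_add_cancel hlt.le, ← e]
    have h2 : f (f^[i] q) = f^[i] q := hf _ _ (by omega) h1
    have h3 : ∀ t, f^[t] (f^[i] q) = f^[i] q := by
      intro t
      induction t with
      | zero => rfl
      | succ t ih => rw [Function.iterate_succ_apply', ih, h2]
    have e1 : f^[Nat.card Q + 1] q = f^[Nat.card Q + 1 - i] (f^[i] q) := by
      rw [← Function.iterate_add_apply]
      congr 1
      omega
    have e2 : f^[Nat.card Q] q = f^[Nat.card Q - i] (f^[i] q) := by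
      rw [← Function.iterate_add_apply]
      congr 1
      omega
    rw [e1, e2, h3, h3]
  rcases lt_or_gt_of_ne (fun hc => hij (Fin.ext hc) : (i : ℕ) ≠ j) with hlt | hlt
  · exact key i j hlt (by omega) e
  · exact key j i hlt (by omega) e.symm

/-- periodic points outside the hub -/
def PP (u : List Γ) (x : Q) : Prop := x ≠ h ∧ ∃ k, 0 < k ∧ (act δ h u)^[k] x = x

theorem CF_of_noCycle [Finite Q] (hnc : ∀ u x, PP δ h u x → act δ h u x = x) :
    CF (absorb δ h) := by
  intro u
  refine ⟨Nat.card Q, iterate_stabilises (act δ h u) ?_⟩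
  intro x k hk hx
  by_cases hxh : x = h
  · rw [hxh, act_hub]
  · exact hnc u x ⟨hxh, k, hk, hx⟩

variable {δ h}

theorem PP.iter_ne {u : List Γ} {x : Q} (hx : PP δ h u x) (j : ℕ) : (act δ h u)^[j] x ≠ h := by
  obtain ⟨hne, k, hk, e⟩ := hx
  intro hc
  -- then all later iterates are the hub, in particular the iterate number `k * (j+1)`
  have h1 : ∀ t, (act δ h u)^[k * t] x = x := by
    intro t
    induction t with
    | zero => rfl
    | succ t ih => rw [Nat.mul_succ, Function.iterate_add_apply, e, ih]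
  have h2 : (act δ h u)^[k * (j + 1)] x = h := by
    have : k * (j + 1) = (k * (j + 1) - j) + j := by
      have : j ≤ k * (j + 1) := by nlinarith
      omega
    rw [this, Function.iterate_add_apply, hc, act_iter_hub]
  rw [h1] at h2
  exact hne h2

theorem PP.iter {u : List Γ} {x : Q} (hx : PP δ h u x) (j : ℕ) : PP δ h u ((act δ h u)^[j] x) := by
  refine ⟨hx.iter_ne j, ?_⟩
  obtain ⟨_, k, hk, e⟩ := hx
  refine ⟨k, hk, ?_⟩
  rw [← Function.iterate_add_apply, Nat.add_comm, Function.iterate_add_apply, e]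

theorem act_conj_iter (u1 u2 : List Γ) (x : Q) (j : ℕ) :
    (act δ h (u2 ++ u1))^[j] (act δ h u1 x) = act δ h u1 ((act δ h (u1 ++ u2))^[j] x) := by
  induction j with
  | zero => rfl
  | succ j ih =>
    rw [Function.iterate_succ_apply', ih, Function.iterate_succ_apply', act_append, act_append]

theorem PP.conj {u1 u2 : List Γ} {x : Q} (hx : PP δ h (u1 ++ u2) x) :
    PP δ h (u2 ++ u1) (act δ h u1 x) := by
  have h1 : act δ h u1 x ≠ h := by
    have := hx.iter_ne 1
    rw [Function.iterate_one] at this
    exact alive_prefix δ h this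
  obtain ⟨_, k, hk, e⟩ := hx
  exact ⟨h1, k, hk, by rw [act_conj_iter, e]⟩

/-- a periodic point returns to itself after reading `u` followed by some word -/
theorem PP.word {u : List Γ} {x : Q} (hx : PP δ h u x) : ∃ W, act δ h (u ++ W) x = x := by
  obtain ⟨_, k, hk, e⟩ := hx
  have key : ∀ j (y : Q), ∃ W, ∀ z, z = y → (act δ h u)^[j] z = act δ h W z := by
    intro j
    induction j with
    | zero => intro y; exact ⟨[], fun z _ => rfl⟩
    | succ j ih =>
      intro y
      obtain ⟨W, hW⟩ := ih (act δ h u y)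
      refine ⟨u ++ W, ?_⟩
      intro z hz
      rw [Function.iterate_succ_apply, act_append]
      exact hW _ (by rw [hz])
  obtain ⟨k', rfl⟩ : ∃ k', k = k' + 1 := ⟨k - 1, by omega⟩
  obtain ⟨W, hW⟩ := key k' (act δ h u x)
  refine ⟨W, ?_⟩
  rw [act_append, ← hW _ rfl, ← Function.iterate_succ_apply, e]

/-- the last step into a periodic point -/
theorem PP.last {u0 : List Γ} {a : Γ} {x : Q} (hx : PP δ h (u0 ++ [a]) x) :
    ∃ z, z ≠ h ∧ x = δ z a := by
  obtain ⟨hne, k, hk, e⟩ := hx
  obtain ⟨k', rfl⟩ : ∃ k', k = k' + 1 := ⟨k - 1, by omega⟩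
  rw [Function.iterate_succ_apply', act_append] at e
  set z := act δ h u0 ((act δ h (u0 ++ [a]))^[k'] x) with hz
  have hzne : z ≠ h := by
    intro hc
    rw [hc, act_hub] at e
    exact hne e.symm
  refine ⟨z, hzne, ?_⟩
  rw [act_cons, act_nil, absorb_of_ne δ h hzne] at e
  exact e.symm

/-- if a conjugate point is fixed, so is the point itself -/
theorem PP.fixed_of_conj {u1 u2 : List Γ} {x : Q} (hx : PP δ h (u1 ++ u2) x)
    (hfix : act δ h (u2 ++ u1) (act δ h u1 x) = act δ h u1 x) : act δ h (u1 ++ u2) x = x := by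
  obtain ⟨_, k, hk, e⟩ := hx
  obtain ⟨k', rfl⟩ : ∃ k', k = k' + 1 := ⟨k - 1, by omega⟩
  have h1 : ∀ j, (act δ h (u2 ++ u1))^[j] (act δ h u1 x) = act δ h u1 x := by
    intro j
    induction j with
    | zero => rfl
    | succ j ih => rw [Function.iterate_succ_apply', ih, hfix]
  have h2 : act δ h u1 ((act δ h (u1 ++ u2))^[k'] x) = act δ h u1 x := by
    rw [← act_conj_iter, h1]
  rw [Function.iterate_succ_apply', act_append, h2, ← act_append] at e
  exact e

end generic

end Vale.Agent.Lib.P329
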