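import Vale.Agent.Lib.P329.Basic

namespace Vale.Agent.Lib.P329

open Language

variable {α : Type}

section hub

variable (F : List α → ℕ) (K : Language α)

theorem hub_exact
    (h2 : ∀ k ∈ K, ∀ w, F (k ++ w) = F w + 1)
    (h3 : ∀ w, F w ≠ 0 → ∃ k ∈ K, ∃ w', w = k ++ w') (j : ℕ) :
    ∀ w, F w = j ↔ w ∈ K ^ j * ofPred (fun w => F w = 0) := by
  induction j with
  | zero =>
    intro w
    rw [pow_zero, one_mul]
    exact Iff.rfl
  | succ j ih =>
    intro w
    rw [pow_succ', mul_assoc]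
    constructor
    · intro hw
      obtain ⟨k, hk, w', rfl⟩ := h3 w (by omega)
      have := h2 k hk w'
      exact Language.append_mem_mul hk ((ih w').mp (by omega))
    · intro hw
      obtain ⟨k, hk, w', hw', rfl⟩ := Language.mem_mul.mp hw
      rw [h2 k hk w', (ih w').mpr hw']

theorem hub_tail
    (h2 : ∀ k ∈ K, ∀ w, F (k ++ w) = F w + 1)
    (h3 : ∀ w, F w ≠ 0 → ∃ k ∈ K, ∃ w', w = k ++ w') :
    ofPred (fun w => F w = 0) = (K * ⊤)ᶜ := by
  ext w
  constructor
  · intro hw hc
    obtain ⟨k, hk, w', _, rfl⟩ := Language.mem_mul.mp hc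
    have := h2 k hk w'
    have hw0 : F (k ++ w') = 0 := hw
    omega
  · intro hw
    by_contra hc
    obtain ⟨k, hk, w', rfl⟩ := h3 w hc
    exact hw (Language.append_mem_mul hk trivial)

theorem hub_mod
    (h2 : ∀ k ∈ K, ∀ w, F (k ++ w) = F w + 1)
    (h3 : ∀ w, F w ≠ 0 → ∃ k ∈ K, ∃ w', w = k ++ w') (n r : ℕ) (hr : r < n) :
    ∀ w, F w % n = r ↔ w ∈ KStar.kstar (K ^ n) * (K ^ r * ofPred (fun w => F w = 0)) := by
  intro w
  rw [Language.kstar_eq_iSup_pow, Language.iSup_mul, Language.mem_iSup]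
  constructor
  · intro hw
    refine ⟨F w / n, ?_⟩
    rw [← pow_mul, ← mul_assoc, ← pow_add]
    refine (hub_exact F K h2 h3 _ w).mp ?_
    have := Nat.div_add_mod (F w) n
    omega
  · rintro ⟨q, hq⟩
    rw [← pow_mul, ← mul_assoc, ← pow_add] at hq
    rw [(hub_exact F K h2 h3 _ w).mpr hq, Nat.mul_add_mod, Nat.mod_eq_of_lt hr]

theorem hub_H1
    (h2 : ∀ k ∈ K, ∀ w, F (k ++ w) = F w + 1)
    (h3 : ∀ w, F w ≠ 0 → ∃ k ∈ K, ∃ w', w = k ++ w') (hK : Hk 0 K) (n r : ℕ) :
    Hk 1 (ofPred fun w => F w % n = r) := by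
  by_cases hr : r < n
  · have hT : Hk 0 (ofPred (fun w => F w = 0)) := by
      rw [hub_tail F K h2 h3]
      exact (hK.mul Hk.top).compl
    have h := ((hK.pow n).star).mul (((hK.pow r).mul hT).mono (Nat.zero_le 1))
    exact h.congr (hub_mod F K h2 h3 n r hr)
  · rcases Nat.eq_zero_or_pos n with rfl | hn
    · -- n = 0 : F w % 0 = F w
      have hT : Hk 0 (ofPred (fun w => F w = 0)) := by
        rw [hub_tail F K h2 h3]
        exact (hK.mul Hk.top).compl
      have h := (((hK.pow r).mul hT).mono (Nat.zero_le 1))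
      refine h.congr ?_
      intro w
      rw [← hub_exact F K h2 h3 r w]
      show F w % 0 = r ↔ _
      rw [Nat.mod_zero]
    · refine Hk.zero.congr ?_
      intro w
      constructor
      · intro hw
        have hw' : F w % n = r := hw
        have := Nat.mod_lt (F w) hn
        omega
      · intro hw
        exact absurd hw (Language.notMem_zero w)

end hub

end Vale.Agent.Lib.P329
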