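import Vale.Agent.Lib.P329.Schutz
import Vale.Agent.Lib.P329.Hub

namespace Vale.Agent.Lib.P329

open Language

section tm

variable {Q Γ : Type} (δ : Q → Γ → Q)

/-- the run of a deterministic automaton -/
def run (q : Q) (w : List Γ) : Q := w.foldl δ q

theorem run_nil (q : Q) : run δ q [] = q := rfl

theorem run_cons (q : Q) (a : Γ) (w : List Γ) : run δ q (a :: w) = run δ (δ q a) w := rfl

theorem run_append (q : Q) (u w : List Γ) : run δ q (u ++ w) = run δ (run δ q u) w := by
  simp [run, List.foldl_append]

/-- the transition monoid -/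
def TM : Type := {f : Q → Q // ∃ u : List Γ, f = fun q => run δ q u}

instance : Monoid (TM δ) where
  mul f g := ⟨fun q => g.1 (f.1 q), by
    obtain ⟨u, hu⟩ := f.2
    obtain ⟨v, hv⟩ := g.2
    refine ⟨u ++ v, ?_⟩
    funext q
    rw [hu, hv, run_append]⟩
  one := ⟨id, [], rfl⟩
  mul_assoc _ _ _ := rfl
  one_mul _ := rfl
  mul_one _ := rfl

theorem TM.mul_val (f g : TM δ) : (f * g).1 = fun q => g.1 (f.1 q) := rfl

theorem TM.one_val : (1 : TM δ).1 = id := rfl

instance [Finite Q] : Finite (TM δ) := inferInstanceAs (Finite {f : Q → Q // _})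

/-- the action of a letter -/
def TM.letter (a : Γ) : TM δ := ⟨fun q => δ q a, [a], rfl⟩

theorem TM.prod_val (w : List Γ) : ((w.map (TM.letter δ)).prod).1 = fun q => run δ q w := by
  induction w with
  | nil => rfl
  | cons a w ih =>
    rw [List.map_cons, List.prod_cons, TM.mul_val, ih]
    rfl

theorem TM.pow_val (x : TM δ) (n : ℕ) : (x ^ n).1 = x.1^[n] := by
  induction n with
  | zero => rfl
  | succ n ih =>
    rw [pow_succ, TM.mul_val, ih]
    funext q
    rw [Function.iterate_succ_apply']

/-- every word acts aperiodically -/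
def CF : Prop := ∀ u : List Γ, ∃ N : ℕ, ∀ q, (fun q => run δ q u)^[N + 1] q = (fun q => run δ q u)^[N] q

theorem run_SF [Finite Q] [Finite Γ] (hcf : CF δ) (q q' : Q) :
    Hk 0 (ofPred fun w : List Γ => run δ q w = q') := by
  classical
  have hap : ∀ x : TM δ, ∃ n : ℕ, x ^ (n + 1) = x ^ n := by
    intro x
    obtain ⟨u, hu⟩ := x.2
    obtain ⟨N, hN⟩ := hcf u
    refine ⟨N, Subtype.ext ?_⟩
    rw [TM.pow_val, TM.pow_val, hu]
    funext q
    exact hN q
  have := Fintype.ofFinite (TM δ)
  have h := Hk.finUnion (k := 0) ((Finset.univ : Finset (TM δ)).filter (fun x => x.1 q = q'))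
    (fun x => ofPred fun w : List Γ => (w.map (TM.letter δ)).prod = x)
    (fun x _ => schutz hap (TM.letter δ) x)
  refine h.congr ?_
  intro w
  constructor
  · intro hw
    refine ⟨(w.map (TM.letter δ)).prod, ?_, rfl⟩
    simp only [Finset.mem_filter, Finset.mem_univ, true_and]
    rw [TM.prod_val]
    exact hw
  · rintro ⟨x, hx, hw⟩
    simp only [Finset.mem_filter, Finset.mem_univ, true_and] at hx
    have hw' : (w.map (TM.letter δ)).prod = x := hw
    rw [← hw', TM.prod_val] at hx
    exact hx

end tm

section hubdfa

variable {Q Γ : Type} (δ : Q → Γ → Q) (h : Q)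

open Classical in
/-- number of times the run enters the hub `h` -/
noncomputable def visits : Q → List Γ → ℕ
  | _, [] => 0
  | q, a :: w => (if δ q a = h then 1 else 0) + visits (δ q a) w

open Classical in
/-- the automaton in which the hub has been made absorbing -/
noncomputable def absorb : Q → Γ → Q := fun q a => if q = h then h else δ q a

theorem visits_nil (q : Q) : visits δ h q [] = 0 := by simp [visits]

theorem visits_cons (q : Q) (a : Γ) (w : List Γ) [Decidable (δ q a = h)] :
    visits δ h q (a :: w) = (if δ q a = h then 1 else 0) + visits δ h (δ q a) w := by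
  simp only [visits]
  congr

theorem visits_append (u : List Γ) : ∀ (q : Q) (w : List Γ),
    visits δ h q (u ++ w) = visits δ h q u + visits δ h (run δ q u) w := by
  classical
  induction u with
  | nil => intro q w; simp [visits_nil, run_nil]
  | cons a u ih =>
    intro q w
    rw [List.cons_append, visits_cons, visits_cons, ih, run_cons]
    omega

theorem absorb_hub (w : List Γ) : run (absorb δ h) h w = h := by
  induction w with
  | nil => rfl
  | cons a w ih =>
    rw [run_cons]
    have : absorb δ h h a = h := by simp [absorb]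
    rw [this, ih]

/-- a run that starts outside the hub and never enters it is a run of the absorbing automaton -/
theorem avoid_iff (w : List Γ) : ∀ (q q' : Q), q ≠ h → q' ≠ h →
    ((visits δ h q w = 0 ∧ run δ q w = q') ↔ run (absorb δ h) q w = q') := by
  classical
  induction w with
  | nil => intro q q' _ _; simp [visits_nil, run_nil]
  | cons a w ih =>
    intro q q' hq hq'
    have e : absorb δ h q a = δ q a := by simp [absorb, hq]
    rw [visits_cons, run_cons, run_cons, e]
    by_cases ha : δ q a = h
    · rw [ha, absorb_hub]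
      simp only [if_true]
      constructor
      · rintro ⟨h1, _⟩
        omega
      · intro h1
        exact absurd h1.symm hq'
    · rw [if_neg ha, zero_add]
      exact ih _ _ ha hq'

/-- words read from `q` without entering the hub and ending in `q'` -/
def Av (q q' : Q) : Language Γ := ofPred fun w => visits δ h q w = 0 ∧ run δ q w = q'

theorem Av_SF_aux [Finite Q] [Finite Γ] (hcf : CF (absorb δ h)) (q q' : Q) (hq : q ≠ h) :
    Hk 0 (Av δ h q q') := by
  classical
  by_cases hq' : q' = h
  · subst hq'
    refine Hk.zero.congr ?_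
    intro w
    constructor
    · rintro ⟨h1, h2⟩
      exfalso
      -- the last state is the hub, so a visit was counted
      have key : ∀ (w : List Γ) (q : Q), q ≠ q' → run δ q w = q' → visits δ q' q w ≠ 0 := by
        intro w
        induction w with
        | nil => intro q hq h2; exact absurd h2 hq
        | cons a w ih =>
          intro q _ h2
          rw [visits_cons]
          by_cases ha : δ q a = q'
          · rw [if_pos ha]; omega
          · rw [if_neg ha, zero_add]
            exact ih _ ha h2
      exact key w q hq h2 h1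
    · intro hw
      exact absurd hw (Language.notMem_zero _)
  · exact (run_SF (absorb δ h) hcf q q').congr (fun w => avoid_iff δ h w q q' hq hq')

theorem Av_SF [Finite Q] [Finite Γ] (hcf : CF (absorb δ h)) (q q' : Q) : Hk 0 (Av δ h q q') := by
  classical
  by_cases hq : q = h
  · subst hq
    have := Fintype.ofFinite Γ
    have h1 := Hk.finUnion (k := 0) ((Finset.univ : Finset Γ).filter (fun a => δ q a ≠ q))
      (fun a => ({[a]} : Language Γ) * Av δ q (δ q a) q')
      (fun a ha => (Hk.letter a).mul (Av_SF_aux δ q hcf _ _ (by simpa using ha)))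
    have h2 : Hk 0 (ofPred fun w : List Γ => w = [] ∧ q = q') := by
      by_cases e : q = q'
      · refine Hk.one.congr ?_
        intro w
        exact ⟨fun hw => hw.1, fun hw => ⟨hw, e⟩⟩
      · refine Hk.zero.congr ?_
        intro w
        exact ⟨fun hw => absurd hw.2 e, fun hw => absurd hw (Language.notMem_zero _)⟩
    refine (h2.add h1).congr ?_
    intro w
    rw [Language.mem_add]
    cases w with
    | nil =>
      constructor
      · rintro ⟨_, h2⟩
        exact Or.inl ⟨rfl, h2⟩
      · rintro (⟨_, h2⟩ | ⟨a, _, hw⟩)
        · exact ⟨visits_nil δ q q, h2⟩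
        · obtain ⟨x, hx, y, _, e⟩ := Language.mem_mul.mp hw
          have : x = [a] := hx
          subst this
          simp at e
    | cons a w =>
      constructor
      · rintro ⟨h1, h2⟩
        rw [visits_cons] at h1
        have ha : δ q a ≠ q := by
          intro ha
          rw [if_pos ha] at h1
          omega
        rw [if_neg ha, zero_add] at h1
        right
        refine ⟨a, by simpa using ha, ?_⟩
        exact Language.mem_mul.mpr ⟨[a], rfl, w, ⟨h1, h2⟩, rfl⟩
      · rintro (⟨h1, _⟩ | ⟨b, hb, hw⟩)
        · simp at h1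
        · obtain ⟨x, hx, y, ⟨hy1, hy2⟩, e⟩ := Language.mem_mul.mp hw
          have : x = [b] := hx
          subst this
          simp only [List.singleton_append, List.cons.injEq] at e
          obtain ⟨rfl, rfl⟩ := e
          have hb' : δ q b ≠ q := by simpa using hb
          refine ⟨?_, hy2⟩
          rw [visits_cons, if_neg hb', zero_add]
          exact hy1
  · exact Av_SF_aux δ h hcf q q' hq

/-- the first-return code of the hub -/
def retCode : Language Γ := ofPred fun w => visits δ h h w = 1 ∧ run δ h w = h

theorem retCode_SF [Finite Q] [Finite Γ] (hcf : CF (absorb δ h)) : Hk 0 (retCode δ h) := by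
  classical
  have := Fintype.ofFinite Γ
  have := Fintype.ofFinite Q
  have h1 := Hk.finUnion (k := 0) ((Finset.univ : Finset (Q × Γ)).filter (fun x => δ x.1 x.2 = h))
    (fun x => Av δ h h x.1 * ({[x.2]} : Language Γ))
    (fun x _ => (Av_SF δ h hcf h x.1).mul (Hk.letter x.2))
  refine h1.congr ?_
  intro w
  constructor
  · rintro ⟨h1, h2⟩
    rcases List.eq_nil_or_concat' w with rfl | ⟨w0, b, rfl⟩
    · rw [visits_nil] at h1
      omega
    · rw [visits_append, visits_cons, visits_nil] at h1
      rw [run_append, run_cons, run_nil] at h2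
      rw [if_pos h2] at h1
      refine ⟨(run δ h w0, b), by simpa using h2, ?_⟩
      exact Language.append_mem_mul ⟨by omega, rfl⟩ rfl
  · rintro ⟨x, hx, hw⟩
    have hx' : δ x.1 x.2 = h := by simpa using hx
    obtain ⟨w0, ⟨a1, a2⟩, y, hy, rfl⟩ := Language.mem_mul.mp hw
    have : y = [x.2] := hy
    subst this
    constructor
    · rw [visits_append, visits_cons, visits_nil, a1, a2, if_pos hx']
    · rw [run_append, run_cons, run_nil, a2, hx']

theorem retCode_step {k : List Γ} (hk : k ∈ retCode δ h) (w : List Γ) :
    visits δ h h (k ++ w) = visits δ h h w + 1 := by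
  rw [visits_append, hk.1, hk.2]
  omega

theorem retCode_exists_aux (w : List Γ) : ∀ q, visits δ h q w ≠ 0 →
    ∃ k w', w = k ++ w' ∧ visits δ h q k = 1 ∧ run δ q k = h := by
  classical
  induction w with
  | nil => intro q hw; rw [visits_nil] at hw; exact absurd rfl hw
  | cons a w ih =>
    intro q hw
    by_cases ha : δ q a = h
    · refine ⟨[a], w, rfl, ?_, ?_⟩
      · rw [visits_cons, visits_nil, if_pos ha]
      · rw [run_cons, run_nil, ha]
    · rw [visits_cons, if_neg ha, zero_add] at hw
      obtain ⟨k, w', rfl, h1, h2⟩ := ih _ hw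
      refine ⟨a :: k, w', rfl, ?_, ?_⟩
      · rw [visits_cons, if_neg ha, zero_add, h1]
      · rw [run_cons, h2]

theorem retCode_exists (w : List Γ) (hw : visits δ h h w ≠ 0) :
    ∃ k ∈ retCode δ h, ∃ w', w = k ++ w' := by
  obtain ⟨k, w', e, h1, h2⟩ := retCode_exists_aux δ h w h hw
  exact ⟨k, ⟨h1, h2⟩, w', e⟩

/-- **Hub theorem.** If the automaton with the hub made absorbing is counter-free, the number of
visits to the hub can be counted modulo `n` at generalized star height one. -/
theorem visits_H1 [Finite Q] [Finite Γ] (hcf : CF (absorb δ h)) (n r : ℕ) :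
    Hk 1 (ofPred fun w : List Γ => visits δ h h w % n = r) :=
  hub_H1 (visits δ h h) (retCode δ h) (fun _ hk w => retCode_step δ h hk w) (retCode_exists δ h)
    (retCode_SF δ h hcf) n r

theorem run_retCode_pow (j : ℕ) : ∀ {k : List Γ}, k ∈ retCode δ h ^ j → run δ h k = h := by
  induction j with
  | zero =>
    intro k hk
    rw [pow_zero, Language.mem_one] at hk
    subst hk
    rfl
  | succ j ih =>
    intro k hk
    rw [pow_succ'] at hk
    obtain ⟨k1, hk1, k2, hk2, rfl⟩ := Language.mem_mul.mp hk
    rw [run_append, hk1.2, ih hk2]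

/-- the final state is also recognisable at height one -/
theorem final_H1 [Finite Q] [Finite Γ] (hcf : CF (absorb δ h)) (q : Q) :
    Hk 1 (ofPred fun w : List Γ => run δ h w = q) := by
  have h1 := ((retCode_SF δ h hcf).star).mul ((Av_SF δ h hcf h q).mono (Nat.zero_le 1))
  refine h1.congr ?_
  intro w
  rw [Language.kstar_eq_iSup_pow, Language.iSup_mul, Language.mem_iSup]
  constructor
  · intro hw
    have hw' : run δ h w = q := hw
    have h2 := (hub_exact (visits δ h h) (retCode δ h) (fun _ hk w => retCode_step δ h hk w)
      (retCode_exists δ h) (visits δ h h w) w).mp rfl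
    obtain ⟨k, hk, t, ht, rfl⟩ := Language.mem_mul.mp h2
    refine ⟨_, Language.append_mem_mul hk ⟨ht, ?_⟩⟩
    rw [run_append, run_retCode_pow δ h _ hk] at hw'
    exact hw'
  · rintro ⟨j, hj⟩
    obtain ⟨k, hk, t, ht, rfl⟩ := Language.mem_mul.mp hj
    show run δ h (k ++ t) = q
    rw [run_append, run_retCode_pow δ h _ hk]
    exact ht.2

end hubdfa

end Vale.Agent.Lib.P329
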