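import Vale.Agent.Lib.P329.Cycle

namespace Vale.Agent.Lib.P329

/-- block-level states: the hub copy `h`, the odd copy `s`, the skipped copy `k` -/
inductive BL
  | h | s | k
  deriving DecidableEq

instance : Finite BL :=
  Finite.of_injective (fun b : BL => match b with
    | BL.h => (0 : Fin 3)
    | BL.s => 1
    | BL.k => 2) (by intro a b; cases a <;> cases b <;> simp)

/-- states of the unfolded phase automata: block-level state, the phase at which the first letter
different from `c` of the current block was read (`none` if there was none yet), current phase -/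
abbrev St (p : ℕ) := BL × Option (ZMod p) × ZMod p

section fam

variable {p : ℕ} {Γ : Type} (v : Γ → ZMod p) (c : Γ) (nxt : BL → Option (ZMod p) → BL)

/-- total phase of a word -/
def ph (w : List Γ) : ZMod p := (w.map v).sum

theorem ph_nil : ph v ([] : List Γ) = 0 := rfl

theorem ph_cons (a : Γ) (w : List Γ) : ph v (a :: w) = v a + ph v w := by simp [ph]

theorem ph_append (u w : List Γ) : ph v (u ++ w) = ph v u + ph v w := by simp [ph]

open Classical in
/-- update of the block context -/
noncomputable def icStep (ic : Option (ZMod p)) (θ : ZMod p) (a : Γ) : Option (ZMod p) :=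
  if θ = 0 then (if a = c then none else some θ)
  else match ic with
    | none => if a = c then none else some θ
    | some t => some t

/-- the transition function of the family -/
noncomputable def fam (x : St p) (a : Γ) : St p :=
  if x.2.2 + v a = 0 then (nxt x.1 (icStep c x.2.1 x.2.2 a), none, 0)
  else (x.1, icStep c x.2.1 x.2.2 a, x.2.2 + v a)

/-- the hub -/
def hub : St p := (BL.h, none, 0)

theorem icStep_none_c (θ : ZMod p) : icStep c none θ c = none := by
  simp [icStep]

theorem icStep_none_ne (θ : ZMod p) {a : Γ} (ha : a ≠ c) : icStep c none θ a = some θ := by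
  simp [icStep, ha]

theorem icStep_some {θ : ZMod p} (hθ : θ ≠ 0) (t : ZMod p) (a : Γ) :
    icStep c (some t) θ a = some t := by
  simp [icStep, hθ]

theorem icStep_zero (ic : Option (ZMod p)) (a : Γ) : icStep c ic 0 a = icStep c none 0 a := by
  simp [icStep]

theorem fam_done {b : BL} {ic : Option (ZMod p)} {θ : ZMod p} {a : Γ} (h : θ + v a = 0) :
    fam v c nxt (b, ic, θ) a = (nxt b (icStep c ic θ a), none, 0) := by
  simp [fam, h]

theorem fam_cont {b : BL} {ic : Option (ZMod p)} {θ : ZMod p} {a : Γ} (h : θ + v a ≠ 0) :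
    fam v c nxt (b, ic, θ) a = (b, icStep c ic θ a, θ + v a) := by
  simp [fam, h]

theorem fam_phase (x : St p) (a : Γ) : (fam v c nxt x a).2.2 = x.2.2 + v a := by
  by_cases h : x.2.2 + v a = 0
  · simp [fam, h]
  · simp [fam, h]

theorem run_phase (w : List Γ) : ∀ x : St p, (run (fam v c nxt) x w).2.2 = x.2.2 + ph v w := by
  induction w with
  | nil => intro x; simp [run_nil, ph_nil]
  | cons a w ih =>
    intro x
    rw [run_cons, ih, fam_phase, ph_cons, add_assoc]

/-- shorthand for the action with absorbing hub -/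
noncomputable abbrev fact (u : List Γ) : St p → St p := act (fam v c nxt) hub u

theorem fact_phase {u : List Γ} {x : St p} (h : fact v c nxt u x ≠ hub) :
    (fact v c nxt u x).2.2 = x.2.2 + ph v u := by
  rw [fact, act_eq_run _ _ _ h, run_phase]

theorem fact_cons_of_ne {x : St p} (hx : x ≠ hub) (a : Γ) (w : List Γ) :
    fact v c nxt (a :: w) x = fact v c nxt w (fam v c nxt x a) := by
  rw [fact, act_cons, absorb_of_ne _ _ hx]

/-- **doomed states**: a set of states closed under the allowed letters all of whose exits lead to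
the hub -/
theorem doomed (R : Γ → Prop) (D : St p → Prop)
    (h1 : ∀ x, D x → ∀ a, R a → x.2.2 + v a = 0 → fam v c nxt x a = hub)
    (h2 : ∀ x, D x → ∀ a, R a → x.2.2 + v a ≠ 0 → D (fam v c nxt x a)) :
    ∀ (W : List Γ) (x : St p), D x → (∀ a ∈ W, R a) → W ≠ [] → x.2.2 + ph v W = 0 →
      fact v c nxt W x = hub := by
  intro W
  induction W with
  | nil => intro x _ _ h; exact absurd rfl h
  | cons a W ih =>
    intro x hx hR _ hph
    by_cases hxh : x = hub
    · rw [hxh]; exact act_hub _ _ _
    · rw [fact_cons_of_ne v c nxt hxh]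
      by_cases ha : x.2.2 + v a = 0
      · rw [h1 x hx a (hR a (by simp)) ha]
        exact act_hub _ _ _
      · refine ih _ (h2 x hx a (hR a (by simp)) ha) (fun b hb => hR b (by simp [hb])) ?_ ?_
        · rintro rfl
          rw [ph_cons, ph_nil, add_zero] at hph
          exact ha hph
        · rw [fam_phase, add_assoc, ← ph_cons]
          exact hph

/-- a block whose class is already decided and leads to the hub -/
theorem doomed_some {b : BL} {t : ZMod p} (hb : nxt b (some t) = BL.h) {θ : ZMod p} (hθ : θ ≠ 0)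
    {W : List Γ} (hW : W ≠ []) (hph : θ + ph v W = 0) :
    fact v c nxt W (b, some t, θ) = hub := by
  refine doomed v c nxt (fun _ => True) (fun x => x.1 = b ∧ x.2.1 = some t ∧ x.2.2 ≠ 0) ?_ ?_ W _
    ⟨rfl, rfl, hθ⟩ (fun _ _ => trivial) hW hph
  · rintro ⟨b', ic, θ'⟩ ⟨rfl, rfl, h3⟩ a _ ha
    have h3' : θ' ≠ 0 := h3
    have ha' : θ' + v a = 0 := ha
    rw [fam_done v c nxt ha', icStep_some c h3', hb]
    rfl
  · rintro ⟨b', ic, θ'⟩ ⟨rfl, rfl, h3⟩ a _ ha
    have h3' : θ' ≠ 0 := h3
    have ha' : θ' + v a ≠ 0 := ha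
    rw [fam_cont v c nxt ha', icStep_some c h3']
    exact ⟨rfl, rfl, ha'⟩

/-- a block-level state all of whose exits lead to the hub -/
theorem doomed_all {b : BL} (hb : ∀ ic, nxt b ic = BL.h) (ic : Option (ZMod p)) (θ : ZMod p)
    {W : List Γ} (hW : W ≠ []) (hph : θ + ph v W = 0) :
    fact v c nxt W (b, ic, θ) = hub := by
  refine doomed v c nxt (fun _ => True) (fun x => x.1 = b) ?_ ?_ W _ rfl (fun _ _ => trivial) hW hph
  · rintro ⟨b', ic, θ'⟩ rfl a _ ha
    have ha' : θ' + v a = 0 := ha
    rw [fam_done v c nxt ha', hb]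
    rfl
  · rintro ⟨b', ic, θ'⟩ rfl a _ ha
    have ha' : θ' + v a ≠ 0 := ha
    rw [fam_cont v c nxt ha']

/-- reading only the letter `c` in a block that consists of `c`s, when `c^p` leads to the hub -/
theorem doomed_c {b : BL} (hb : nxt b none = BL.h) (θ : ZMod p)
    {W : List Γ} (hc : ∀ a ∈ W, a = c) (hW : W ≠ []) (hph : θ + ph v W = 0) :
    fact v c nxt W (b, none, θ) = hub := by
  refine doomed v c nxt (fun a => a = c) (fun x => x.1 = b ∧ x.2.1 = none) ?_ ?_ W _
    ⟨rfl, rfl⟩ hc hW hph
  · rintro ⟨b', ic, θ'⟩ ⟨rfl, rfl⟩ a rfl ha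
    have ha' : θ' + v a = 0 := ha
    rw [fam_done v a nxt ha', icStep_none_c, hb]
    rfl
  · rintro ⟨b', ic, θ'⟩ ⟨rfl, rfl⟩ a rfl ha
    have ha' : θ' + v a ≠ 0 := ha
    rw [fam_cont v a nxt ha', icStep_none_c]
    exact ⟨rfl, rfl⟩

/-! ### runs inside a block -/

/-- the block context after reading a word -/
noncomputable def icRun : Option (ZMod p) → ZMod p → List Γ → Option (ZMod p)
  | ic, _, [] => ic
  | ic, θ, a :: w => icRun (icStep c ic θ a) (θ + v a) w

theorem within_block (u : List Γ) : ∀ (b : BL) (ic : Option (ZMod p)) (θ : ZMod p),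
    (∀ u1 u2, u = u1 ++ u2 → θ + ph v u1 ≠ 0) →
    fact v c nxt u (b, ic, θ) = (b, icRun v c ic θ u, θ + ph v u) := by
  induction u with
  | nil => intro b ic θ _; simp [fact, act_nil, icRun, ph_nil]
  | cons a u ih =>
    intro b ic θ hu
    have hθ : θ ≠ 0 := by simpa [ph_nil] using hu [] (a :: u) rfl
    have hx : ((b, ic, θ) : St p) ≠ hub := by
      intro hc
      exact hθ (congrArg (fun x : St p => x.2.2) hc)
    have ha : θ + v a ≠ 0 := by simpa [ph_cons, ph_nil] using hu [a] u rfl
    rw [fact_cons_of_ne v c nxt hx, fam_cont v c nxt ha, ih]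
    · rw [icRun, ph_cons, add_assoc]
    · intro u1 u2 e
      have := hu (a :: u1) u2 (by rw [e]; rfl)
      rwa [ph_cons, ← add_assoc] at this

theorem icRun_some (u : List Γ) : ∀ (t θ : ZMod p),
    (∀ u1 u2, u = u1 ++ u2 → θ + ph v u1 ≠ 0) → icRun v c (some t) θ u = some t := by
  induction u with
  | nil => intro t θ _; rfl
  | cons a u ih =>
    intro t θ hu
    have hθ : θ ≠ 0 := by simpa [ph_nil] using hu [] (a :: u) rfl
    rw [icRun, icStep_some c hθ]
    apply ih
    intro u1 u2 e
    have := hu (a :: u1) u2 (by rw [e]; rfl)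
    rwa [ph_cons, ← add_assoc] at this

end fam

section nocycle

variable {p : ℕ} [Fact p.Prime] {Γ : Type} (v : Γ → ZMod p) (c : Γ)
  (nxt : BL → Option (ZMod p) → BL)

theorem PP_iter_phase {u : List Γ} {x : St p} (hx : PP (fam v c nxt) hub u x) (j : ℕ) :
    ((fact v c nxt u)^[j] x).2.2 = x.2.2 + j * ph v u := by
  induction j with
  | zero => simp
  | succ j ih =>
    have h1 := hx.iter_ne (j + 1)
    rw [Function.iterate_succ_apply'] at h1 ⊢
    rw [fact_phase v c nxt h1, ih]
    push_cast
    ring

theorem PP_phase_zero {u : List Γ} {x : St p} (hx : PP (fam v c nxt) hub u x) (hu : ph v u ≠ 0) :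
    ∃ j : ℕ, ((fact v c nxt u)^[j] x).2.2 = 0 := by
  refine ⟨(-x.2.2 * (ph v u)⁻¹).val, ?_⟩
  rw [PP_iter_phase v c nxt hx, ZMod.natCast_zmod_val, mul_assoc, inv_mul_cancel₀ hu]
  ring

/-- reduction of counter-freeness to periodic points of phase zero -/
theorem noCycle_of
    (H1 : ∀ u y, PP (fam v c nxt) hub u y → y.2.2 = 0 → ph v u ≠ 0 → False)
    (H2 : ∀ u y, PP (fam v c nxt) hub u y → y.2.2 = 0 → ph v u = 0 → fact v c nxt u y = y) :
    ∀ u x, PP (fam v c nxt) hub u x → fact v c nxt u x = x := by
  intro u x hx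
  by_cases hex : ∃ u1 u2, u = u1 ++ u2 ∧ (fact v c nxt u1 x).2.2 = 0
  · obtain ⟨u1, u2, rfl, h0⟩ := hex
    have hy := hx.conj
    by_cases hph : ph v (u2 ++ u1) = 0
    · exact hx.fixed_of_conj (H2 _ _ hy h0 hph)
    · exact (H1 _ _ hy h0 hph).elim
  · push Not at hex
    have hph : ph v u = 0 := by
      by_contra hne
      obtain ⟨j, hj⟩ := PP_phase_zero v c nxt hx hne
      exact H1 u _ (hx.iter j) hj hne
    obtain ⟨b, ic, θ⟩ := x
    have hpre : ∀ u1 u2, u = u1 ++ u2 → θ + ph v u1 ≠ 0 := by
      intro u1 u2 e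
      have h1 := hex u1 u2 e
      have h2 : fact v c nxt u1 (b, ic, θ) ≠ hub := by
        have := hx.iter_ne 1
        rw [Function.iterate_one, e] at this
        exact alive_prefix _ _ this
      rwa [fact_phase v c nxt h2] at h1
    have e1 := within_block v c nxt u b ic θ hpre
    rw [hph, add_zero] at e1
    cases hic : icRun v c ic θ u with
    | none =>
      cases ic with
      | none => rw [e1, hic]
      | some t =>
        rw [icRun_some v c u t θ hpre] at hic
        exact absurd hic (by simp)
    | some t =>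
      rw [hic] at e1
      have e2 : fact v c nxt u (b, some t, θ) = (b, some t, θ) := by
        rw [within_block v c nxt u b (some t) θ hpre, icRun_some v c u t θ hpre, hph, add_zero]
      have e3 : ∀ j, (fact v c nxt u)^[j + 1] (b, ic, θ) = (b, some t, θ) := by
        intro j
        induction j with
        | zero => rw [Function.iterate_one]; exact e1
        | succ j ih => rw [Function.iterate_succ_apply', ih, e2]
      obtain ⟨_, k, hk, e⟩ := hx
      obtain ⟨k', rfl⟩ : ∃ k', k = k' + 1 := ⟨k - 1, by omega⟩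
      rw [e3 k'] at e
      rw [e1, e]

end nocycle

end Vale.Agent.Lib.P329
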