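import Vale.Agent.Lib.P329.Phase

namespace Vale.Agent.Lib.P329

open Language

variable {α : Type}

theorem boolean_comb {k : ℕ} {ι : Type} [Finite ι] (f : ι → List α → ℕ) (B : ℕ)
    (hB : ∀ i w, f i w < B) (h : ∀ i b, Hk k (ofPred fun w => f i w = b))
    (Q : (ι → ℕ) → Prop) : Hk k (ofPred fun w => Q (fun i => f i w)) := by
  classical
  have := Fintype.ofFinite ι
  have h1 := Hk.finUnion (k := k)
    ((Finset.univ : Finset (ι → Fin B)).filter (fun v => Q (fun i => (v i : ℕ))))
    (fun v => ofPred fun w => ∀ i ∈ (Finset.univ : Finset ι), w ∈ ofPred fun w => f i w = (v i : ℕ))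
    (fun v _ => Hk.finInter Finset.univ _ (fun i _ => h i (v i)))
  refine h1.congr ?_
  intro w
  constructor
  · intro hw
    refine ⟨fun i => ⟨f i w, hB i w⟩, ?_, ?_⟩
    · simp only [Finset.mem_filter, Finset.mem_univ, true_and]
      exact hw
    · intro i _
      rfl
  · rintro ⟨v, hv, hw⟩
    simp only [Finset.mem_filter, Finset.mem_univ, true_and] at hv
    have : (fun i => f i w) = fun i => (v i : ℕ) := by
      funext i
      exact hw i (Finset.mem_univ i)
    show Q (fun i => f i w)
    rw [this]
    exact hv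

theorem product_formula [Fintype α] {G : Type} [Group G] {C : Type} [CommGroup C] (ι : C →* G)
    (c : ℕ → α → C) (T : Set α) (g : G) (φ : α → G) (m : ℕ) (hm : 0 < m)
    (hT : ∀ x ∈ T, φ x = g)
    (hc : ∀ x, x ∉ T → ∀ p : ℕ, ι (c (p % m) x) = g ^ p * φ x * (g ^ p)⁻¹)
    (w : List α) : ∀ p : ℕ,
    g ^ p * (w.map φ).prod =
      ι (∏ i : Fin m × α, c i.1 i.2 ^ cntAt T {i.2} m i.1 p w) * g ^ (p + cnt T w) := by
  classical
  induction w with
  | nil =>
    intro p
    simp [cntAt_nil, cnt_nil]
  | cons x w ih =>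
    intro p
    by_cases hxT : x ∈ T
    · have hxg : φ x = g := hT x hxT
      have h1 : ∀ i : Fin m × α, cntAt T {i.2} m i.1 p (x :: w) =
          cntAt T {i.2} m i.1 (p + 1) w := fun i => cntAt_cons_mem _ _ _ _ hxT _ _
      simp only [h1]
      rw [cnt_cons_mem _ hxT, List.map_cons, List.prod_cons, hxg, ← mul_assoc, ← pow_succ, ih (p + 1)]
      congr 2
      omega
    · have hprod : (∏ i : Fin m × α, c i.1 i.2 ^ cntAt T {i.2} m i.1 p (x :: w)) =
          c (p % m) x * ∏ i : Fin m × α, c i.1 i.2 ^ cntAt T {i.2} m i.1 p w := by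
        have h1 : ∀ i : Fin m × α, c i.1 i.2 ^ cntAt T {i.2} m i.1 p (x :: w)
            = (if i = (⟨p % m, Nat.mod_lt _ hm⟩, x) then c (p % m) x else 1) *
              c i.1 i.2 ^ cntAt T {i.2} m i.1 p w := by
          intro i
          by_cases hi : i = (⟨p % m, Nat.mod_lt _ hm⟩, x)
          · subst hi
            rw [if_pos rfl]
            show c (p % m) x ^ cntAt T {x} m (p % m) p (x :: w) = _ * c (p % m) x ^ cntAt T {x} m (p % m) p w
            rw [cntAt_cons_hit T {x} m (p % m) hxT rfl rfl, pow_succ, mul_comm]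
          · rw [if_neg hi, one_mul, cntAt_cons_miss _ _ _ _ hxT]
            rintro ⟨h1, h2⟩
            apply hi
            have h1' : x = i.2 := h1
            ext
            · exact h2.symm
            · exact h1'.symm
        rw [Finset.prod_congr rfl (fun i _ => h1 i), Finset.prod_mul_distrib,
          Finset.prod_ite_eq' Finset.univ]
        simp
      rw [hprod, map_mul, hc x hxT p, cnt_cons_notMem _ hxT, List.map_cons, List.prod_cons,
        mul_assoc (g ^ p * φ x * (g ^ p)⁻¹), ← ih p]
      group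

theorem main_group [Finite α] {G : Type} [Group G] [Finite G] (A : Subgroup G) [A.Normal]
    (hA : ∀ x ∈ A, ∀ y ∈ A, x * y = y * x) (g : G) (φ : α → G) (hφ : ∀ a, φ a ∈ A ∨ φ a = g)
    (S : Set G) : Hk 1 (ofPred fun w : List α => (w.map φ).prod ∈ S) := by
  classical
  have := Fintype.ofFinite α
  let _ : CommGroup A :=
    { (inferInstance : Group A) with mul_comm := fun x y => Subtype.ext (hA x x.2 y y.2) }
  set m := orderOf g with hmdef
  have hm : 0 < m := orderOf_pos g
  set n := Nat.card G with hndef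
  have hn : 0 < n := Nat.card_pos
  set T : Set α := {x | φ x ∉ A} with hTdef
  let c : ℕ → α → A := fun t a =>
    if h : φ a ∈ A then ⟨g ^ t * φ a * (g ^ t)⁻¹, Subgroup.Normal.conj_mem inferInstance _ h _⟩
    else 1
  have hcn : ∀ t a, c t a ^ n = 1 := by
    intro t a
    apply Subtype.ext
    rw [Subgroup.coe_pow]
    exact pow_card_eq_one'
  have hc : ∀ x, x ∉ T → ∀ p : ℕ, A.subtype (c (p % m) x) = g ^ p * φ x * (g ^ p)⁻¹ := by
    intro x hx p
    have hx' : φ x ∈ A := by
      by_contra h
      exact hx h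
    simp only [c, dif_pos hx', Subgroup.subtype_apply]
    rw [hmdef, pow_mod_orderOf]
  have hT : ∀ x ∈ T, φ x = g := fun x hx => (hφ x).resolve_left hx
  have formula := fun w => product_formula A.subtype c T g φ m hm hT hc w 0
  let f : Option (Fin m × α) → List α → ℕ := fun o w =>
    match o with
    | none => cnt T w % m
    | some i => cntAt T {i.2} m i.1 0 w % n
  have hB : ∀ o w, f o w < m + n := by
    intro o w
    cases o with
    | none =>
      have := Nat.mod_lt (cnt T w) hm
      show cnt T w % m < m + n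
      omega
    | some i =>
      have := Nat.mod_lt (cntAt T {i.2} m i.1 0 w) hn
      show cntAt T {i.2} m i.1 0 w % n < m + n
      omega
  have hf : ∀ o b, Hk 1 (ofPred fun w => f o w = b) := by
    intro o b
    cases o with
    | none => exact H1_cnt_mod T m b
    | some i => exact H1_cntAt T {i.2} m i.1 i.1.2 n b 0 hn
  have h := boolean_comb f (m + n) hB hf
    (fun v => A.subtype (∏ i : Fin m × α, c i.1 i.2 ^ v (some i)) * g ^ v none ∈ S)
  refine h.congr ?_
  intro w
  have e : (w.map φ).prod =
      A.subtype (∏ i : Fin m × α, c i.1 i.2 ^ f (some i) w) * g ^ f none w := by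
    have h0 := formula w
    rw [pow_zero, one_mul, zero_add] at h0
    rw [h0]
    congr 1
    · congr 1
      refine Finset.prod_congr rfl (fun i _ => ?_)
      exact pow_eq_pow_mod _ (hcn _ _)
    · show g ^ cnt T w = g ^ (cnt T w % m)
      rw [hmdef, pow_mod_orderOf]
  show (w.map φ).prod ∈ S ↔ _ ∈ S
  rw [e]

end Vale.Agent.Lib.P329
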