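import Vale.Agent.Lib.P329.InstS

namespace Vale.Agent.Lib.P329

section ident

variable {p : ℕ} [Fact p.Prime] {Γ : Type} (v : Γ → ZMod p) (c : Γ)

open Classical in
/-- number of occurrences of `c` read at phase zero, starting from phase `θ` -/
noncomputable def cnt0 : ZMod p → List Γ → ℕ
  | _, [] => 0
  | θ, a :: w => (if a = c ∧ θ = 0 then 1 else 0) + cnt0 (θ + v a) w

theorem cnt0_nil (θ : ZMod p) : cnt0 v c θ [] = 0 := by simp [cnt0]

theorem cnt0_cons (θ : ZMod p) (a : Γ) (w : List Γ) [Decidable (a = c ∧ θ = 0)] :
    cnt0 v c θ (a :: w) = (if a = c ∧ θ = 0 then 1 else 0) + cnt0 v c (θ + v a) w := by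
  simp only [cnt0]
  congr

theorem cnt0_append (u : List Γ) : ∀ (θ : ZMod p) (w : List Γ),
    cnt0 v c θ (u ++ w) = cnt0 v c θ u + cnt0 v c (θ + ph v u) w := by
  classical
  induction u with
  | nil => intro θ w; simp [cnt0_nil, ph_nil]
  | cons a u ih =>
    intro θ w
    rw [List.cons_append, cnt0_cons, cnt0_cons, ih, ph_cons, add_assoc, add_assoc]

/-- number of visits of the hub -/
noncomputable abbrev vis (nxt : BL → Option (ZMod p) → BL) (w : List Γ) : ℕ :=
  visits (fam v c nxt) hub hub w

/-- final state -/
noncomputable abbrev fin (nxt : BL → Option (ZMod p) → BL) (w : List Γ) : St p :=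
  run (fam v c nxt) hub w

theorem fin_snoc (nxt : BL → Option (ZMod p) → BL) (w : List Γ) (a : Γ) :
    fin v c nxt (w ++ [a]) = fam v c nxt (fin v c nxt w) a := by
  rw [fin, run_append, run_cons, run_nil]

open Classical in
theorem vis_snoc (nxt : BL → Option (ZMod p) → BL) (w : List Γ) (a : Γ) :
    vis v c nxt (w ++ [a]) =
      vis v c nxt w + (if fam v c nxt (fin v c nxt w) a = hub then 1 else 0) := by
  rw [vis, visits_append, visits_cons, visits_nil, add_zero]

theorem fam_snd (nxt nxt' : BL → Option (ZMod p) → BL) {x x' : St p} (h : x.2 = x'.2) (a : Γ) :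
    (fam v c nxt x a).2 = (fam v c nxt' x' a).2 := by
  obtain ⟨b, ic, θ⟩ := x
  obtain ⟨b', ic', θ'⟩ := x'
  simp only [Prod.mk.injEq] at h
  obtain ⟨rfl, rfl⟩ := h
  by_cases ha : θ + v a = 0
  · rw [fam_done v c nxt ha, fam_done v c nxt' ha]
  · rw [fam_cont v c nxt ha, fam_cont v c nxt' ha]

theorem fin_snd (nxt nxt' : BL → Option (ZMod p) → BL) (w : List Γ) :
    (fin v c nxt w).2 = (fin v c nxt' w).2 := by
  induction w using List.reverseRecOn with
  | nil => rfl
  | append_singleton w a ih => rw [fin_snoc, fin_snoc]; exact fam_snd v c nxt nxt' ih a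

theorem fin_phase (nxt : BL → Option (ZMod p) → BL) (w : List Γ) :
    (fin v c nxt w).2.2 = ph v w := by
  rw [fin, run_phase]
  simp [hub]

/-- the pending correction: the doubling automaton is in (a block read from) the odd copy -/
def pend (x : St p) : ℕ := if x.1 = BL.s then 1 else 0

/-- the current unfinished block starts with `c` -/
def cur (x : St p) : ℕ :=
  if x.2.2 = 0 then 0 else
    match x.2.1 with
    | none => 1
    | some t => if t = 0 then 0 else 1

/-- relation between the block-level states of the skipping and of the doubling automaton -/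
def RelB (bS b2 : BL) : Prop := (b2 = BL.s ∧ bS = BL.s) ∨ (b2 = BL.h ∧ (bS = BL.h ∨ bS = BL.k))

open Classical in
theorem hub_iff_done {nxt : BL → Option (ZMod p) → BL} {b : BL} {ic : Option (ZMod p)}
    {θ : ZMod p} {a : Γ} (ha : θ + v a = 0) :
    (if fam v c nxt (b, ic, θ) a = hub then 1 else 0 : ℕ) =
      if nxt b (icStep c ic θ a) = BL.h then 1 else 0 := by
  rw [fam_done v c nxt ha]
  by_cases h : nxt b (icStep c ic θ a) = BL.h
  · rw [if_pos h, h]
    exact if_pos rfl
  · rw [if_neg h, if_neg]
    intro hc
    exact h (congrArg (fun x : St p => x.1) hc)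

open Classical in
theorem hub_iff_cont {nxt : BL → Option (ZMod p) → BL} {b : BL} {ic : Option (ZMod p)}
    {θ : ZMod p} {a : Γ} (ha : θ + v a ≠ 0) :
    (if fam v c nxt (b, ic, θ) a = hub then 1 else 0 : ℕ) = 0 := by
  rw [fam_cont v c nxt ha, if_neg]
  intro hc
  exact ha (congrArg (fun x : St p => x.2.2) hc)

theorem sum_ne (t : ZMod p) : (∑ e : ZMod p, if t = e then 0 else 1 : ℕ) + 1 = p := by
  classical
  have h1 : (∑ e : ZMod p, ((if t = e then 0 else 1 : ℕ) + (if t = e then 1 else 0))) = p := by
    have : ∀ e : ZMod p, ((if t = e then 0 else 1 : ℕ) + (if t = e then 1 else 0)) = 1 := by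
      intro e
      by_cases h : t = e <;> simp [h]
    simp only [this, Finset.sum_const, Finset.card_univ, ZMod.card, smul_eq_mul, mul_one]
  rw [Finset.sum_add_distrib, Finset.sum_ite_eq Finset.univ t] at h1
  simpa using h1

theorem sum_one : (∑ _e : ZMod p, (1 : ℕ)) = p := by
  simp only [Finset.sum_const, Finset.card_univ, ZMod.card, smul_eq_mul, mul_one]

/-- **The counting identity.** -/
theorem ident (hv : ∀ a, v a ≠ 0) (w : List Γ) :
    (cnt0 v c 0 w + vis v c nxtV1 w + (p + 2) * vis v c nxtV2 w + pend (fin v c nxtV2 w) =
      3 * vis v c nxtV w + (∑ e : ZMod p, vis v c (nxtS e) w) + cur (fin v c nxtV w)) ∧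
    (∀ e : ZMod p, RelB (fin v c (nxtS e) w).1 (fin v c nxtV2 w).1) := by
  classical
  induction w using List.reverseRecOn with
  | nil =>
    refine ⟨?_, fun e => Or.inr ⟨rfl, Or.inl rfl⟩⟩
    simp [cnt0_nil, vis, visits_nil, fin, run_nil, pend, cur, hub]
  | append_singleton w a ih =>
    obtain ⟨ih1, ih2⟩ := ih
    -- the shared components
    obtain ⟨bV, ic, θ, hV⟩ : ∃ b ic θ, fin v c nxtV w = (b, ic, θ) := ⟨_, _, _, rfl⟩
    have hθ : θ = ph v w := by
      have := fin_phase v c nxtV w
      rw [hV] at this
      exact this
    have h1 : ∃ b1, fin v c nxtV1 w = (b1, ic, θ) := by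
      refine ⟨(fin v c nxtV1 w).1, ?_⟩
      have := fin_snd v c nxtV1 nxtV w
      rw [hV] at this
      exact Prod.ext rfl this
    have h2 : ∃ b2, fin v c nxtV2 w = (b2, ic, θ) := by
      refine ⟨(fin v c nxtV2 w).1, ?_⟩
      have := fin_snd v c nxtV2 nxtV w
      rw [hV] at this
      exact Prod.ext rfl this
    have hS : ∀ e, fin v c (nxtS e) w = ((fin v c (nxtS e) w).1, ic, θ) := by
      intro e
      have := fin_snd v c (nxtS e) nxtV w
      rw [hV] at this
      exact Prod.ext rfl this
    obtain ⟨b1, h1⟩ := h1
    obtain ⟨b2, h2⟩ := h2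
    rw [h2] at ih1 ih2
    rw [hV] at ih1
    simp only [vis_snoc, fin_snoc, cnt0_append, cnt0_cons, cnt0_nil, zero_add, add_zero, ← hθ,
      hV, h1, h2, Finset.sum_add_distrib]
    by_cases ha : θ + v a = 0
    · -- a block is completed
      have hθ0 : θ ≠ 0 := by
        intro h0
        rw [h0, zero_add] at ha
        exact hv a ha
      have hSe : ∀ e, (if fam v c (nxtS e) (fin v c (nxtS e) w) a = hub then 1 else 0 : ℕ) =
          if nxtS e (fin v c (nxtS e) w).1 (icStep c ic θ a) = BL.h then 1 else 0 := by
        intro e
        rw [hS e]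
        exact hub_iff_done v c ha
      have hSf : ∀ e, (fam v c (nxtS e) (fin v c (nxtS e) w) a).1 =
          nxtS e (fin v c (nxtS e) w).1 (icStep c ic θ a) := by
        intro e
        rw [hS e, fam_done v c _ ha]
      simp only [hSe, hSf, fam_done v c _ ha]
      have hcur : cur ((bV, ic, θ) : St p) =
          match icStep c ic θ a with
          | none => 1
          | some t => if t = 0 then 0 else 1 := by
        cases ic with
        | none =>
          by_cases hac : a = c
          · subst hac
            rw [icStep_none_c]
            simp [cur, hθ0]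
          · rw [icStep_none_ne c θ hac]
            simp [cur, hθ0]
        | some t =>
          rw [icStep_some c hθ0]
          simp [cur, hθ0]
      rw [hcur] at ih1
      have hnot : ¬ (a = c ∧ θ = 0) := fun h => hθ0 h.2
      rw [if_neg hnot]
      rcases ih2 0 with ⟨hb2, _⟩ | ⟨hb2, _⟩
      · -- from the odd copy
        have hb2' : b2 = BL.s := hb2
        subst hb2'
        have hbS : ∀ e, (fin v c (nxtS e) w).1 = BL.s := by
          intro e
          rcases ih2 e with ⟨_, h⟩ | ⟨h, _⟩
          · exact h
          · exact absurd h (by simp)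
        simp only [hbS]
        cases hic : icStep c ic θ a with
        | none =>
          rw [hic] at ih1
          refine ⟨?_, fun e => Or.inr ⟨rfl, Or.inl rfl⟩⟩
          simp only [nxtV, nxtV1, nxtV2, nxtS, pend, cur, if_true, sum_one] at ih1 ⊢
          simp [hub] at ih1 ⊢
          nlinarith
        | some t =>
          rw [hic] at ih1
          constructor
          · have hs := sum_ne (p := p) t
            have hsum : (∑ e : ZMod p, if nxtS e BL.s (some t) = BL.h then 1 else 0 : ℕ) =
                ∑ e : ZMod p, if t = e then 0 else 1 := by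
              refine Finset.sum_congr rfl (fun e _ => ?_)
              by_cases hte : t = e <;> simp [nxtS, hte]
            rw [hsum]
            by_cases ht : t = 0
            · subst ht
              simp only [nxtV, nxtV1, nxtV2, pend, cur, if_true] at ih1 ⊢
              simp [hub] at ih1 ⊢
              nlinarith
            · simp only [nxtV, nxtV1, nxtV2, pend, cur, if_true, ht, if_false] at ih1 ⊢
              simp [hub] at ih1 ⊢
              nlinarith
          · intro e
            right
            refine ⟨rfl, ?_⟩
            by_cases hte : t = e <;> simp [nxtS, hte]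
      · -- from the hub copy
        have hb2' : b2 = BL.h := hb2
        subst hb2'
        have hbS : ∀ e, (fin v c (nxtS e) w).1 = BL.h ∨ (fin v c (nxtS e) w).1 = BL.k := by
          intro e
          rcases ih2 e with ⟨h, _⟩ | ⟨_, h⟩
          · exact absurd h (by simp)
          · exact h
        cases hic : icStep c ic θ a with
        | none =>
          rw [hic] at ih1
          have hn : ∀ e, nxtS e (fin v c (nxtS e) w).1 none = BL.s := by
            intro e
            rcases hbS e with h | h <;> rw [h] <;> rfl
          simp only [hn]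
          refine ⟨?_, fun e => Or.inl ⟨rfl, rfl⟩⟩
          simp only [nxtV, nxtV1, nxtV2, pend, cur, if_true] at ih1 ⊢
          simp [hub] at ih1 ⊢
          nlinarith
        | some t =>
          rw [hic] at ih1
          have hn : ∀ e, nxtS e (fin v c (nxtS e) w).1 (some t) = BL.h := by
            intro e
            rcases hbS e with h | h <;> rw [h] <;> rfl
          simp only [hn]
          refine ⟨?_, fun e => Or.inr ⟨rfl, Or.inl rfl⟩⟩
          by_cases ht : t = 0
          · simp only [nxtV, nxtV1, nxtV2, pend, cur, if_true, ht, sum_one] at ih1 ⊢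
            simp [hub] at ih1 ⊢
            nlinarith
          · simp only [nxtV, nxtV1, nxtV2, pend, cur, if_true, ht, if_false, sum_one] at ih1 ⊢
            simp [hub] at ih1 ⊢
            nlinarith
    · -- the block goes on
      have hSe : ∀ e, (if fam v c (nxtS e) (fin v c (nxtS e) w) a = hub then 1 else 0 : ℕ) = 0 := by
        intro e
        rw [hS e]
        exact hub_iff_cont v c ha
      have hSf : ∀ e, (fam v c (nxtS e) (fin v c (nxtS e) w) a).1 = (fin v c (nxtS e) w).1 := by
        intro e
        rw [hS e, fam_cont v c _ ha]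
      simp only [hSe, hSf, hub_iff_cont v c ha]
      simp only [fam_cont v c _ ha]
      refine ⟨?_, ih2⟩
      have hcur : cur ((bV, icStep c ic θ a, θ + v a) : St p) =
          cur ((bV, ic, θ) : St p) + (if a = c ∧ θ = 0 then 1 else 0) := by
        by_cases hθ0 : θ = 0
        · subst hθ0
          rw [icStep_zero]
          by_cases hac : a = c
          · subst hac
            rw [icStep_none_c]
            simp [cur, hv a]
          · rw [icStep_none_ne c 0 hac]
            simp [cur, hac]
        · have hnot : ¬ (a = c ∧ θ = 0) := fun h => hθ0 h.2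
          rw [if_neg hnot, add_zero]
          cases ic with
          | none =>
            by_cases hac : a = c
            · subst hac
              rw [icStep_none_c]
              simp [cur, ha, hθ0]
            · rw [icStep_none_ne c θ hac]
              simp [cur, ha, hθ0]
          | some t =>
            rw [icStep_some c hθ0]
            simp [cur, ha, hθ0]
      rw [hcur]
      simp only [pend] at ih1 ⊢
      simp only [Finset.sum_const_zero, add_zero]
      omega

end ident

end Vale.Agent.Lib.P329
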