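import Vale.Agent.Lib.P329.Fam

namespace Vale.Agent.Lib.P329

section rep

variable {Q Γ : Type} {δ : Q → Γ → Q} {h : Q}

/-- powers of a word -/
def rep (u : List Γ) : ℕ → List Γ
  | 0 => []
  | k + 1 => u ++ rep u k

theorem act_rep (u : List Γ) (k : ℕ) : ∀ x, act δ h (rep u k) x = (act δ h u)^[k] x := by
  induction k with
  | zero => intro x; rfl
  | succ k ih => intro x; rw [rep, act_append, ih, Function.iterate_succ_apply]

theorem mem_rep {u : List Γ} {k : ℕ} {a : Γ} (ha : a ∈ rep u k) : a ∈ u := by
  induction k with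
  | zero => simp [rep] at ha
  | succ k ih =>
    rw [rep] at ha
    rcases List.mem_append.mp ha with ha | ha
    · exact ha
    · exact ih ha

theorem PP.ret {u : List Γ} {x : Q} (hx : PP δ h u x) :
    ∃ W, (∀ a ∈ W, a ∈ u) ∧ act δ h (u ++ W) x = x := by
  obtain ⟨_, k, hk, e⟩ := hx
  obtain ⟨k', rfl⟩ : ∃ k', k = k' + 1 := ⟨k - 1, by omega⟩
  refine ⟨rep u k', fun a ha => mem_rep ha, ?_⟩
  have := act_rep (δ := δ) (h := h) u (k' + 1) x
  rw [rep] at this
  rw [this, e]

end rep

section inst

variable {p : ℕ} [Fact p.Prime] {Γ : Type} (v : Γ → ZMod p) (c : Γ)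

/-- all returns are counted -/
def nxtV : BL → Option (ZMod p) → BL := fun _ _ => BL.h

/-- blocks that start with `c` and are not `c^p` are absorbed -/
def nxtV1 : BL → Option (ZMod p) → BL := fun _ ic =>
  match ic with
  | none => BL.h
  | some t => if t = 0 then BL.h else BL.k

/-- every second block `c^p` in a row is not counted -/
def nxtV2 : BL → Option (ZMod p) → BL := fun b ic =>
  match b, ic with
  | BL.s, _ => BL.h
  | _, none => BL.s
  | _, some _ => BL.h

/-- as `nxtV2`, but a block read from the odd copy whose first letter different from `c` was read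
at phase `e` is not counted -/
def nxtS (e : ZMod p) : BL → Option (ZMod p) → BL := fun b ic =>
  match b, ic with
  | BL.s, none => BL.h
  | BL.s, some t => if t = e then BL.k else BL.h
  | _, none => BL.s
  | _, some _ => BL.h

variable (nxt : BL → Option (ZMod p) → BL)

theorem icStep_eq_none {ic : Option (ZMod p)} {θ : ZMod p} {a : Γ}
    (h : icStep c ic θ a = none) : a = c := by
  by_contra ha
  unfold icStep at h
  by_cases hθ : θ = 0
  · simp [hθ, ha] at h
  · cases ic with
    | none => simp [hθ, ha] at h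
    | some t => simp [hθ] at h

/-- periodic points of phase zero are canonical -/
theorem PP_canon {u0 : List Γ} {a : Γ} {y : St p} (hy : PP (fam v c nxt) hub (u0 ++ [a]) y)
    (h0 : y.2.2 = 0) : ∃ b ic θ, y = (nxt b (icStep c ic θ a), none, 0) := by
  obtain ⟨⟨b, ic, θ⟩, _, e⟩ := hy.last
  have h1 : θ + v a = 0 := by
    have := fam_phase v c nxt (b, ic, θ) a
    rw [← e, h0] at this
    exact this.symm
  rw [fam_done v c nxt h1] at e
  exact ⟨b, ic, θ, e⟩

theorem PP_ret_phase {u : List Γ} {y : St p} (hy : PP (fam v c nxt) hub u y) :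
    ∃ W, (∀ a ∈ W, a ∈ u) ∧ fact v c nxt (u ++ W) y = y ∧ ph v (u ++ W) = 0 := by
  obtain ⟨W, hW, e⟩ := hy.ret
  refine ⟨W, hW, e, ?_⟩
  have h1 : fact v c nxt (u ++ W) y ≠ hub := by
    rw [fact, e]; exact hy.1
  have h2 := fact_phase v c nxt h1
  rw [fact, e] at h2
  have : y.2.2 + ph v (u ++ W) = y.2.2 + 0 := by rw [add_zero]; exact h2.symm
  exact add_left_cancel this

theorem exists_concat {u : List Γ} (hu : u ≠ []) : ∃ u0 a, u = u0 ++ [a] := by
  rcases List.eq_nil_or_concat' u with rfl | ⟨u0, a, rfl⟩
  · exact absurd rfl hu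
  · exact ⟨u0, a, rfl⟩

/-! ### the plain phase automaton -/

theorem noCycleV : ∀ u x, PP (fam v c nxtV) hub u x → fact v c nxtV u x = x := by
  have key : ∀ u y, PP (fam v c nxtV) hub u y → y.2.2 = 0 → u ≠ [] → False := by
    intro u y hy h0 hu
    obtain ⟨u0, a, rfl⟩ := exists_concat hu
    obtain ⟨b, ic, θ, e⟩ := PP_canon v c nxtV hy h0
    exact hy.1 e
  apply noCycle_of
  · intro u y hy h0 hph
    refine key u y hy h0 ?_
    rintro rfl
    exact hph rfl
  · intro u y hy h0 _
    by_cases hu : u = []
    · subst hu; rfl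
    · exact (key u y hy h0 hu).elim

/-! ### the doubling automaton -/

theorem noCycleV2 : ∀ u x, PP (fam v c nxtV2) hub u x → fact v c nxtV2 u x = x := by
  have key : ∀ u y, PP (fam v c nxtV2) hub u y → y.2.2 = 0 → u ≠ [] → False := by
    intro u y hy h0 hu
    obtain ⟨u0, a, rfl⟩ := exists_concat hu
    obtain ⟨b, ic, θ, e⟩ := PP_canon v c nxtV2 hy h0
    obtain ⟨W, _, e1, e2⟩ := PP_ret_phase v c nxtV2 hy
    have hb : nxtV2 b (icStep c ic θ a) = BL.s := by
      have hne : nxtV2 b (icStep c ic θ a) ≠ BL.h := by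
        intro hc
        rw [hc] at e
        exact hy.1 e
      revert hne
      cases b <;> cases icStep c ic θ a <;> simp [nxtV2]
    rw [hb] at e
    have hd := doomed_all v c nxtV2 (b := BL.s) (fun ic => by cases ic <;> rfl) none 0
      (W := (u0 ++ [a]) ++ W) (by simp) (by rw [zero_add]; exact e2)
    rw [← e, e1] at hd
    exact hy.1 hd
  apply noCycle_of
  · intro u y hy h0 hph
    refine key u y hy h0 ?_
    rintro rfl
    exact hph rfl
  · intro u y hy h0 _
    by_cases hu : u = []
    · subst hu; rfl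
    · exact (key u y hy h0 hu).elim

/-! ### the absorbing automaton -/

theorem canonV1 {u : List Γ} {y : St p} (hy : PP (fam v c nxtV1) hub u y) (h0 : y.2.2 = 0)
    (hu : u ≠ []) : y = (BL.k, none, 0) := by
  obtain ⟨u0, a, rfl⟩ := exists_concat hu
  obtain ⟨b, ic, θ, e⟩ := PP_canon v c nxtV1 hy h0
  have hb : nxtV1 b (icStep c ic θ a) = BL.k := by
    have hne : nxtV1 b (icStep c ic θ a) ≠ BL.h := by
      intro hc
      rw [hc] at e
      exact hy.1 e
    revert hne
    cases icStep c ic θ a with
    | none => simp [nxtV1]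
    | some t =>
      by_cases ht : t = 0
      · simp [nxtV1, ht]
      · simp [nxtV1, ht]
  rw [hb] at e
  exact e

theorem noCycleV1 (hv : ∀ a, v a ≠ 0) :
    ∀ u x, PP (fam v c nxtV1) hub u x → fact v c nxtV1 u x = x := by
  apply noCycle_of
  · intro u y hy h0 hph
    have hu : u ≠ [] := by
      rintro rfl
      exact hph rfl
    -- every letter of `u` is `c`
    have hall : ∀ a ∈ u, a = c := by
      intro a ha
      by_contra hac
      obtain ⟨u1, u2, rfl⟩ := List.append_of_mem ha
      have hy1 := hy.conj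
      have hph1 : ph v (a :: u2 ++ u1) ≠ 0 := by
        rw [ph_append, add_comm, ← ph_append]; exact hph
      obtain ⟨j, hj⟩ := PP_phase_zero v c nxtV1 hy1 hph1
      have hy2 := hy1.iter j
      have e := canonV1 v c hy2 hj (by simp)
      obtain ⟨W, _, e1, e2⟩ := PP_ret_phase v c nxtV1 hy2
      rw [e] at e1
      have hne : ((BL.k, none, 0) : St p) ≠ hub := by
        intro hc
        have := congrArg (fun x : St p => x.1) hc
        simp [hub] at this
      have hva : (0 : ZMod p) + v a ≠ 0 := by rw [zero_add]; exact hv a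
      rw [List.cons_append, List.cons_append, fact_cons_of_ne v c nxtV1 hne, fam_cont v c nxtV1 hva,
        icStep_none_ne c 0 hac] at e1
      rw [List.cons_append, List.cons_append, ph_cons] at e2
      have hd := doomed_some v c nxtV1 (b := BL.k) (t := 0) (by simp [nxtV1]) hva
        (W := u2 ++ u1 ++ W) (by
          rintro hW
          rw [hW, ph_nil, add_zero] at e2
          exact hv a e2) (by rw [zero_add]; exact e2)
      rw [hd] at e1
      exact hne e1.symm
    have e := canonV1 v c hy h0 hu
    obtain ⟨W, hW, e1, e2⟩ := PP_ret_phase v c nxtV1 hy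
    have hd := doomed_c v c nxtV1 (b := BL.k) rfl 0 (W := u ++ W) (by
      intro a ha
      rcases List.mem_append.mp ha with ha | ha
      · exact hall a ha
      · exact hall a (hW a ha)) (by simp [hu]) (by rw [zero_add]; exact e2)
    rw [← e, e1] at hd
    exact hy.1 hd
  · intro u y hy h0 hph
    by_cases hu : u = []
    · subst hu; rfl
    · have hy1 := hy.iter 1
      rw [Function.iterate_one] at hy1
      have h1 : (fact v c nxtV1 u y).2.2 = 0 := by
        rw [fact_phase v c nxtV1 hy1.1, h0, hph, add_zero]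
      exact (canonV1 v c hy1 h1 hu).trans (canonV1 v c hy h0 hu).symm

end inst

end Vale.Agent.Lib.P329
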