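import Vale.Agent.Lib.P329.Inst

namespace Vale.Agent.Lib.P329

section instS

variable {p : ℕ} [Fact p.Prime] {Γ : Type} (v : Γ → ZMod p) (c : Γ) (e : ZMod p)

theorem k_ne_hub : ((BL.k, none, 0) : St p) ≠ hub := by
  intro hc
  have := congrArg (fun x : St p => x.1) hc
  simp [hub] at this

theorem s_ne_hub : ((BL.s, none, 0) : St p) ≠ hub := by
  intro hc
  have := congrArg (fun x : St p => x.1) hc
  simp [hub] at this

theorem st_ne_hub {b : BL} {ic : Option (ZMod p)} {θ : ZMod p} (hb : b ≠ BL.h) :
    ((b, ic, θ) : St p) ≠ hub := by
  intro hc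
  exact hb (congrArg (fun x : St p => x.1) hc)

theorem canonS {u0 : List Γ} {a : Γ} {y : St p} (hy : PP (fam v c (nxtS e)) hub (u0 ++ [a]) y)
    (h0 : y.2.2 = 0) : (y = (BL.s, none, 0) ∧ a = c) ∨ y = (BL.k, none, 0) := by
  obtain ⟨b, ic, θ, e1⟩ := PP_canon v c (nxtS e) hy h0
  have hne : nxtS e b (icStep c ic θ a) ≠ BL.h := by
    intro hc
    rw [hc] at e1
    exact hy.1 e1
  cases hic : icStep c ic θ a with
  | none =>
    left
    rw [hic] at e1 hne
    refine ⟨?_, icStep_eq_none c hic⟩
    rw [e1]
    cases b
    · rfl
    · exact absurd rfl hne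
    · rfl
  | some t =>
    right
    rw [hic] at e1 hne
    rw [e1]
    cases b
    · exact absurd rfl hne
    · by_cases ht : t = e
      · simp [nxtS, ht]
      · simp [nxtS, ht] at hne
    · exact absurd rfl hne

theorem canonS' {u : List Γ} {y : St p} (hy : PP (fam v c (nxtS e)) hub u y)
    (h0 : y.2.2 = 0) (hu : u ≠ []) : y = (BL.s, none, 0) ∨ y = (BL.k, none, 0) := by
  obtain ⟨u0, a, rfl⟩ := exists_concat hu
  rcases canonS v c e hy h0 with h | h
  · exact Or.inl h.1
  · exact Or.inr h

/-- the odd copy and the skipped copy cannot both survive the same word -/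
theorem swap_excl (W : List Γ) : ∀ θ : ZMod p, W ≠ [] → θ + ph v W = 0 →
    fact v c (nxtS e) W (BL.s, none, θ) = hub ∨ fact v c (nxtS e) W (BL.k, none, θ) = hub := by
  induction W with
  | nil => intro θ h; exact absurd rfl h
  | cons a W ih =>
    intro θ _ hph
    rw [fact_cons_of_ne v c _ (st_ne_hub (by simp)), fact_cons_of_ne v c _ (st_ne_hub (by simp))]
    rw [ph_cons, ← add_assoc] at hph
    by_cases hac : a = c
    · subst hac
      by_cases ha : θ + v a = 0
      · left
        rw [fam_done v a _ ha, icStep_none_c]
        exact act_hub _ _ _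
      · rw [fam_cont v a _ ha, fam_cont v a _ ha, icStep_none_c]
        refine ih _ ?_ hph
        rintro rfl
        rw [ph_nil, add_zero] at hph
        exact ha hph
    · right
      by_cases ha : θ + v a = 0
      · rw [fam_done v c _ ha, icStep_none_ne c θ hac]
        exact act_hub _ _ _
      · rw [fam_cont v c _ ha, icStep_none_ne c θ hac]
        refine doomed_some v c (nxtS e) rfl ha ?_ hph
        rintro rfl
        rw [ph_nil, add_zero] at hph
        exact ha hph

/-- reading only `c` from the skipped copy -/
theorem allc_from_k (W : List Γ) : ∀ θ : ZMod p, (∀ a ∈ W, a = c) → W ≠ [] → θ + ph v W = 0 →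
    fact v c (nxtS e) W (BL.k, none, θ) = hub ∨ fact v c (nxtS e) W (BL.k, none, θ) = (BL.s, none, 0) := by
  induction W with
  | nil => intro θ _ h; exact absurd rfl h
  | cons a W ih =>
    intro θ hc _ hph
    have hac : a = c := hc a (by simp)
    subst hac
    rw [fact_cons_of_ne v a _ (st_ne_hub (by simp))]
    rw [ph_cons, ← add_assoc] at hph
    by_cases ha : θ + v a = 0
    · rw [fam_done v a _ ha, icStep_none_c]
      by_cases hW : W = []
      · subst hW
        right
        rfl
      · left
        rw [ha] at hph
        exact doomed_c v a (nxtS e) (b := BL.s) rfl 0 (fun b hb => hc b (by simp [hb])) hW hph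
    · rw [fam_cont v a _ ha, icStep_none_c]
      refine ih _ (fun b hb => hc b (by simp [hb])) ?_ hph
      rintro rfl
      rw [ph_nil, add_zero] at hph
      exact ha hph

/-- after `c` and then a letter different from `c`, both copies are doomed when `e = 0` -/
theorem doomed_c_then (hv : ∀ a, v a ≠ 0) {b : BL} (hb : b ≠ BL.h) {a : Γ} (hac : a ≠ c)
    (he : b = BL.s → e = 0) {W : List Γ} (hph : ph v (c :: a :: W) = 0) :
    fact v c (nxtS e) (c :: a :: W) (b, none, 0) = hub := by
  have hvc : (0 : ZMod p) + v c ≠ 0 := by rw [zero_add]; exact hv c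
  rw [fact_cons_of_ne v c _ (st_ne_hub hb), fam_cont v c _ hvc, icStep_none_c,
    fact_cons_of_ne v c _ (st_ne_hub hb)]
  rw [ph_cons, ph_cons, ← add_assoc] at hph
  have hnx : nxtS e b (some (0 + v c)) = BL.h := by
    cases b
    · exact absurd rfl hb
    · have : e = 0 := he rfl
      subst this
      simp [nxtS, hv c]
    · rfl
  by_cases ha : 0 + v c + v a = 0
  · rw [fam_done v c _ ha, icStep_none_ne c _ hac, hnx]
    exact act_hub _ _ _
  · rw [fam_cont v c _ ha, icStep_none_ne c _ hac]
    refine doomed_some v c (nxtS e) hnx ha ?_ (by rw [zero_add]; exact hph)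
    rintro rfl
    rw [ph_nil, add_zero] at hph
    rw [zero_add] at ha
    exact ha hph

theorem noCycleS (hv : ∀ a, v a ≠ 0) :
    ∀ u x, PP (fam v c (nxtS e)) hub u x → fact v c (nxtS e) u x = x := by
  apply noCycle_of
  · intro u y hy h0 hph
    have hu : u ≠ [] := by
      rintro rfl
      exact hph rfl
    by_cases hall : ∀ a ∈ u, a = c
    · -- only the letter `c`
      obtain ⟨W, hW, e1, e2⟩ := PP_ret_phase v c (nxtS e) hy
      have hcW : ∀ a ∈ u ++ W, a = c := by
        intro a ha
        rcases List.mem_append.mp ha with ha | ha
        · exact hall a ha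
        · exact hall a (hW a ha)
      rcases canonS' v c e hy h0 hu with e0 | e0
      · have hd := doomed_c v c (nxtS e) (b := BL.s) rfl 0 hcW (by simp [hu])
          (by rw [zero_add]; exact e2)
        rw [← e0, e1] at hd
        exact hy.1 hd
      · have hd := allc_from_k v c e (u ++ W) 0 hcW (by simp [hu]) (by rw [zero_add]; exact e2)
        rw [← e0, e1] at hd
        rcases hd with hd | hd
        · exact hy.1 hd
        · rw [e0] at hd
          have := congrArg (fun x : St p => x.1) hd
          simp at this
    · push Not at hall
      obtain ⟨a, ha, hac⟩ := hall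
      obtain ⟨u1, u2, rfl⟩ := List.append_of_mem ha
      have hy1 := hy.conj
      have hph1 : ph v (a :: u2 ++ u1) ≠ 0 := by
        rw [ph_append, add_comm, ← ph_append]; exact hph
      obtain ⟨j, hj⟩ := PP_phase_zero v c (nxtS e) hy1 hph1
      have hy2 := hy1.iter j
      set y2 := (act (fam v c (nxtS e)) hub (a :: u2 ++ u1))^[j]
        (act (fam v c (nxtS e)) hub u1 y) with hy2def
      obtain ⟨W, _, e1, e2⟩ := PP_ret_phase v c (nxtS e) hy2
      have hva : (0 : ZMod p) + v a ≠ 0 := by rw [zero_add]; exact hv a
      have hW' : u2 ++ u1 ++ W ≠ [] := by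
        intro hW
        rw [List.cons_append, List.cons_append, ph_cons, hW, ph_nil, add_zero] at e2
        exact hv a e2
      have e2' : 0 + v a + ph v (u2 ++ u1 ++ W) = 0 := by
        rw [List.cons_append, List.cons_append, ph_cons] at e2
        rw [zero_add]; exact e2
      -- the last letter
      obtain ⟨u0, al, hlast⟩ := exists_concat (u := a :: u2 ++ u1) (by simp)
      rw [hlast] at hy2
      rcases canonS v c e hy2 hj with ⟨e0, hal⟩ | e0
      · -- the odd copy
        have he : e = 0 := by
          by_contra hne
          rw [e0, List.cons_append, List.cons_append, fact_cons_of_ne v c _ s_ne_hub,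
            fam_cont v c _ hva, icStep_none_ne c 0 hac] at e1
          have hd := doomed_some v c (nxtS e) (b := BL.s) (t := 0)
            (by simp [nxtS, Ne.symm hne]) hva hW' e2'
          rw [hd] at e1
          exact s_ne_hub e1.symm
        subst hal
        -- rotate so that the last letter `c` comes first
        cases u0 with
        | nil =>
          simp only [List.nil_append, List.cons_append, List.cons.injEq] at hlast
          exact hac hlast.1
        | cons a' u3 =>
          have ha' : a' = a := by
            simp only [List.cons_append, List.cons.injEq] at hlast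
            exact hlast.1.symm
          subst ha'
          have hy3 := hy2.conj
          have hph3 : ph v ([al] ++ a' :: u3) ≠ 0 := by
            rw [ph_append, add_comm, ← ph_append, ← hlast]; exact hph1
          obtain ⟨j3, hj3⟩ := PP_phase_zero v al (nxtS e) hy3 hph3
          have hy4 := hy3.iter j3
          obtain ⟨W4, _, f1, f2⟩ := PP_ret_phase v al (nxtS e) hy4
          rcases canonS' v al e hy4 hj3 (by simp) with g | g
          · rw [g] at f1
            have hd := doomed_c_then v al e hv (b := BL.s) (by simp) hac (fun _ => he)
              (W := u3 ++ W4) (by simpa using f2)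
            have : fact v al (nxtS e) ([al] ++ a' :: u3 ++ W4) (BL.s, none, 0) = hub := by
              simpa using hd
            rw [this] at f1
            exact s_ne_hub f1.symm
          · rw [g] at f1
            have hd := doomed_c_then v al e hv (b := BL.k) (by simp) hac (fun h => by simp at h)
              (W := u3 ++ W4) (by simpa using f2)
            have : fact v al (nxtS e) ([al] ++ a' :: u3 ++ W4) (BL.k, none, 0) = hub := by
              simpa using hd
            rw [this] at f1
            exact k_ne_hub f1.symm
      · -- the skipped copy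
        rw [e0, List.cons_append, List.cons_append, fact_cons_of_ne v c _ k_ne_hub,
          fam_cont v c _ hva, icStep_none_ne c 0 hac] at e1
        have hd := doomed_some v c (nxtS e) (b := BL.k) (t := 0) rfl hva hW' e2'
        rw [hd] at e1
        exact k_ne_hub e1.symm
  · intro u y hy h0 hph
    by_cases hu : u = []
    · subst hu; rfl
    · have hy1 := hy.iter 1
      rw [Function.iterate_one] at hy1
      have h1 : (fact v c (nxtS e) u y).2.2 = 0 := by
        rw [fact_phase v c (nxtS e) hy1.1, h0, hph, add_zero]
      have hy2 := hy1.iter 1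
      rw [Function.iterate_one] at hy2
      have hsw := swap_excl v c e u 0 hu (by rw [zero_add]; exact hph)
      rcases canonS' v c e hy h0 hu with g | g <;> rcases canonS' v c e hy1 h1 hu with g' | g'
      · exact g'.trans g.symm
      · exfalso
        rcases hsw with hs | hs
        · rw [← g] at hs; exact hy1.1 hs
        · rw [← g'] at hs; exact hy2.1 hs
      · exfalso
        rcases hsw with hs | hs
        · rw [← g'] at hs; exact hy2.1 hs
        · rw [← g] at hs; exact hy1.1 hs
      · exact g'.trans g.symm

end instS

end Vale.Agent.Lib.P329
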