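import Mathlib

namespace Vale.Agent.Lib.P329

/-- The local divisor of the monoid `M` at `c`: the set `cM ∩ Mc`. -/
def LD {M : Type} [Monoid M] (c : M) : Type := {x : M // (∃ y, x = c * y) ∧ (∃ z, x = z * c)}

namespace LD

variable {M : Type} [Monoid M] {c : M}

/-- the underlying element -/
def val (x : LD c) : M := Subtype.val x

theorem ext' {x y : LD c} (h : x.val = y.val) : x = y := Subtype.ext h

theorem exists_left (x : LD c) : ∃ y, x.val = c * y := x.2.1

theorem exists_right (x : LD c) : ∃ z, x.val = z * c := x.2.2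

/-- the product `(zc) ∘ (cy) = zcy` -/
noncomputable def mul' (x y : LD c) : LD c :=
  ⟨Classical.choose x.2.2 * y.val, by
    constructor
    · obtain ⟨y', hy⟩ := y.exists_left
      obtain ⟨x', hx⟩ := x.exists_left
      refine ⟨x' * y', ?_⟩
      have hz : x.val = Classical.choose x.2.2 * c := Classical.choose_spec x.2.2
      rw [hy, ← mul_assoc, ← hz, hx, mul_assoc]
    · obtain ⟨z', hz'⟩ := y.exists_right
      exact ⟨Classical.choose x.2.2 * z', by rw [hz', mul_assoc]⟩⟩

theorem val_mul' (x y : LD c) {z : M} (hz : x.val = z * c) : (mul' x y).val = z * y.val := by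
  obtain ⟨y', hy⟩ := y.exists_left
  have hz0 : x.val = Classical.choose x.2.2 * c := Classical.choose_spec x.2.2
  show Classical.choose x.2.2 * y.val = z * y.val
  rw [hy, ← mul_assoc, ← mul_assoc, ← hz0, ← hz]

theorem val_mul'' (x y : LD c) {y' : M} (hy : y.val = c * y') : (mul' x y).val = x.val * y' := by
  obtain ⟨z, hz⟩ := x.exists_right
  rw [val_mul' x y hz, hy, hz, mul_assoc]

/-- the identity `c` -/
def one' : LD c := ⟨c, ⟨1, (mul_one c).symm⟩, ⟨1, (one_mul c).symm⟩⟩

noncomputable instance : Monoid (LD c) where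
  mul := mul'
  one := one'
  mul_assoc x y w := by
    apply ext'
    obtain ⟨z, hz⟩ := x.exists_right
    obtain ⟨w', hw⟩ := w.exists_left
    show (mul' (mul' x y) w).val = (mul' x (mul' y w)).val
    rw [val_mul'' _ w hw, val_mul' x y hz, val_mul' x _ hz, val_mul'' y w hw, mul_assoc]
  one_mul x := by
    apply ext'
    show (mul' one' x).val = x.val
    rw [val_mul' one' x (z := 1) (one_mul c).symm, one_mul]
  mul_one x := by
    apply ext'
    show (mul' x one').val = x.val
    rw [val_mul'' x one' (y' := 1) (mul_one c).symm, mul_one]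

theorem val_one : (1 : LD c).val = c := rfl

theorem val_mul (x y : LD c) {z : M} (hz : x.val = z * c) : (x * y).val = z * y.val :=
  val_mul' x y hz

instance [Finite M] : Finite (LD c) := inferInstanceAs (Finite {x : M // _})

theorem val_pow_succ (x : LD c) {z : M} (hz : x.val = z * c) (k : ℕ) :
    (x ^ (k + 1)).val = z ^ k * x.val := by
  induction k with
  | zero => simp
  | succ k ih => rw [pow_succ' x (k + 1), val_mul x _ hz, ih, pow_succ' z k, mul_assoc]

theorem aperiodic (hap : ∀ x : M, ∃ n : ℕ, x ^ (n + 1) = x ^ n) (x : LD c) :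
    ∃ n : ℕ, x ^ (n + 1) = x ^ n := by
  obtain ⟨z, hz⟩ := x.exists_right
  obtain ⟨n, hn⟩ := hap z
  refine ⟨n + 1, ext' ?_⟩
  rw [val_pow_succ x hz, val_pow_succ x hz, hn]

theorem card_lt [Finite M] (hap : ∀ x : M, ∃ n : ℕ, x ^ (n + 1) = x ^ n) (hc : c ≠ 1) :
    Nat.card (LD c) < Nat.card M := by
  refine Finite.card_subtype_lt (x := (1 : M)) ?_
  rintro ⟨⟨y, hy⟩, _⟩
  apply hc
  obtain ⟨n, hn⟩ := hap c
  have h1 : ∀ k : ℕ, c ^ k * y ^ k = 1 := by
    intro k
    induction k with
    | zero => simp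
    | succ k ih =>
      rw [pow_succ c k, pow_succ' y k, mul_assoc, ← mul_assoc c y, ← hy, one_mul, ih]
  have h2 : c ^ (n + 1) * y ^ n = c := by
    rw [pow_succ' c n, mul_assoc, h1 n, mul_one]
  rw [hn, h1 n] at h2
  exact h2.symm

/-- the element `c t c` -/
def sandwich (c t : M) : LD c := ⟨c * t * c, ⟨t * c, by rw [mul_assoc]⟩, ⟨c * t, rfl⟩⟩

theorem val_sandwich (t : M) : (sandwich c t).val = c * t * c := rfl

theorem val_sandwich_mul (t : M) (y : LD c) : (sandwich c t * y).val = c * t * y.val :=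
  val_mul _ _ rfl

end LD

end Vale.Agent.Lib.P329
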