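import Vale.Agent.Lib.P329.Mono

namespace Vale.Agent.Lib.P329

open Language

theorem Meas.const {α β : Type} (k : ℕ) (c : β) : Meas k (fun _ : List α => c) :=
  fun b => Hk_const k (c = b)

/-! ### functions that are periodic modulo `N` -/

/-- `g` is periodic modulo `N` -/
def Per (N : ℕ) (g : ℕ → ℕ) : Prop :=
  ∃ M, 0 < M ∧ ∀ p, ((g (p + M) : ℕ) : ZMod N) = (g p : ZMod N)

theorem per_mul_aux {N M : ℕ} {g : ℕ → ℕ} (h : ∀ p, ((g (p + M) : ℕ) : ZMod N) = (g p : ZMod N))
    (q p : ℕ) : ((g (p + q * M) : ℕ) : ZMod N) = (g p : ZMod N) := by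
  induction q with
  | zero => simp
  | succ q ih =>
    have : p + (q + 1) * M = (p + q * M) + M := by ring
    rw [this, h, ih]

theorem per_mod {N M : ℕ} {g : ℕ → ℕ} (h : ∀ p, ((g (p + M) : ℕ) : ZMod N) = (g p : ZMod N))
    (p : ℕ) : ((g (p % M) : ℕ) : ZMod N) = (g p : ZMod N) := by
  have h1 := per_mul_aux h (p / M) (p % M)
  have h2 : p % M + p / M * M = p := by
    rw [mul_comm]; exact Nat.mod_add_div p M
  rw [h2] at h1
  exact h1.symm

theorem Per.const (N c : ℕ) : Per N (fun _ => c) := ⟨1, Nat.one_pos, fun _ => rfl⟩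

theorem Per.id (N : ℕ) [NeZero N] : Per N (fun k => k) :=
  ⟨N, Nat.pos_of_ne_zero (NeZero.ne N), fun p => by simp⟩

theorem Per.sq (N : ℕ) [NeZero N] : Per N (fun k => k * k) :=
  ⟨N, Nat.pos_of_ne_zero (NeZero.ne N), fun p => by simp⟩

theorem Per.sum {N : ℕ} [NeZero N] {g : ℕ → ℕ} (hg : Per N g) :
    Per N (fun c => ∑ k ∈ Finset.range c, g k) := by
  obtain ⟨M, hM, h⟩ := hg
  have hN : 0 < N := Nat.pos_of_ne_zero (NeZero.ne N)
  refine ⟨N * M, Nat.mul_pos hN hM, ?_⟩
  -- blocks
  have hblock : ∀ q : ℕ, ((∑ k ∈ Finset.range (q * M), g k : ℕ) : ZMod N) =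
      q * ((∑ k ∈ Finset.range M, g k : ℕ) : ZMod N) := by
    intro q
    induction q with
    | zero => simp
    | succ q ih =>
      have e : (q + 1) * M = q * M + M := by ring
      rw [e, Finset.sum_range_add, Nat.cast_add, ih]
      have : ((∑ x ∈ Finset.range M, g (q * M + x) : ℕ) : ZMod N) =
          ((∑ k ∈ Finset.range M, g k : ℕ) : ZMod N) := by
        rw [Nat.cast_sum, Nat.cast_sum]
        refine Finset.sum_congr rfl (fun x _ => ?_)
        rw [add_comm]
        exact per_mul_aux h q x
      rw [this]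
      push_cast
      ring
  intro p
  show ((∑ k ∈ Finset.range (p + N * M), g k : ℕ) : ZMod N) = ((∑ k ∈ Finset.range p, g k : ℕ) : ZMod N)
  rw [add_comm p, Finset.sum_range_add, Nat.cast_add, hblock N]
  have : ((∑ x ∈ Finset.range p, g (N * M + x) : ℕ) : ZMod N) =
      ((∑ k ∈ Finset.range p, g k : ℕ) : ZMod N) := by
    rw [Nat.cast_sum, Nat.cast_sum]
    refine Finset.sum_congr rfl (fun x _ => ?_)
    rw [add_comm]
    exact per_mul_aux h N x
  rw [this]
  simp

theorem choose_two_eq_sum (c : ℕ) : c.choose 2 = ∑ k ∈ Finset.range c, k := by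
  rw [Finset.sum_range_id, Nat.choose_two_right]

theorem Per.choose2 (N : ℕ) [NeZero N] : Per N (fun k => k.choose 2) := by
  have := Per.sum (Per.id N)
  simpa only [← choose_two_eq_sum] using this

/-! ### sums over the occurrences of a letter -/

section sums

variable {α : Type} [DecidableEq α]

theorem bump_self (θ : α → ℕ) (a : α) : bump θ a a = θ a + 1 := by simp [bump]

theorem bump_ne (θ : α → ℕ) {a i : α} (h : i ≠ a) : bump θ a i = θ i := by simp [bump, h]

theorem psum_nil (y : α) (f : (α → ℕ) → ℕ) (θ : α → ℕ) : psum y f θ [] = 0 := rfl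

theorem psum_cons (y : α) (f : (α → ℕ) → ℕ) (θ : α → ℕ) (a : α) (w : List α) :
    psum y f θ (a :: w) = (if a = y then f θ else 0) + psum y f (bump θ a) w := rfl

theorem psum_add (y : α) (f g : (α → ℕ) → ℕ) (w : List α) : ∀ θ,
    psum y (fun θ => f θ + g θ) θ w = psum y f θ w + psum y g θ w := by
  induction w with
  | nil => intro θ; rfl
  | cons a w ih =>
    intro θ
    rw [psum_cons, psum_cons, psum_cons, ih]
    by_cases h : a = y
    · simp only [h, if_true]; ring
    · simp only [h, if_false]; ring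

theorem psum_congr (y : α) {f g : (α → ℕ) → ℕ} (h : ∀ θ, f θ = g θ) (θ : α → ℕ) (w : List α) :
    psum y f θ w = psum y g θ w := by
  have : f = g := funext h
  rw [this]

theorem adv_nil (θ : α → ℕ) : adv θ [] = θ := rfl

theorem adv_cons (θ : α → ℕ) (a : α) (w : List α) : adv θ (a :: w) = adv (bump θ a) w := rfl

theorem adv_apply (w : List α) : ∀ (θ : α → ℕ) (i : α), adv θ w i = θ i + cnt ({i} : Set α) w := by
  induction w with
  | nil => intro θ i; simp [adv_nil, cnt_nil]
  | cons a w ih =>
    intro θ i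
    rw [adv_cons, ih]
    by_cases h : a = i
    · subst h
      rw [bump_self, cnt_cons_mem _ (Set.mem_singleton a)]
      ring
    · rw [bump_ne θ (Ne.symm h), cnt_cons_notMem _ (by simpa using h)]

/-- sum over the occurrences of `y` of `g` of the number of letters of `T` read before -/
def gsum (T : Finset α) (y : α) (g : ℕ → ℕ) : ℕ → List α → ℕ
  | _, [] => 0
  | p, a :: w => if a ∈ T then gsum T y g (p + 1) w else (if a = y then g p else 0) + gsum T y g p w

theorem gsum_nil (T : Finset α) (y : α) (g : ℕ → ℕ) (p : ℕ) : gsum T y g p [] = 0 := rfl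

theorem gsum_cons (T : Finset α) (y : α) (g : ℕ → ℕ) (p : ℕ) (a : α) (w : List α) :
    gsum T y g p (a :: w) =
      if a ∈ T then gsum T y g (p + 1) w else (if a = y then g p else 0) + gsum T y g p w := rfl

theorem sum_bump (T : Finset α) (θ : α → ℕ) (a : α) :
    ∑ i ∈ T, bump θ a i = ∑ i ∈ T, θ i + (if a ∈ T then 1 else 0) := by
  by_cases h : a ∈ T
  · rw [if_pos h, ← Finset.add_sum_erase T _ h, ← Finset.add_sum_erase T θ h, bump_self]
    have : ∑ i ∈ T.erase a, bump θ a i = ∑ i ∈ T.erase a, θ i :=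
      Finset.sum_congr rfl (fun i hi => bump_ne θ (Finset.ne_of_mem_erase hi))
    rw [this]
    ring
  · rw [if_neg h, add_zero]
    exact Finset.sum_congr rfl (fun i hi => bump_ne θ (fun e => h (e ▸ hi)))

theorem psum_eq_gsum (T : Finset α) {y : α} (hy : y ∉ T) (g : ℕ → ℕ) (w : List α) : ∀ θ : α → ℕ,
    psum y (fun θ => g (∑ i ∈ T, θ i)) θ w = gsum T y g (∑ i ∈ T, θ i) w := by
  induction w with
  | nil => intro θ; rfl
  | cons a w ih =>
    intro θ
    rw [psum_cons, gsum_cons, ih, sum_bump]
    by_cases h : a ∈ T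
    · have hay : a ≠ y := fun e => hy (e ▸ h)
      simp [h, hay]
    · simp [h]

theorem gsum_eq_cntAt {N M : ℕ} (hM : 0 < M) (T : Finset α) (y : α) {g : ℕ → ℕ}
    (h : ∀ p, ((g (p + M) : ℕ) : ZMod N) = (g p : ZMod N)) (w : List α) : ∀ p : ℕ,
    ((gsum T y g p w : ℕ) : ZMod N) =
      ∑ t ∈ Finset.range M, (g t : ZMod N) * (cntAt (↑T : Set α) {y} M t p w : ZMod N) := by
  induction w with
  | nil => intro p; simp [gsum_nil, cntAt_nil]
  | cons a w ih =>
    intro p
    rw [gsum_cons]
    by_cases hT : a ∈ T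
    · rw [if_pos hT, ih]
      refine Finset.sum_congr rfl (fun t _ => ?_)
      rw [cntAt_cons_mem _ _ _ _ (Finset.mem_coe.mpr hT)]
    · have hT' : a ∉ (↑T : Set α) := fun e => hT (Finset.mem_coe.mp e)
      rw [if_neg hT, Nat.cast_add, ih]
      by_cases hay : a = y
      · rw [if_pos hay]
        have hmem : p % M ∈ Finset.range M := Finset.mem_range.mpr (Nat.mod_lt _ hM)
        have key : ∀ t ∈ Finset.range M, (g t : ZMod N) * (cntAt (↑T : Set α) {y} M t p (a :: w) : ZMod N) =
            (if t = p % M then (g t : ZMod N) else 0) +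
              (g t : ZMod N) * (cntAt (↑T : Set α) {y} M t p w : ZMod N) := by
          intro t _
          by_cases ht : p % M = t
          · rw [cntAt_cons_hit _ _ _ _ hT' (by simp [hay]) ht, if_pos ht.symm]
            push_cast
            ring
          · rw [cntAt_cons_miss _ _ _ _ hT' (fun e => ht e.2), if_neg (fun e => ht e.symm), zero_add]
        rw [Finset.sum_congr rfl key, Finset.sum_add_distrib, Finset.sum_ite_eq' _ _ _, if_pos hmem,
          per_mod h]
      · rw [if_neg hay, Nat.cast_zero, zero_add]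
        refine Finset.sum_congr rfl (fun t _ => ?_)
        rw [cntAt_cons_miss _ _ _ _ hT' (fun e => hay (by simpa using e.1))]

theorem psum_self (y : α) (g : ℕ → ℕ) (w : List α) : ∀ θ : α → ℕ,
    psum y (fun θ => g (θ y)) θ w = ∑ k ∈ Finset.range (cnt ({y} : Set α) w), g (θ y + k) := by
  induction w with
  | nil => intro θ; simp [psum_nil, cnt_nil]
  | cons a w ih =>
    intro θ
    rw [psum_cons, ih]
    by_cases h : a = y
    · subst h
      rw [if_pos rfl, bump_self, cnt_cons_mem _ (Set.mem_singleton a), Finset.sum_range_succ',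
        add_zero, add_comm]
      congr 1
      refine Finset.sum_congr rfl (fun k _ => ?_)
      congr 1
      ring
    · rw [if_neg h, zero_add, bump_ne θ (Ne.symm h), cnt_cons_notMem _ (by simpa using h)]

/-- summation by parts -/
theorem psum_parts {y j : α} (hyj : y ≠ j) (w : List α) : ∀ θ : α → ℕ,
    psum y (fun θ => θ y * θ j) θ w + psum j (fun θ => (θ y).choose 2) θ w + (θ y).choose 2 * θ j =
      (adv θ w y).choose 2 * adv θ w j := by
  induction w with
  | nil => intro θ; simp [psum_nil, adv_nil]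
  | cons a w ih =>
    intro θ
    rw [psum_cons, psum_cons, adv_cons, ← ih]
    by_cases h1 : a = y
    · subst h1
      rw [if_pos rfl, if_neg hyj, bump_self, bump_ne θ (Ne.symm hyj), Nat.choose_succ_succ' (θ a) 1,
        Nat.choose_one_right]
      ring
    · by_cases h2 : a = j
      · subst h2
        rw [if_neg h1, if_pos rfl, bump_self, bump_ne θ hyj]
        ring
      · rw [if_neg h1, if_neg h2, bump_ne θ (Ne.symm h1), bump_ne θ (Ne.symm h2)]
        ring

theorem choose_two_add (a b : ℕ) : (a + b).choose 2 = a * b + a.choose 2 + b.choose 2 := by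
  induction a with
  | zero => simp
  | succ a ih =>
    have e : a + 1 + b = (a + b) + 1 := by ring
    rw [e, Nat.choose_succ_succ' (a + b) 1, Nat.choose_succ_succ' a 1, ih, Nat.choose_one_right,
      Nat.choose_one_right]
    ring

end sums

/-! ### all these sums are statistics of generalized star height one -/

section meas

variable {α : Type} [DecidableEq α] [Finite α]

omit [DecidableEq α] in
theorem meas_cnt (T : Set α) (M : ℕ) : Meas 1 (fun w : List α => (cnt T w : ZMod M)) :=
  Meas.of_mod M (fun r => H1_cnt_mod T M r)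

omit [DecidableEq α] in
theorem meas_of_cnt (T : Set α) {N : ℕ} {G : ℕ → ℕ} (hG : Per N G) :
    Meas 1 (fun w : List α => (G (cnt T w) : ZMod N)) := by
  obtain ⟨M, hM, h⟩ := hG
  have : NeZero M := ⟨by omega⟩
  refine ((meas_cnt T M).comp (fun x : ZMod M => (G x.val : ZMod N))).congr ?_
  intro w
  rw [ZMod.val_natCast, per_mod h]

theorem meas_gsum (T : Finset α) (y : α) {g : ℕ → ℕ} (N : ℕ) [NeZero N] (hg : Per N g) (p : ℕ) :
    Meas 1 (fun w : List α => (gsum T y g p w : ZMod N)) := by
  obtain ⟨M, hM, h⟩ := hg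
  have hN : 0 < N := Nat.pos_of_ne_zero (NeZero.ne N)
  have m1 : Meas 1 (fun w : List α => fun t : Fin M =>
      (cntAt (↑T : Set α) {y} M t p w : ZMod N)) :=
    Meas.pi (fun t => Meas.of_mod N (fun r => H1_cntAt _ _ M t t.2 N r p hN))
  refine (m1.comp (fun x : Fin M → ZMod N => ∑ t : Fin M, (g t : ZMod N) * x t)).congr ?_
  intro w
  rw [gsum_eq_cntAt hM T y h w p, Finset.sum_range]

theorem meas_psum_T (T : Finset α) {y : α} (hy : y ∉ T) {g : ℕ → ℕ} (N : ℕ) [NeZero N]
    (hg : Per N g) :
    Meas 1 (fun w : List α => (psum y (fun θ => g (∑ i ∈ T, θ i)) (fun _ => 0) w : ZMod N)) :=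
  (meas_gsum T y N hg _).congr (fun w => by rw [psum_eq_gsum T hy])

theorem meas_psum_one {i y : α} (hy : i ≠ y) {g : ℕ → ℕ} (N : ℕ) [NeZero N] (hg : Per N g) :
    Meas 1 (fun w : List α => (psum y (fun θ => g (θ i)) (fun _ => 0) w : ZMod N)) := by
  refine (meas_psum_T {i} (y := y) (by simpa using hy.symm) N hg).congr ?_
  intro w
  rw [psum_congr y (f := fun θ => g (θ i)) (g := fun θ => g (∑ k ∈ ({i} : Finset α), θ k))
    (fun θ => by rw [Finset.sum_singleton])]

theorem meas_psum_self (y : α) {g : ℕ → ℕ} (N : ℕ) [NeZero N] (hg : Per N g) :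
    Meas 1 (fun w : List α => (psum y (fun θ => g (θ y)) (fun _ => 0) w : ZMod N)) := by
  refine (meas_of_cnt ({y} : Set α) (Per.sum hg)).congr ?_
  intro w
  rw [psum_self]
  simp

theorem meas_psum_pair {i j y : α} (hij : i ≠ j) (hi : i ≠ y) (hj : j ≠ y) (N : ℕ) [NeZero N] :
    Meas 1 (fun w : List α => (psum y (fun θ => θ i * θ j) (fun _ => 0) w : ZMod N)) := by
  have m1 := meas_psum_T {i, j} (y := y) (by simp [hi.symm, hj.symm]) N (Per.choose2 N)
  have m2 := meas_psum_one hi N (Per.choose2 N)
  have m3 := meas_psum_one hj N (Per.choose2 N)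
  refine ((m1.prod (m2.prod m3)).comp
    (fun x : ZMod N × ZMod N × ZMod N => x.1 - x.2.1 - x.2.2)).congr ?_
  intro w
  have e : psum y (fun θ => (∑ k ∈ ({i, j} : Finset α), θ k).choose 2) (fun _ => 0) w =
      psum y (fun θ => θ i * θ j) (fun _ => 0) w + psum y (fun θ => (θ i).choose 2) (fun _ => 0) w +
        psum y (fun θ => (θ j).choose 2) (fun _ => 0) w := by
    rw [← psum_add, ← psum_add]
    exact psum_congr y (fun θ => by rw [Finset.sum_pair hij, choose_two_add]) _ _
  simp only [e]
  push_cast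
  ring

theorem meas_psum_mixed {y j : α} (hyj : y ≠ j) (N : ℕ) [NeZero N] :
    Meas 1 (fun w : List α => (psum y (fun θ => θ y * θ j) (fun _ => 0) w : ZMod N)) := by
  have m1 := meas_of_cnt ({y} : Set α) (Per.choose2 N)
  have m2 := meas_cnt ({j} : Set α) N
  have m3 := meas_psum_one hyj N (Per.choose2 N)
  refine ((m1.prod (m2.prod m3)).comp
    (fun x : ZMod N × ZMod N × ZMod N => x.1 * x.2.1 - x.2.2)).congr ?_
  intro w
  have e := psum_parts hyj w (fun _ => 0)
  rw [adv_apply, adv_apply] at e
  simp only [Nat.choose_zero_succ, zero_mul, add_zero, zero_add] at e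
  simp only
  rw [← Nat.cast_mul, ← e]
  push_cast
  ring

/-- **All the sums needed for class three are statistics of generalized star height one.** -/
theorem meas_psum (y : α) (m : Mono α) (N : ℕ) [NeZero N] :
    Meas 1 (fun w : List α => (psum y (fun θ => m.eval θ) (fun _ => 0) w : ZMod N)) := by
  cases m with
  | one => exact meas_psum_self y N (Per.const N 1)
  | lin i =>
    by_cases h : i = y
    · subst h; exact meas_psum_self i N (Per.id N)
    · exact meas_psum_one h N (Per.id N)
  | bin i =>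
    by_cases h : i = y
    · subst h; exact meas_psum_self i N (Per.choose2 N)
    · exact meas_psum_one h N (Per.choose2 N)
  | mul i j =>
    by_cases hi : i = y
    · subst hi
      by_cases hj : j = i
      · subst hj; exact meas_psum_self j N (Per.sq N)
      · exact meas_psum_mixed (Ne.symm hj) N
    · by_cases hj : j = y
      · subst hj
        refine (meas_psum_mixed (Ne.symm hi) N).congr ?_
        intro w
        rw [psum_congr j (f := fun θ => (Mono.mul i j).eval θ) (g := fun θ => θ j * θ i)
          (fun θ => Nat.mul_comm _ _)]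
      · by_cases hij : i = j
        · subst hij; exact meas_psum_one hi N (Per.sq N)
        · exact meas_psum_pair hij hi hj N

end meas

end Vale.Agent.Lib.P329
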