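import Vale.Agent.Lib.P329.Phase
import Vale.Agent.Lib.P329.Closure

namespace Vale.Agent.Lib.P329

/-- the monomials of degree at most two in the letter counts -/
inductive Mono (α : Type) : Type
  | one : Mono α
  | lin : α → Mono α
  | mul : α → α → Mono α
  | bin : α → Mono α

/-- value of a monomial at a vector of letter counts -/
def Mono.eval {α : Type} (θ : α → ℕ) : Mono α → ℕ
  | Mono.one => 1
  | Mono.lin i => θ i
  | Mono.mul i j => θ i * θ j
  | Mono.bin i => (θ i).choose 2

/-- one more occurrence of the letter `a` -/
def bump {α : Type} [DecidableEq α] (θ : α → ℕ) (a : α) : α → ℕ := Function.update θ a (θ a + 1)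

/-- the vector of letter counts after reading `w`, starting from `θ` -/
def adv {α : Type} [DecidableEq α] : (α → ℕ) → List α → (α → ℕ)
  | θ, [] => θ
  | θ, a :: w => adv (bump θ a) w

/-- sum, over the occurrences of `y` in `w`, of `f` evaluated at the vector of letter counts of the
prefix before the occurrence (starting from `θ`) -/
def psum {α : Type} [DecidableEq α] (y : α) (f : (α → ℕ) → ℕ) : (α → ℕ) → List α → ℕ
  | _, [] => 0
  | θ, a :: w => (if a = y then f θ else 0) + psum y f (bump θ a) w

end Vale.Agent.Lib.P329
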