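import Vale.Agent.Lib.P329.Count

namespace Vale.Agent.Lib.P329

open Language

variable {α : Type} (T S : Set α) (m t : ℕ)

/-- the hub code: skip irrelevant letters, then either a counted letter or a full turn of `m`
toggles -/
def codeC : Language α :=
  starOf (Tᶜ ∩ Sᶜ) * (letters (S ∩ Tᶜ) + letters T * codeD T ^ (m - 1))

theorem Hk_codeC [Finite α] (k : ℕ) : Hk k (codeC T S m) :=
  (Hk_starOf k _).mul ((Hk_letters k _).add ((Hk_letters k _).mul ((Hk_codeD T k).pow _)))

theorem phase_ne {p i : ℕ} (hp : p % m = t) (hi : i < m - 1) : (p + 1 + i) % m ≠ t := by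
  intro h
  have hm : 0 < m := by omega
  have h1 : (p + (1 + i)) % m = p % m := by rw [← add_assoc, h, hp]
  have h2 : (p + (1 + i)) ≡ p + 0 [MOD m] := by simpa [Nat.ModEq] using h1
  have h3 : (1 + i) ≡ 0 [MOD m] := Nat.ModEq.add_left_cancel' p h2
  have h4 : (1 + i) % m = 0 := by simpa [Nat.ModEq] using h3
  rw [Nat.mod_eq_of_lt (by omega)] at h4
  omega

theorem hubF_step (hm : 0 < m) {p : ℕ} (hp : p % m = t) {k : List α} (hk : k ∈ codeC T S m)
    (w : List α) :
    cntAt T S m t p (k ++ w) + cnt T (k ++ w) / m = cntAt T S m t p w + cnt T w / m + 1 := by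
  obtain ⟨e, he, v, hv, rfl⟩ := Language.mem_mul.mp hk
  have he' : e ∈ starOf Tᶜ := fun y hy => (he y hy).1
  rw [List.append_assoc, cntAt_skip T S m t he, cnt_append, cnt_starOf T he', zero_add]
  rcases (Language.mem_add _ _ _).mp hv with ⟨x, hx, rfl⟩ | hv
  · rw [List.singleton_append, cntAt_cons_hit T S m t hx.2 hx.1 hp, cnt_cons_notMem T hx.2]
    omega
  · obtain ⟨y, ⟨x, hx, rfl⟩, d, hd, rfl⟩ := Language.mem_mul.mp hv
    rw [List.append_assoc, List.singleton_append, cntAt_cons_mem T S m t hx, cnt_cons_mem T hx,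
      cntAt_codeD_pow T S m t (m - 1) hd (p + 1) (fun i hi => phase_ne m t hp hi),
      cnt_codeD_pow T (m - 1) hd, show p + 1 + (m - 1) = p + m by omega, cntAt_add_period,
      show cnt T w + (m - 1) + 1 = cnt T w + m by omega, Nat.add_div_right _ hm]
    omega

theorem hubF_exists (hm : 0 < m) {p : ℕ} (hp : p % m = t) (w : List α)
    (hw : cntAt T S m t p w + cnt T w / m ≠ 0) : ∃ k ∈ codeC T S m, ∃ w', w = k ++ w' := by
  induction w with
  | nil =>
    rw [cntAt_nil, cnt_nil] at hw
    simp at hw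
  | cons x w ih =>
    by_cases hx : x ∈ T
    · by_cases hc : m ≤ cnt T (x :: w)
      · rw [cnt_cons_mem T hx] at hc
        obtain ⟨d, hd, w', rfl⟩ := exists_codeD_pow T (m - 1) w (by omega)
        refine ⟨[x] ++ d, ?_, w', by simp⟩
        refine Language.mem_mul.mpr ⟨[], nil_mem_starOf, [x] ++ d, ?_, rfl⟩
        exact (Language.mem_add _ _ _).mpr (Or.inr (Language.append_mem_mul ⟨x, hx, rfl⟩ hd))
      · exfalso
        apply hw
        rw [Nat.div_eq_of_lt (by omega), cntAt_cons_mem T S m t hx]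
        rw [cnt_cons_mem T hx] at hc
        rw [cntAt_eq_zero T S m t w (p + 1) (fun i hi => phase_ne m t hp (by omega))]
    · by_cases hS : x ∈ S
      · refine ⟨[x], ?_, w, rfl⟩
        refine Language.mem_mul.mpr ⟨[], nil_mem_starOf, [x], ?_, rfl⟩
        exact (Language.mem_add _ _ _).mpr (Or.inl ⟨x, ⟨hS, hx⟩, rfl⟩)
      · rw [cntAt_cons_miss T S m t hx (fun h => hS h.1), cnt_cons_notMem T hx] at hw
        obtain ⟨k, hk, w', rfl⟩ := ih hw
        obtain ⟨e, he, v, hv, rfl⟩ := Language.mem_mul.mp hk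
        exact ⟨x :: (e ++ v),
          Language.mem_mul.mpr ⟨x :: e, cons_mem_starOf ⟨hx, hS⟩ he, v, hv, rfl⟩, w', rfl⟩

theorem H1_hubF [Finite α] (hm : 0 < m) {p : ℕ} (hp : p % m = t) (n r : ℕ) :
    Hk 1 (ofPred fun w => (cntAt T S m t p w + cnt T w / m) % n = r) :=
  hub_H1 (fun w => cntAt T S m t p w + cnt T w / m) (codeC T S m)
    (fun _ hk w => hubF_step T S m t hm hp hk w) (hubF_exists T S m t hm hp) (Hk_codeC T S m 0) n r

/-- at the hub phase -/
theorem H1_cntAt_hub [Finite α] (hm : 0 < m) {p : ℕ} (hp : p % m = t) (n r : ℕ) (hn : 0 < n)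
    (hr : r < n) :
    Hk 1 (ofPred fun w => cntAt T S m t p w % n = r) := by
  have h := Hk.finUnion (k := 1) (Finset.range (m * n))
    (fun κ => ofPred (fun w => cnt T w % (m * n) = κ) ⊓
      ofPred (fun w => (cntAt T S m t p w + cnt T w / m) % n = (r + κ / m) % n))
    (fun κ _ => (H1_cnt_mod T (m * n) κ).inf (H1_hubF T S m t hm hp n _))
  refine h.congr ?_
  intro w
  have key : cnt T w % (m * n) / m = cnt T w / m % n := Nat.mod_mul_right_div_self _ _ _
  constructor
  · intro hw
    have hw' : cntAt T S m t p w % n = r := hw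
    refine ⟨cnt T w % (m * n), Finset.mem_range.mpr (Nat.mod_lt _ (Nat.mul_pos hm hn)), ?_⟩
    refine Language.mem_inf.mpr ⟨rfl, ?_⟩
    show (cntAt T S m t p w + cnt T w / m) % n = (r + cnt T w % (m * n) / m) % n
    rw [key, ← hw', Nat.add_mod]
  · rintro ⟨κ, _, hκ⟩
    obtain ⟨h1, h2⟩ := Language.mem_inf.mp hκ
    have h1' : cnt T w % (m * n) = κ := h1
    have h2' : (cntAt T S m t p w + cnt T w / m) % n = (r + κ / m) % n := h2
    rw [← h1', key] at h2'
    have h3 : cntAt T S m t p w + cnt T w / m ≡ r + cnt T w / m [MOD n] := by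
      show _ % n = _ % n
      rw [h2', Nat.add_mod, Nat.mod_mod, ← Nat.add_mod]
    have h4 : cntAt T S m t p w ≡ r [MOD n] := Nat.ModEq.add_right_cancel' _ h3
    show cntAt T S m t p w % n = r
    rw [h4, Nat.mod_eq_of_lt hr]

/-- moving one toggle forward when the current phase is not the hub phase -/
theorem cntAt_decomp {p : ℕ} (hp : p % m ≠ t) (n r : ℕ) (w : List α) :
    cntAt T S m t p w % n = r ↔
      w ∈ codeD T * ofPred (fun w => cntAt T S m t (p + 1) w % n = r) +
        (ofPred (fun _ => 0 % n = r) ⊓ starOf Tᶜ) := by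
  rw [Language.mem_add]
  constructor
  · intro hw
    by_cases hc : cnt T w = 0
    · right
      refine Language.mem_inf.mpr ⟨?_, starOf_of_cnt T hc⟩
      rw [cntAt_eq_zero T S m t w p (fun i hi => by
        have : i = 0 := by omega
        subst this
        simpa using hp)] at hw
      exact hw
    · left
      obtain ⟨k, hk, w', rfl⟩ := exists_codeD T w hc
      rw [cntAt_codeD T S m t hk hp] at hw
      exact Language.append_mem_mul hk hw
  · rintro (hw | hw)
    · obtain ⟨k, hk, w', hw', rfl⟩ := Language.mem_mul.mp hw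
      rw [cntAt_codeD T S m t hk hp]
      exact hw'
    · obtain ⟨h1, h2⟩ := Language.mem_inf.mp hw
      rw [cntAt_eq_zero T S m t w p (fun i hi => by
        have : i = 0 := by
          have := cnt_starOf T h2
          omega
        subst this
        simpa using hp)]
      exact h1

theorem Hk_const (k : ℕ) (c : Prop) : Hk k (ofPred (fun _ : List α => c)) := by
  by_cases hc : c
  · refine Hk.top.congr ?_
    intro w
    exact ⟨fun _ => trivial, fun _ => hc⟩
  · refine Hk.zero.congr ?_
    intro w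
    exact ⟨fun h => absurd h hc, fun h => absurd h (Language.notMem_zero w)⟩

theorem H1_cntAt_aux [Finite α] (hm : 0 < m) (n r : ℕ) (hn : 0 < n) (hr : r < n) (j : ℕ) :
    ∀ p, (p + j) % m = t → Hk 1 (ofPred fun w => cntAt T S m t p w % n = r) := by
  induction j with
  | zero =>
    intro p hp
    exact H1_cntAt_hub T S m t hm (by simpa using hp) n r hn hr
  | succ j ih =>
    intro p hp
    by_cases hp0 : p % m = t
    · exact H1_cntAt_hub T S m t hm hp0 n r hn hr
    · have h1 := ih (p + 1) (by rw [← hp]; congr 1; omega)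
      have h := ((Hk_codeD T 1).mul h1).add ((Hk_const 1 (0 % n = r)).inf (Hk_starOf 1 Tᶜ))
      exact h.congr (cntAt_decomp T S m t hp0 n r)

/-- **Nested modular counting has generalized star height at most one.** -/
theorem H1_cntAt [Finite α] (ht : t < m) (n r p : ℕ) (hn : 0 < n) :
    Hk 1 (ofPred fun w => cntAt T S m t p w % n = r) := by
  by_cases hr : r < n
  · refine H1_cntAt_aux T S m t (by omega) n r hn hr (t + (m - p % m)) p ?_
    have h1 : p % m < m := Nat.mod_lt _ (by omega)
    have h2 := Nat.div_add_mod p m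
    have h3 : p + (t + (m - p % m)) = t + m * (p / m + 1) := by
      rw [Nat.mul_add]
      omega
    rw [h3, Nat.add_mul_mod_self_left, Nat.mod_eq_of_lt ht]
  · refine Hk.zero.congr ?_
    intro w
    constructor
    · intro hw
      have hw' : cntAt T S m t p w % n = r := hw
      have := Nat.mod_lt (cntAt T S m t p w) hn
      omega
    · intro hw
      exact absurd hw (Language.notMem_zero w)

end Vale.Agent.Lib.P329
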