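import Vale.Agent.Lib.P329.Closure

namespace Vale.Agent.Lib.P329

open Language

section defs

variable {α B : Type} [AddCommGroup B] (v : α → B)

/-- total phase of a word, in an arbitrary commutative group -/
def phG (w : List α) : B := (w.map v).sum

open Classical in
/-- number of occurrences of `x` read at phase zero, starting from phase `θ` -/
noncomputable def cntG (x : α) : B → List α → ℕ
  | _, [] => 0
  | θ, a :: w => (if a = x ∧ θ = 0 then 1 else 0) + cntG x (θ + v a) w

theorem cntG_nil (x : α) (θ : B) : cntG v x θ [] = 0 := by simp [cntG]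

theorem cntG_cons (x : α) (θ : B) (a : α) (w : List α) [Decidable (a = x ∧ θ = 0)] :
    cntG v x θ (a :: w) = (if a = x ∧ θ = 0 then 1 else 0) + cntG v x (θ + v a) w := by
  simp only [cntG]
  congr

theorem phG_nil : phG v ([] : List α) = 0 := rfl

theorem phG_cons (a : α) (w : List α) : phG v (a :: w) = v a + phG v w := by simp [phG]

end defs

section wrap

variable {α G B : Type} [Group G] [AddCommGroup B]

theorem wrap_formula [Fintype α] [Fintype B] {C : Type} [CommGroup C] (ι : C →* G)
    (ν : G → B) (hν : ∀ x y, ν (x * y) = ν x + ν y) (φ : α → G)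
    (s : B → G) (R : B → Prop) (hR : ∀ t a, R t → R (t + ν (φ a)))
    (cK : B → α → C)
    (hcK : ∀ t a, R t → ι (cK t a) = s t * φ a * (s (t + ν (φ a)))⁻¹)
    (w : List α) : ∀ t : B, R t →
    s t * (w.map φ).prod =
      ι (∏ i : B × α, cK i.1 i.2 ^ cntG (fun a => ν (φ a)) i.2 (t - i.1) w) *
        s (t + phG (fun a => ν (φ a)) w) := by
  classical
  induction w with
  | nil =>
    intro t _
    simp [cntG_nil, phG_nil]
  | cons y w ih =>
    intro t ht
    have hprod : (∏ i : B × α, cK i.1 i.2 ^ cntG (fun a => ν (φ a)) i.2 (t - i.1) (y :: w)) =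
        cK t y * ∏ i : B × α, cK i.1 i.2 ^ cntG (fun a => ν (φ a)) i.2 (t + ν (φ y) - i.1) w := by
      have h1 : ∀ i : B × α, cK i.1 i.2 ^ cntG (fun a => ν (φ a)) i.2 (t - i.1) (y :: w) =
          (if i = (t, y) then cK t y else 1) *
            cK i.1 i.2 ^ cntG (fun a => ν (φ a)) i.2 (t + ν (φ y) - i.1) w := by
        intro i
        have e : t - i.1 + ν (φ y) = t + ν (φ y) - i.1 := by abel
        rw [cntG_cons, e]
        by_cases hi : i = (t, y)
        · subst hi
          simp [pow_add]
        · rw [if_neg hi, one_mul, if_neg, zero_add]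
          rintro ⟨h1, h2⟩
          apply hi
          ext
          · exact (sub_eq_zero.mp h2).symm
          · exact h1.symm
      rw [Finset.prod_congr rfl (fun i _ => h1 i), Finset.prod_mul_distrib,
        Finset.prod_ite_eq' Finset.univ]
      simp
    rw [hprod, map_mul, hcK t y ht, List.map_cons, List.prod_cons, phG_cons, ← add_assoc,
      mul_assoc (s t * φ y * (s (t + ν (φ y)))⁻¹), ← ih _ (hR t y ht)]
    group

theorem group_wrap [Finite α] [Finite G] [Finite B]
    (ν : G → B) (hν : ∀ x y, ν (x * y) = ν x + ν y)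
    (hker : ∀ x y, ν x = 0 → ν y = 0 → x * y = y * x) (φ : α → G)
    (hcnt : ∀ (x : α) (θ : B) (n : ℕ) [NeZero n],
      Meas 1 (fun w : List α => (cntG (fun a => ν (φ a)) x θ w : ZMod n)))
    (hph : Meas 1 (fun w : List α => phG (fun a => ν (φ a)) w)) (S : Set G) :
    Hk 1 (ofPred fun w : List α => (w.map φ).prod ∈ S) := by
  classical
  have := Fintype.ofFinite α
  have := Fintype.ofFinite B
  have hν1 : ν 1 = 0 := by
    have := hν 1 1
    rw [mul_one] at this
    exact (add_eq_left.mp this.symm)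
  have hνinv : ∀ x, ν x⁻¹ = - ν x := by
    intro x
    have := hν x x⁻¹
    rw [mul_inv_cancel, hν1] at this
    exact (neg_eq_of_add_eq_zero_right this.symm).symm
  let K : Subgroup G :=
    { carrier := {x | ν x = 0}
      mul_mem' := by
        intro a b ha hb
        show ν (a * b) = 0
        rw [hν, ha, hb, add_zero]
      one_mem' := hν1
      inv_mem' := by
        intro a ha
        show ν a⁻¹ = 0
        rw [hνinv, ha, neg_zero] }
  let _ : CommGroup K :=
    { (inferInstance : Group K) with mul_comm := fun x y => Subtype.ext (hker x y x.2 y.2) }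
  let s : B → G := fun t => if h : ∃ g, ν g = t then Classical.choose h else 1
  have hs : ∀ t, (∃ g, ν g = t) → ν (s t) = t := by
    intro t ht
    simp only [s, dif_pos ht]
    exact Classical.choose_spec ht
  have hR : ∀ t a, (∃ g, ν g = t) → ∃ g, ν g = t + ν (φ a) := by
    rintro t a ⟨g, rfl⟩
    exact ⟨g * φ a, hν _ _⟩
  let cK : B → α → K := fun t a =>
    if h : ν (s t * φ a * (s (t + ν (φ a)))⁻¹) = 0 then ⟨_, h⟩ else 1
  have hcK : ∀ t a, (∃ g, ν g = t) → K.subtype (cK t a) = s t * φ a * (s (t + ν (φ a)))⁻¹ := by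
    intro t a ht
    have h : ν (s t * φ a * (s (t + ν (φ a)))⁻¹) = 0 := by
      rw [hν, hν, hνinv, hs t ht, hs _ (hR t a ht)]
      abel
    simp only [cK, dif_pos h, Subgroup.subtype_apply]
  set n := Nat.card G with hn
  have hnpos : 0 < n := Nat.card_pos
  have : NeZero n := ⟨by omega⟩
  have hpow : ∀ x : K, x ^ n = 1 := by
    intro x
    apply Subtype.ext
    rw [Subgroup.coe_pow]
    exact pow_card_eq_one'
  have formula := fun w => wrap_formula K.subtype ν hν φ s (fun t => ∃ g, ν g = t) hR cK hcK w 0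
    ⟨1, hν1⟩
  have mstat : Meas 1 (fun w : List α => fun i : B × α =>
      (cntG (fun a => ν (φ a)) i.2 (0 - i.1) w : ZMod n)) :=
    Meas.pi (fun i => hcnt i.2 (0 - i.1) n)
  have hfin := (mstat.prod hph).pred (fun x : (B × α → ZMod n) × B =>
    (s 0)⁻¹ * (K.subtype (∏ i : B × α, cK i.1 i.2 ^ (x.1 i).val) * s (0 + x.2)) ∈ S)
  refine hfin.congr ?_
  intro w
  have e : (w.map φ).prod = (s 0)⁻¹ * (K.subtype (∏ i : B × α, cK i.1 i.2 ^
      ((cntG (fun a => ν (φ a)) i.2 (0 - i.1) w : ZMod n)).val) *
        s (0 + phG (fun a => ν (φ a)) w)) := by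
    have h0 := formula w
    have h1 : (∏ i : B × α, cK i.1 i.2 ^ ((cntG (fun a => ν (φ a)) i.2 (0 - i.1) w : ZMod n)).val) =
        ∏ i : B × α, cK i.1 i.2 ^ cntG (fun a => ν (φ a)) i.2 (0 - i.1) w := by
      refine Finset.prod_congr rfl (fun i _ => ?_)
      rw [ZMod.val_natCast]
      exact (pow_eq_pow_mod _ (hpow _)).symm
    rw [h1, ← h0]
    group
  show (w.map φ).prod ∈ S ↔ _ ∈ S
  rw [← e]

end wrap

end Vale.Agent.Lib.P329
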