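import Vale.Agent.Lib.P329.Core
import Vale.Agent.Lib.P329.Wrap

namespace Vale.Agent.Lib.P329

open Language

theorem cntG_eq_cnt0 {p : ℕ} [Fact p.Prime] {α : Type} (v : α → ZMod p) (x : α) (w : List α) :
    ∀ θ, cntG v x θ w = cnt0 v x θ w := by
  classical
  induction w with
  | nil => intro θ; rw [cntG_nil, cnt0_nil]
  | cons a w ih => intro θ; rw [cntG_cons, cnt0_cons, ih]

/-- the version with a homomorphism onto (a subgroup of) `Z/p` -/
theorem main_zmod {p : ℕ} [Fact p.Prime] {α G : Type} [Finite α] [Group G] [Finite G]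
    (ν : G → ZMod p) (hν : ∀ x y, ν (x * y) = ν x + ν y)
    (hker : ∀ x y, ν x = 0 → ν y = 0 → x * y = y * x) (φ : α → G) (S : Set G) :
    Hk 1 (ofPred fun w : List α => (w.map φ).prod ∈ S) := by
  refine group_wrap ν hν hker φ ?_ ?_ S
  · intro x θ n _
    refine (meas_cnt0 (fun a => ν (φ a)) x θ n).congr ?_
    intro w
    rw [cntG_eq_cnt0]
  · exact meas_ph (fun a => ν (φ a))

theorem main_prime_index {α G : Type} [Finite α] [Group G] [Finite G] (A : Subgroup G) [A.Normal]
    (hA : ∀ x ∈ A, ∀ y ∈ A, x * y = y * x) (hp : A.index.Prime) (φ : α → G) (S : Set G) :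
    Hk 1 (ofPred fun w : List α => (w.map φ).prod ∈ S) := by
  have : Fact (Nat.card (G ⧸ A)).Prime := ⟨hp⟩
  have hcyc : IsCyclic (G ⧸ A) := isCyclic_of_prime_card (p := Nat.card (G ⧸ A)) rfl
  let e := zmodCyclicMulEquiv hcyc
  refine main_zmod (p := Nat.card (G ⧸ A))
    (fun g => Multiplicative.toAdd (e.symm (QuotientGroup.mk g))) ?_ ?_ φ S
  · intro x y
    simp only [QuotientGroup.mk_mul, map_mul, toAdd_mul]
  · intro x y hx hy
    have key : ∀ g : G, Multiplicative.toAdd (e.symm (QuotientGroup.mk g)) = 0 → g ∈ A := by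
      intro g hg
      have h1 : e.symm (QuotientGroup.mk g) = 1 := hg
      have h2 : (QuotientGroup.mk g : G ⧸ A) = 1 := by
        have := congrArg e h1
        simpa using this
      exact (QuotientGroup.eq_one_iff g).mp h2
    exact hA x (key x hx) y (key y hy)

end Vale.Agent.Lib.P329
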