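import Vale.Agent.Lib.P329.Sig

namespace Vale.Agent.Lib.P329

open Language

/-- words over the sub-alphabet `B` whose image in the monoid is `q` -/
def Lq {A M : Type} [Monoid M] (φ : A → M) (B : Set A) (q : M) : Language A :=
  ofPred fun w => (∀ x ∈ w, x ∈ B) ∧ (w.map φ).prod = q

section pull

variable {A M : Type} [Monoid M] (φ : A → M) (cl : A) (B : Set A)

/-- inverse image of a language over the alphabet `M` under the block map `sig` -/
def Pull (X : Language M) : Language A :=
  ofPred fun w => (∀ x ∈ w, x ∈ B) ∧ EndsC cl w ∧ sig φ cl 1 w ∈ X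

theorem Hk_Dom [Finite A] : Hk 0 (ofPred fun w : List A => (∀ x ∈ w, x ∈ B) ∧ EndsC cl w) := by
  have h := (Hk_starOf 0 B).inf (Hk.one.add (Hk.top.mul (Hk.letter (k := 0) cl)))
  refine h.congr ?_
  intro w
  constructor
  · rintro ⟨h1, h2⟩
    refine Language.mem_inf.mpr ⟨h1, (Language.mem_add _ _ _).mpr ?_⟩
    rcases h2 with rfl | ⟨v, rfl⟩
    · exact Or.inl rfl
    · exact Or.inr (Language.append_mem_mul trivial rfl)
  · intro hw
    obtain ⟨h1, h2⟩ := Language.mem_inf.mp hw
    refine ⟨h1, ?_⟩
    rcases (Language.mem_add _ _ _).mp h2 with h2 | h2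
    · exact Or.inl h2
    · obtain ⟨v, _, y, hy, rfl⟩ := Language.mem_mul.mp h2
      have : y = [cl] := hy
      subst this
      exact Or.inr ⟨v, rfl⟩

theorem pull_SF [Finite A] (hcl : cl ∈ B) (hL : ∀ q, Hk 0 (Lq φ (B \ {cl}) q)) (P : GRE M) :
    P.sh = 0 → Hk 0 (Pull φ cl B P.lang) := by
  induction P with
  | zero =>
    intro _
    refine Hk.zero.congr ?_
    intro w
    constructor
    · rintro ⟨_, _, h⟩
      exact absurd h (Language.notMem_zero _)
    · intro h
      exact absurd h (Language.notMem_zero _)
  | one =>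
    intro _
    refine Hk.one.congr ?_
    intro w
    constructor
    · rintro ⟨_, h2, h3⟩
      exact eq_nil_of_sig φ cl h2 h3
    · intro h
      have : w = [] := h
      subst this
      exact ⟨by simp, EndsC_nil cl, by rw [sig_nil]; rfl⟩
  | letter t =>
    intro _
    refine ((hL t).mul (Hk.letter cl)).congr ?_
    intro w
    constructor
    · rintro ⟨h1, h2, h3⟩
      have h3' : sig φ cl 1 w = [t] := h3
      obtain ⟨u, w', rfl, hu, e1, e2⟩ := sig_cons_inv φ cl w _ _ _ h3'
      have hw' : EndsC cl w' := by
        have : EndsC cl ((u ++ [cl]) ++ w') := by simpa using h2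
        exact EndsC_of_append cl this
      have := eq_nil_of_sig φ cl hw' e2
      subst this
      refine Language.append_mem_mul ⟨?_, by simpa using e1⟩ rfl
      intro x hx
      refine ⟨h1 x (by simp [hx]), ?_⟩
      intro hc
      have : x = cl := hc
      subst this
      exact hu hx
    · intro hw
      obtain ⟨u, ⟨hu1, hu2⟩, y, hy, rfl⟩ := Language.mem_mul.mp hw
      have : y = [cl] := hy
      subst this
      refine ⟨?_, Or.inr ⟨u, rfl⟩, ?_⟩
      · intro x hx
        rcases List.mem_append.mp hx with hx | hx
        · exact (hu1 x hx).1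
        · have : x = cl := by simpa using hx
          subst this
          exact hcl
      · have hu : cl ∉ u := fun h => (hu1 cl h).2 rfl
        rw [sig_block φ cl u 1 hu, sig_nil, one_mul, hu2]
        rfl
  | union P Q ihP ihQ =>
    intro h
    have h' : max P.sh Q.sh = 0 := h
    have hP : P.sh = 0 := by omega
    have hQ : Q.sh = 0 := by omega
    refine ((ihP hP).add (ihQ hQ)).congr ?_
    intro w
    rw [Language.mem_add]
    constructor
    · rintro ⟨h1, h2, h3⟩
      rcases (Language.mem_add _ _ _).mp h3 with h3 | h3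
      · exact Or.inl ⟨h1, h2, h3⟩
      · exact Or.inr ⟨h1, h2, h3⟩
    · rintro (⟨h1, h2, h3⟩ | ⟨h1, h2, h3⟩)
      · exact ⟨h1, h2, (Language.mem_add _ _ _).mpr (Or.inl h3)⟩
      · exact ⟨h1, h2, (Language.mem_add _ _ _).mpr (Or.inr h3)⟩
  | cat P Q ihP ihQ =>
    intro h
    have h' : max P.sh Q.sh = 0 := h
    have hP : P.sh = 0 := by omega
    have hQ : Q.sh = 0 := by omega
    refine ((ihP hP).mul (ihQ hQ)).congr ?_
    intro w
    constructor
    · rintro ⟨h1, h2, h3⟩
      obtain ⟨τ1, hτ1, τ2, hτ2, e⟩ := Language.mem_mul.mp h3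
      obtain ⟨w1, w2, rfl, e1, e2, s1, s2⟩ := sig_split φ cl τ1 w τ2 h2 e.symm
      refine Language.append_mem_mul ⟨fun x hx => h1 x (by simp [hx]), e1, ?_⟩
        ⟨fun x hx => h1 x (by simp [hx]), e2, ?_⟩
      · rw [s1]; exact hτ1
      · rw [s2]; exact hτ2
    · intro hw
      obtain ⟨w1, ⟨a1, a2, a3⟩, w2, ⟨b1, b2, b3⟩, rfl⟩ := Language.mem_mul.mp hw
      refine ⟨?_, EndsC_append cl a2 b2, ?_⟩
      · intro x hx
        rcases List.mem_append.mp hx with hx | hx
        · exact a1 x hx
        · exact b1 x hx
      · rw [sig_append φ cl a2]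
        exact Language.append_mem_mul a3 b3
  | neg P ih =>
    intro h
    have hP : P.sh = 0 := h
    refine ((Hk_Dom cl B).inf (ih hP).compl).congr ?_
    intro w
    constructor
    · rintro ⟨h1, h2, h3⟩
      exact Language.mem_inf.mpr ⟨⟨h1, h2⟩, fun hc => h3 hc.2.2⟩
    · intro hw
      obtain ⟨⟨h1, h2⟩, h3⟩ := Language.mem_inf.mp hw
      exact ⟨h1, h2, fun hc => h3 ⟨h1, h2, hc⟩⟩
  | star P _ =>
    intro h
    have h' : P.sh + 1 = 0 := h
    omega

end pull

theorem split_last {A : Type} (cl : A) (w : List A) :
    ∃ v s, w = v ++ s ∧ cl ∉ s ∧ EndsC cl v := by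
  classical
  induction w with
  | nil => exact ⟨[], [], rfl, by simp, EndsC_nil cl⟩
  | cons x w ih =>
    obtain ⟨v, s, rfl, hs, hv⟩ := ih
    rcases hv with rfl | ⟨v0, rfl⟩
    · by_cases hx : x = cl
      · subst hx
        exact ⟨[x], s, rfl, hs, Or.inr ⟨[], rfl⟩⟩
      · refine ⟨[], x :: s, rfl, ?_, EndsC_nil cl⟩
        intro hc
        rcases List.mem_cons.mp hc with hc | hc
        · exact hx hc.symm
        · exact hs hc
    · exact ⟨x :: (v0 ++ [cl]), s, rfl, hs, Or.inr ⟨x :: v0, rfl⟩⟩

theorem Lq_trivial {A M : Type} [Monoid M] [Finite A] (φ : A → M) (B : Set A)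
    (h : ∀ b ∈ B, φ b = 1) (p : M) : Hk 0 (Lq φ B p) := by
  have key : ∀ w : List A, (∀ x ∈ w, x ∈ B) → (w.map φ).prod = 1 := by
    intro w
    induction w with
    | nil => intro _; rfl
    | cons x w ih =>
      intro hw
      rw [List.map_cons, List.prod_cons, h x (hw x (by simp)), one_mul]
      exact ih (fun y hy => hw y (by simp [hy]))
  by_cases hp : p = 1
  · refine (Hk_starOf 0 B).congr ?_
    intro w
    exact ⟨fun hw => hw.1, fun hw => ⟨hw, by rw [hp]; exact key w hw⟩⟩
  · refine Hk.zero.congr ?_
    intro w
    constructor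
    · rintro ⟨h1, h2⟩
      exact absurd ((key w h1).symm.trans h2).symm hp
    · intro hw
      exact absurd hw (Language.notMem_zero _)

theorem schutz_aux (N : ℕ) : ∀ (M : Type) [Monoid M] [Finite M], Nat.card M ≤ N →
    (∀ x : M, ∃ n : ℕ, x ^ (n + 1) = x ^ n) →
    ∀ (A : Type) [Finite A] (φ : A → M) (j : ℕ) (B : Set A), B.ncard ≤ j →
      ∀ p : M, Hk 0 (Lq φ B p) := by
  induction N with
  | zero =>
    intro M _ _ hcard
    have : 0 < Nat.card M := Finite.card_pos
    omega
  | succ N ihN =>
    intro M _ _ hcard hap A _ φ j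
    induction j with
    | zero =>
      intro B hB p
      have hB' : B = ∅ := (Set.ncard_eq_zero (Set.toFinite B)).mp (by omega)
      subst hB'
      exact Lq_trivial φ ∅ (fun b hb => absurd hb (by simp)) p
    | succ j ihj =>
      intro B hB p
      by_cases htriv : ∀ b ∈ B, φ b = 1
      · exact Lq_trivial φ B htriv p
      · classical
        push Not at htriv
        obtain ⟨cl, hcl, hc⟩ := htriv
        have hB' : (B \ {cl}).ncard ≤ j := by
          rw [Set.ncard_sdiff_singleton_of_mem hcl]
          omega
        have hL : ∀ q, Hk 0 (Lq φ (B \ {cl}) q) := ihj (B \ {cl}) hB'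
        have hLD : ∀ r : LD (φ cl), Hk 0 (Lq (LD.sandwich (φ cl)) Set.univ r) := by
          intro r
          have hlt := LD.card_lt hap hc
          exact ihN (LD (φ cl)) (by omega) (LD.aperiodic hap) M (LD.sandwich (φ cl)) _ Set.univ
            le_rfl r
        have hMid : ∀ r : LD (φ cl), Hk 0 (({[cl]} : Language A) *
            Pull φ cl B (Lq (LD.sandwich (φ cl)) Set.univ r)) := by
          intro r
          obtain ⟨P, hP, hPl⟩ := hLD r
          have := pull_SF φ cl B hcl hL P (by omega)
          rw [hPl] at this
          exact (Hk.letter cl).mul this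
        have := Fintype.ofFinite M
        have := Fintype.ofFinite (LD (φ cl))
        have hU := Hk.finUnion (k := 0)
          ((Finset.univ : Finset (M × LD (φ cl) × M)).filter
            (fun x => x.1 * x.2.1.val * x.2.2 = p))
          (fun x => Lq φ (B \ {cl}) x.1 * (({[cl]} : Language A) *
            Pull φ cl B (Lq (LD.sandwich (φ cl)) Set.univ x.2.1)) * Lq φ (B \ {cl}) x.2.2)
          (fun x _ => ((hL x.1).mul (hMid x.2.1)).mul (hL x.2.2))
        refine ((hL p).add hU).congr ?_
        intro w
        rw [Language.mem_add]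
        constructor
        · rintro ⟨h1, h2⟩
          by_cases hw : cl ∈ w
          · right
            obtain ⟨u, w1, rfl, hu⟩ := List.eq_append_cons_of_mem hw
            obtain ⟨v, s, rfl, hs, hv⟩ := split_last cl w1
            have hval := sig_value φ cl _ v hv rfl
            refine ⟨((u.map φ).prod, ((sig φ cl 1 v).map (LD.sandwich (φ cl))).prod,
              (s.map φ).prod), ?_, ?_⟩
            · simp only [Finset.mem_filter, Finset.mem_univ, true_and]
              rw [← hval, ← h2]
              simp [mul_assoc]
            · have e : u ++ cl :: (v ++ s) = u ++ ([cl] ++ v) ++ s := by simp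
              rw [e]
              refine Language.append_mem_mul (Language.append_mem_mul ⟨?_, rfl⟩
                (Language.append_mem_mul rfl ⟨?_, hv, ⟨by simp, rfl⟩⟩)) ⟨?_, rfl⟩
              · intro x hx
                refine ⟨h1 x (by simp [hx]), ?_⟩
                intro hc'
                have : x = cl := hc'
                subst this
                exact hu hx
              · intro x hx
                exact h1 x (by simp [hx])
              · intro x hx
                refine ⟨h1 x (by simp [hx]), ?_⟩
                intro hc'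
                have : x = cl := hc'
                subst this
                exact hs hx
          · left
            refine ⟨?_, h2⟩
            intro x hx
            refine ⟨h1 x hx, ?_⟩
            intro hc'
            have : x = cl := hc'
            subst this
            exact hw hx
        · rintro (⟨h1, h2⟩ | ⟨x, hx, hw⟩)
          · exact ⟨fun y hy => (h1 y hy).1, h2⟩
          · simp only [Finset.mem_filter, Finset.mem_univ, true_and] at hx
            obtain ⟨w12, hw12, s, ⟨hs1, hs2⟩, rfl⟩ := Language.mem_mul.mp hw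
            obtain ⟨u, ⟨hu1, hu2⟩, w2, hw2, rfl⟩ := Language.mem_mul.mp hw12
            obtain ⟨y, hy, v, ⟨hv1, hv2, hv3⟩, rfl⟩ := Language.mem_mul.mp hw2
            have : y = [cl] := hy
            subst this
            have hval := sig_value φ cl _ v hv2 rfl
            have hv3' : ((sig φ cl 1 v).map (LD.sandwich (φ cl))).prod = x.2.1 := hv3.2
            rw [hv3'] at hval
            refine ⟨?_, ?_⟩
            · intro z hz
              simp only [List.mem_append, List.mem_singleton] at hz
              rcases hz with (hz | hz | hz) | hz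
              · exact (hu1 z hz).1
              · rw [hz]; exact hcl
              · exact hv1 z hz
              · exact (hs1 z hz).1
            · rw [← hx, ← hval, ← hu2, ← hs2]
              simp [mul_assoc]

/-- **Schutzenberger's theorem** (the direction aperiodic implies star-free). -/
theorem schutz {M : Type} [Monoid M] [Finite M] (hap : ∀ x : M, ∃ n : ℕ, x ^ (n + 1) = x ^ n)
    {A : Type} [Finite A] (φ : A → M) (p : M) :
    Hk 0 (ofPred fun w : List A => (w.map φ).prod = p) := by
  refine (schutz_aux (Nat.card M) M le_rfl hap A φ _ Set.univ le_rfl p).congr ?_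
  intro w
  exact ⟨fun h => ⟨by simp, h⟩, fun h => h.2⟩

end Vale.Agent.Lib.P329
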