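import Vale.Agent.Lib.P329.Basic
import Vale.Agent.Lib.P329.LocalDivisor

namespace Vale.Agent.Lib.P329

open Language

section sig

variable {A M : Type} [Monoid M] (φ : A → M) (cl : A)

open Classical in
/-- cut a word at the occurrences of `cl` and output the values of the blocks in between -/
noncomputable def sig : M → List A → List M
  | _, [] => []
  | acc, x :: w => if x = cl then acc :: sig 1 w else sig (acc * φ x) w

theorem sig_nil (acc : M) : sig φ cl acc [] = [] := by simp [sig]

theorem sig_cons_eq (acc : M) (w : List A) : sig φ cl acc (cl :: w) = acc :: sig φ cl 1 w := by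
  simp [sig]

theorem sig_cons_ne (acc : M) {x : A} (hx : x ≠ cl) (w : List A) :
    sig φ cl acc (x :: w) = sig φ cl (acc * φ x) w := by
  simp [sig, hx]

theorem sig_block (u : List A) : ∀ (acc : M), cl ∉ u → ∀ w,
    sig φ cl acc (u ++ cl :: w) = (acc * (u.map φ).prod) :: sig φ cl 1 w := by
  induction u with
  | nil => intro acc _ w; simp [sig_cons_eq]
  | cons x u ih =>
    intro acc hu w
    have hx : x ≠ cl := fun h => hu (by simp [h])
    have hu' : cl ∉ u := fun h => hu (by simp [h])
    rw [List.cons_append, sig_cons_ne φ cl acc hx, ih _ hu', List.map_cons, List.prod_cons, mul_assoc]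

theorem sig_cons_inv (w : List A) : ∀ (acc t : M) (τ : List M), sig φ cl acc w = t :: τ →
    ∃ u w', w = u ++ cl :: w' ∧ cl ∉ u ∧ acc * (u.map φ).prod = t ∧ sig φ cl 1 w' = τ := by
  induction w with
  | nil => intro acc t τ h; rw [sig_nil] at h; exact absurd h (by simp)
  | cons x w ih =>
    intro acc t τ h
    by_cases hx : x = cl
    · subst hx
      rw [sig_cons_eq] at h
      injection h with h1 h2
      exact ⟨[], w, rfl, by simp, by simpa using h1, h2⟩
    · rw [sig_cons_ne φ cl acc hx] at h
      obtain ⟨u, w', rfl, hu, h1, h2⟩ := ih _ _ _ h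
      refine ⟨x :: u, w', rfl, ?_, ?_, h2⟩
      · intro hc
        rcases List.mem_cons.mp hc with hc | hc
        · exact hx hc.symm
        · exact hu hc
      · rw [List.map_cons, List.prod_cons, ← mul_assoc]
        exact h1

/-- the word is empty or ends with `cl` -/
def EndsC (w : List A) : Prop := w = [] ∨ ∃ v, w = v ++ [cl]

theorem EndsC_nil : EndsC cl ([] : List A) := Or.inl rfl

theorem EndsC_of_append {x y : List A} (h : EndsC cl (x ++ y)) : EndsC cl y := by
  rcases List.eq_nil_or_concat' y with rfl | ⟨y0, b, rfl⟩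
  · exact Or.inl rfl
  · rcases h with h | ⟨v, hv⟩
    · simp at h
    · right
      rw [← List.append_assoc] at hv
      have := List.append_inj' hv rfl
      refine ⟨y0, ?_⟩
      rw [this.2]

theorem EndsC_append {x y : List A} (hx : EndsC cl x) (hy : EndsC cl y) : EndsC cl (x ++ y) := by
  rcases hy with rfl | ⟨v, rfl⟩
  · simpa using hx
  · exact Or.inr ⟨x ++ v, by simp⟩

theorem EndsC_block (u : List A) {w : List A} (hw : EndsC cl w) : EndsC cl (u ++ cl :: w) := by
  rcases hw with rfl | ⟨v, rfl⟩
  · exact Or.inr ⟨u, rfl⟩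
  · exact Or.inr ⟨u ++ cl :: v, by simp⟩

theorem sig_concat_append (v : List A) : ∀ (acc : M) (w2 : List A),
    sig φ cl acc (v ++ [cl] ++ w2) = sig φ cl acc (v ++ [cl]) ++ sig φ cl 1 w2 := by
  induction v with
  | nil => intro acc w2; simp [sig_cons_eq, sig_nil]
  | cons x v ih =>
    intro acc w2
    by_cases hx : x = cl
    · subst hx
      simp only [List.cons_append, sig_cons_eq]
      rw [ih 1 w2]
    · simp only [List.cons_append, sig_cons_ne φ cl acc hx]
      exact ih _ w2

theorem sig_append {w1 : List A} (h1 : EndsC cl w1) (w2 : List A) :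
    sig φ cl 1 (w1 ++ w2) = sig φ cl 1 w1 ++ sig φ cl 1 w2 := by
  rcases h1 with rfl | ⟨v, rfl⟩
  · simp [sig_nil]
  · exact sig_concat_append φ cl v 1 w2

theorem sig_concat_ne_nil (v : List A) : ∀ (acc : M), sig φ cl acc (v ++ [cl]) ≠ [] := by
  induction v with
  | nil => intro acc; simp [sig_cons_eq]
  | cons x v ih =>
    intro acc
    by_cases hx : x = cl
    · subst hx
      simp [sig_cons_eq]
    · rw [List.cons_append, sig_cons_ne φ cl acc hx]
      exact ih _

theorem eq_nil_of_sig {w : List A} (h : EndsC cl w) (hs : sig φ cl 1 w = []) : w = [] := by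
  rcases h with rfl | ⟨v, rfl⟩
  · rfl
  · exact absurd hs (sig_concat_ne_nil φ cl v 1)

theorem sig_split (τ1 : List M) : ∀ (w : List A) (τ2 : List M), EndsC cl w →
    sig φ cl 1 w = τ1 ++ τ2 →
    ∃ w1 w2, w = w1 ++ w2 ∧ EndsC cl w1 ∧ EndsC cl w2 ∧ sig φ cl 1 w1 = τ1 ∧ sig φ cl 1 w2 = τ2 := by
  induction τ1 with
  | nil =>
    intro w τ2 hw h
    exact ⟨[], w, rfl, EndsC_nil cl, hw, sig_nil φ cl 1, by simpa using h⟩
  | cons t τ1 ih =>
    intro w τ2 hw h
    rw [List.cons_append] at h
    obtain ⟨u, w', rfl, hu, h1, h2⟩ := sig_cons_inv φ cl w _ _ _ h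
    have hw' : EndsC cl w' := by
      have : EndsC cl ((u ++ [cl]) ++ w') := by simpa using hw
      exact EndsC_of_append cl this
    obtain ⟨w1, w2, rfl, e1, e2, s1, s2⟩ := ih w' τ2 hw' h2
    refine ⟨u ++ cl :: w1, w2, by simp, EndsC_block cl u e1, e2, ?_, s2⟩
    rw [sig_block φ cl u 1 hu, h1, s1]

theorem sig_value (τ : List M) : ∀ (w : List A), EndsC cl w → sig φ cl 1 w = τ →
    φ cl * (w.map φ).prod = ((τ.map (LD.sandwich (φ cl))).prod).val := by
  induction τ with
  | nil =>
    intro w hw h
    rw [eq_nil_of_sig φ cl hw h]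
    simp [LD.val_one]
  | cons t τ ih =>
    intro w hw h
    obtain ⟨u, w', rfl, hu, h1, h2⟩ := sig_cons_inv φ cl w _ _ _ h
    have hw' : EndsC cl w' := by
      have : EndsC cl ((u ++ [cl]) ++ w') := by simpa using hw
      exact EndsC_of_append cl this
    rw [List.map_cons, List.prod_cons, LD.val_sandwich_mul, ← ih w' hw' h2, ← h1]
    simp [mul_assoc]

end sig

end Vale.Agent.Lib.P329
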