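import Vale.Agent.Lib.P329.MeasPsum

namespace Vale.Agent.Lib.P329

open Language

section sc

variable {α : Type} [DecidableEq α]

/-- the number of occurrences of `u` as a scattered subword of `w` -/
def sc (u w : List α) : ℕ := w.sublists.count u

theorem sc_eq (u w : List α) : sc u w = w.sublists'.count u :=
  (List.sublists_perm_sublists' w).count_eq u

theorem sc_nil_left (w : List α) : sc [] w = 1 := by
  induction w with
  | nil => simp [sc]
  | cons x w ih =>
    rw [sc_eq] at ih ⊢
    rw [List.sublists'_cons, List.count_append, ih, List.count_eq_zero_of_not_mem]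
    simp

theorem sc_cons_nil (y : α) (u : List α) : sc (y :: u) [] = 0 := by
  simp [sc]

theorem sc_cons_cons (y : α) (u : List α) (x : α) (w : List α) :
    sc (y :: u) (x :: w) = sc (y :: u) w + if x = y then sc u w else 0 := by
  rw [sc_eq, sc_eq, sc_eq, List.sublists'_cons, List.count_append]
  congr 1
  by_cases h : x = y
  · subst h
    rw [if_pos rfl]
    exact List.count_map_of_injective _ _ (List.cons_injective) _
  · rw [if_neg h, List.count_eq_zero_of_not_mem]
    intro hm
    obtain ⟨v, _, hv⟩ := List.mem_map.mp hm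
    exact h (List.cons.inj hv).1

theorem psum_one_eq (a : α) (w : List α) : ∀ θ : α → ℕ, psum a (fun _ => 1) θ w = sc [a] w := by
  induction w with
  | nil => intro θ; rw [psum_nil, sc_cons_nil]
  | cons x w ih =>
    intro θ
    rw [psum_cons, ih, sc_cons_cons, sc_nil_left, add_comm]

theorem ite_ind (p : Prop) [Decidable p] : ∃ e : ℕ, ∀ Y : ℕ, (if p then Y else 0) = e * Y := by
  by_cases h : p
  · exact ⟨1, fun Y => by simp [h]⟩
  · exact ⟨0, fun Y => by simp [h]⟩

theorem bump_apply (θ : α → ℕ) (x a : α) : bump θ x a = θ a + if x = a then 1 else 0 := by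
  by_cases h : x = a
  · subst h; rw [bump_self, if_pos rfl]
  · rw [bump_ne θ (Ne.symm h), if_neg h, add_zero]

theorem psum_lin_eq (a b : α) (w : List α) : ∀ θ : α → ℕ,
    psum b (fun θ => θ a) θ w = θ a * sc [b] w + sc [a, b] w := by
  induction w with
  | nil => intro θ; rw [psum_nil, sc_cons_nil, sc_cons_nil]; simp
  | cons x w ih =>
    intro θ
    rw [psum_cons, ih, sc_cons_cons, sc_cons_cons, sc_nil_left, bump_apply]
    obtain ⟨ea, hea⟩ := ite_ind (x = a)
    obtain ⟨eb, heb⟩ := ite_ind (x = b)
    simp only [hea, heb]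
    ring

theorem ite_ind3 (x b c : α) : ∃ eb ec d : ℕ, (∀ Y : ℕ, (if x = b then Y else 0) = eb * Y) ∧
    (∀ Y : ℕ, (if x = c then Y else 0) = ec * Y) ∧ (∀ Y : ℕ, (if b = c then Y else 0) = d * Y) ∧
    eb * ec = eb * d := by
  by_cases h1 : x = b
  · by_cases h2 : b = c
    · exact ⟨1, 1, 1, fun Y => by simp [h1], fun Y => by simp [h1, h2], fun Y => by simp [h2], rfl⟩
    · have h3 : ¬ x = c := fun e => h2 (h1.symm.trans e)
      exact ⟨1, 0, 0, fun Y => by simp [h1], fun Y => by simp [h3], fun Y => by simp [h2], rfl⟩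
  · obtain ⟨ec, hec⟩ := ite_ind (x = c)
    obtain ⟨d, hd⟩ := ite_ind (b = c)
    exact ⟨0, ec, d, fun Y => by simp [h1], hec, hd, by simp⟩

theorem psum_mul_eq (a b c : α) (w : List α) : ∀ θ : α → ℕ,
    (θ c + sc [c] w) * psum b (fun θ => θ a) θ w =
      psum b (fun θ => θ a * θ c) θ w + (if b = c then psum b (fun θ => θ a) θ w else 0) +
        θ a * sc [b, c] w + sc [a, b, c] w := by
  induction w with
  | nil => intro θ; simp [psum_nil, sc_cons_nil]
  | cons x w ih =>
    intro θ
    have ih' := ih (bump θ x)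
    rw [psum_cons, psum_cons, sc_cons_cons, sc_cons_cons, sc_cons_cons, sc_nil_left]
    rw [bump_apply θ x c, bump_apply θ x a] at ih'
    obtain ⟨ea, hea⟩ := ite_ind (x = a)
    obtain ⟨eb, ec, d, heb, hec, hd, hrel⟩ := ite_ind3 x b c
    simp only [hea, heb, hec, hd] at ih' ⊢
    generalize psum b (fun θ => θ a) (bump θ x) w = A at ih' ⊢
    generalize psum b (fun θ => θ a * θ c) (bump θ x) w = B at ih' ⊢
    calc (θ c + (sc [c] w + ec * 1)) * (eb * θ a + A)
        = eb * θ a * θ c + eb * θ a * sc [c] w + θ a * (eb * ec) + (θ c + ec * 1 + sc [c] w) * A := by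
          ring
      _ = _ := by rw [ih', hrel]; ring

end sc

section meas

variable {α : Type} [DecidableEq α] [Finite α]

/-- **Counting scattered subwords of length at most three modulo `n`.** -/
theorem meas_sc (u : List α) (hu : u.length ≤ 3) (n : ℕ) [NeZero n] :
    Meas 1 (fun w : List α => (sc u w : ZMod n)) := by
  match u, hu with
  | [], _ =>
    refine (Meas.const 1 (1 : ZMod n)).congr ?_
    intro w
    rw [sc_nil_left, Nat.cast_one]
  | [a], _ =>
    refine (meas_psum a Mono.one n).congr ?_
    intro w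
    rw [← psum_one_eq a w (fun _ => 0)]
    rfl
  | [a, b], _ =>
    refine (meas_psum b (Mono.lin a) n).congr ?_
    intro w
    have := psum_lin_eq a b w (fun _ => 0)
    rw [zero_mul, zero_add] at this
    rw [← this]
    rfl
  | [a, b, c], _ =>
    have m1 := meas_psum c Mono.one n
    have m2 := meas_psum b (Mono.lin a) n
    have m3 := meas_psum b (Mono.mul a c) n
    refine ((m1.prod (m2.prod m3)).comp (fun x : ZMod n × ZMod n × ZMod n =>
      x.1 * x.2.1 - x.2.2 - (if b = c then x.2.1 else 0))).congr ?_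
    intro w
    have h := psum_mul_eq a b c w (fun _ => 0)
    rw [zero_mul, zero_add, add_zero, ← psum_one_eq c w (fun _ => 0)] at h
    have h' := congrArg (fun k : ℕ => (k : ZMod n)) h
    simp only [Nat.cast_add, Nat.cast_mul] at h'
    show (sc [a, b, c] w : ZMod n) =
      (psum c (fun _ => 1) (fun _ => 0) w : ZMod n) * (psum b (fun θ => θ a) (fun _ => 0) w : ZMod n) -
        (psum b (fun θ => θ a * θ c) (fun _ => 0) w : ZMod n) -
        (if b = c then (psum b (fun θ => θ a) (fun _ => 0) w : ZMod n) else 0)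
    rw [h']
    by_cases hbc : b = c
    · simp only [if_pos hbc]; ring
    · simp only [if_neg hbc, Nat.cast_zero]; ring
  | _ :: _ :: _ :: _ :: _, h => exact absurd h (by simp)

end meas

end Vale.Agent.Lib.P329
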