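import Vale.Agent.Lib.P329.Inst
import Vale.Agent.Lib.P329.Closure

namespace Vale.Agent.Lib.P329

open Language

section anystart

variable {Q Γ : Type} (δ : Q → Γ → Q) (h : Q)

/-- a run that enters the hub can be cut at its first entrance -/
theorem first_entry (w : List Γ) : ∀ q, visits δ h q w ≠ 0 →
    ∃ u a v, w = u ++ a :: v ∧ visits δ h q u = 0 ∧ δ (run δ q u) a = h := by
  classical
  induction w with
  | nil => intro q hq; exact absurd (visits_nil δ h q) hq
  | cons b w ih =>
    intro q hq
    by_cases hb : δ q b = h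
    · exact ⟨[], b, w, rfl, visits_nil δ h q, hb⟩
    · rw [visits_cons, if_neg hb, zero_add] at hq
      obtain ⟨u, a, v, rfl, hu, ha⟩ := ih _ hq
      refine ⟨b :: u, a, v, rfl, ?_, ?_⟩
      · rw [visits_cons, if_neg hb, zero_add]
        exact hu
      · rw [run_cons]
        exact ha

theorem run_cut {q : Q} {u v : List Γ} {a : Γ} (ha : δ (run δ q u) a = h) :
    run δ q (u ++ a :: v) = run δ h v := by
  rw [run_append, run_cons, ha]

theorem visits_cut {q : Q} {u v : List Γ} {a : Γ} (hu : visits δ h q u = 0)
    (ha : δ (run δ q u) a = h) :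
    visits δ h q (u ++ a :: v) = visits δ h h v + 1 := by
  classical
  rw [visits_append, visits_cons, if_pos ha, hu, ha]
  omega

/-- languages of the form: reach the hub for the first time, then continue in `L` -/
theorem Hk_enter [Finite Q] [Finite Γ] (hcf : CF (absorb δ h)) (q : Q) {L : Language Γ}
    (hL : Hk 1 L) :
    Hk 1 (ofPred fun w : List Γ => ∃ u a v, w = u ++ a :: v ∧ visits δ h q u = 0 ∧
      δ (run δ q u) a = h ∧ v ∈ L) := by
  classical
  have := Fintype.ofFinite Q
  have := Fintype.ofFinite Γ
  have h1 := Hk.finUnion (k := 1)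
    ((Finset.univ : Finset (Q × Γ)).filter (fun x => δ x.1 x.2 = h))
    (fun x => Av δ h q x.1 * {[x.2]} * L)
    (fun x _ => (((Av_SF δ h hcf q x.1).mono (Nat.zero_le 1)).mul (Hk.letter x.2)).mul hL)
  refine h1.congr ?_
  intro w
  constructor
  · rintro ⟨u, a, v, rfl, hu, ha, hv⟩
    refine ⟨(run δ q u, a), by simpa using ha, ?_⟩
    have e : u ++ a :: v = (u ++ [a]) ++ v := by simp
    rw [e]
    exact Language.append_mem_mul (Language.append_mem_mul ⟨hu, rfl⟩ rfl) hv
  · rintro ⟨x, hx, hw⟩
    simp only [Finset.mem_filter, Finset.mem_univ, true_and] at hx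
    obtain ⟨y, hy, v, hv, rfl⟩ := Language.mem_mul.mp hw
    obtain ⟨u, hu, s, hs, rfl⟩ := Language.mem_mul.mp hy
    have hs' : s = [x.2] := hs
    subst hs'
    refine ⟨u, x.2, v, by simp, hu.1, ?_, hv⟩
    rw [hu.2]
    exact hx

/-- the final state of the run from an arbitrary state -/
theorem run_H1 [Finite Q] [Finite Γ] (hcf : CF (absorb δ h)) (q q' : Q) :
    Hk 1 (ofPred fun w : List Γ => run δ q w = q') := by
  have h1 := ((Av_SF δ h hcf q q').mono (Nat.zero_le 1)).add
    (Hk_enter δ h hcf q (final_H1 δ h hcf q'))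
  refine h1.congr ?_
  intro w
  rw [Language.mem_add]
  constructor
  · intro hw
    have hw' : run δ q w = q' := hw
    by_cases h0 : visits δ h q w = 0
    · exact Or.inl ⟨h0, hw'⟩
    · obtain ⟨u, a, v, rfl, hu, ha⟩ := first_entry δ h w q h0
      refine Or.inr ⟨u, a, v, rfl, hu, ha, ?_⟩
      rw [run_cut δ h ha] at hw'
      exact hw'
  · rintro (hw | ⟨u, a, v, rfl, _, ha, hv⟩)
    · exact hw.2
    · show run δ q (u ++ a :: v) = q'
      rw [run_cut δ h ha]
      exact hv

/-- the run from `q` never enters the hub -/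
theorem novisit_H1 [Finite Q] [Finite Γ] (hcf : CF (absorb δ h)) (q : Q) :
    Hk 1 (ofPred fun w : List Γ => visits δ h q w = 0) := by
  classical
  have := Fintype.ofFinite Q
  have h1 := Hk.finUnion (k := 1) (Finset.univ : Finset Q) (fun q' => Av δ h q q')
    (fun q' _ => (Av_SF δ h hcf q q').mono (Nat.zero_le 1))
  refine h1.congr ?_
  intro w
  constructor
  · intro hw
    exact ⟨run δ q w, Finset.mem_univ _, hw, rfl⟩
  · rintro ⟨q', _, hw⟩
    exact hw.1

/-- the number of visits to the hub along the run from an arbitrary state, modulo `n` -/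
theorem visits_any_H1 [Finite Q] [Finite Γ] (hcf : CF (absorb δ h)) (q : Q) (n r : ℕ)
    (hn : 0 < n) : Hk 1 (ofPred fun w : List Γ => visits δ h q w % n = r) := by
  have : NeZero n := ⟨by omega⟩
  have hm : Meas 1 (fun w : List Γ => (visits δ h h w : ZMod n)) :=
    Meas.of_mod n (visits_H1 δ h hcf n)
  have hL := hm.pred (fun x : ZMod n => (x + 1).val = r)
  have h0 : Hk 1 (ofPred fun w : List Γ => visits δ h q w = 0 ∧ 0 % n = r) :=
    ((novisit_H1 δ h hcf q).inf (Hk_constP 1 (0 % n = r))).congr (fun w => by
      rw [Language.mem_inf]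
      exact Iff.rfl)
  have h1 := h0.add (Hk_enter δ h hcf q hL)
  refine h1.congr ?_
  intro w
  rw [Language.mem_add]
  have key : ∀ v : List Γ, (((visits δ h h v : ℕ) : ZMod n) + 1).val = (visits δ h h v + 1) % n := by
    intro v
    rw [← ZMod.val_natCast]
    push_cast
    rfl
  constructor
  · intro hw
    have hw' : visits δ h q w % n = r := hw
    by_cases hz : visits δ h q w = 0
    · refine Or.inl ⟨hz, ?_⟩
      rw [hz] at hw'
      exact hw'
    · obtain ⟨u, a, v, rfl, hu, ha⟩ := first_entry δ h w q hz
      refine Or.inr ⟨u, a, v, rfl, hu, ha, ?_⟩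
      rw [visits_cut δ h hu ha] at hw'
      show (((visits δ h h v : ℕ) : ZMod n) + 1).val = r
      rw [key, hw']
  · rintro (⟨hz, hr⟩ | ⟨u, a, v, rfl, hu, ha, hv⟩)
    · show visits δ h q w % n = r
      rw [hz]
      exact hr
    · show visits δ h q (u ++ a :: v) % n = r
      have hv' : (((visits δ h h v : ℕ) : ZMod n) + 1).val = r := hv
      rw [visits_cut δ h hu ha, ← key, hv']

/-- the number of visits in plain terms: the number of nonempty prefixes leading to the hub -/
theorem visits_eq_countP [DecidableEq Q] (w : List Γ) : ∀ q,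
    visits δ h q w = w.inits.tail.countP (fun v => decide (v.foldl δ q = h)) := by
  induction w with
  | nil => intro q; simp [visits_nil]
  | cons a w ih =>
    intro q
    have hin : ∀ l : List Γ, l.inits = [] :: l.inits.tail := by
      intro l
      cases l <;> simp
    rw [visits_cons, ih, List.inits_cons, List.tail_cons, List.countP_map, hin w,
      List.countP_cons]
    simp only [Function.comp_def, List.foldl_cons, List.foldl_nil, List.tail_cons]
    by_cases hb : δ q a = h
    · simp [hb, add_comm]
    · simp only [hb, if_false, decide_false, zero_add, Bool.false_eq_true, add_zero]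
      rfl

/-- the plain form of the hypothesis: a word cannot permute states non-trivially off the hub -/
theorem CF_of_plain [Finite Q]
    (hnc : ∀ (u : List Γ) (q : Q) (k : ℕ), 0 < k →
      (List.replicate k u).flatten.foldl δ q = q →
      (∀ v, v <+: (List.replicate k u).flatten → v.foldl δ q ≠ h) → u.foldl δ q = q) :
    CF (absorb δ h) := by
  apply CF_of_noCycle
  intro u x hx
  obtain ⟨hne, k, hk, e⟩ := hx
  have hU : act δ h (rep u k) x = x := by rw [act_rep, e]
  have hflat : ∀ j, (List.replicate j u).flatten = rep u j := by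
    intro j
    induction j with
    | zero => rfl
    | succ j ih => rw [List.replicate_succ, List.flatten_cons, ih, rep]
  have halive : ∀ v, v <+: rep u k → act δ h v x ≠ h := by
    rintro v ⟨t, ht⟩
    apply alive_prefix δ h (w := t)
    rw [ht, hU]
    exact hne
  have hrun : ∀ v, v <+: rep u k → run δ x v = act δ h v x :=
    fun v hv => (act_eq_run δ h v (halive v hv)).symm
  have hup : u <+: rep u k := by
    obtain ⟨k', rfl⟩ : ∃ k', k = k' + 1 := ⟨k - 1, by omega⟩
    exact ⟨rep u k', rfl⟩
  have h1 : run δ x u = x := by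
    refine hnc u x k hk ?_ ?_
    · rw [hflat]
      show run δ x (rep u k) = x
      rw [hrun _ (List.prefix_refl _), hU]
    · intro v hv
      rw [hflat] at hv
      show run δ x v ≠ h
      rw [hrun v hv]
      exact halive v hv
  rw [← hrun u hup]
  exact h1

/-- letters that move weakly downwards off the hub give a counter-free complement -/
theorem CF_of_le [PartialOrder Q] [Finite Q] (hle : ∀ q a, q ≠ h → δ q a ≤ q) :
    CF (absorb δ h) := by
  have hab : ∀ q a, absorb δ h q a ≤ q := by
    intro q a
    by_cases hq : q = h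
    · subst hq
      simp [absorb]
    · rw [absorb_of_ne δ h hq]
      exact hle q a hq
  have hact : ∀ (u : List Γ) q, act δ h u q ≤ q := by
    intro u
    induction u with
    | nil => intro q; exact le_refl _
    | cons a u ih => intro q; rw [act_cons]; exact (ih _).trans (hab q a)
  have hit : ∀ (u : List Γ) (j : ℕ) y, (act δ h u)^[j] y ≤ y := by
    intro u j
    induction j with
    | zero => intro y; exact le_refl _
    | succ j ih => intro y; rw [Function.iterate_succ_apply']; exact (hact u _).trans (ih y)
  apply CF_of_noCycle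
  intro u x hx
  obtain ⟨_, k, hk, e⟩ := hx
  obtain ⟨k', rfl⟩ : ∃ k', k = k' + 1 := ⟨k - 1, by omega⟩
  rw [Function.iterate_succ_apply] at e
  refine le_antisymm (hact u x) ?_
  calc x = (act δ h u)^[k'] (act δ h u x) := e.symm
    _ ≤ act δ h u x := hit u k' _

end anystart

section sym

variable {α : Type} [Finite α]

/-- permutations of `Fin (n + 1)` all of whose non-trivial moves off `0` go weakly upwards or to `0`
(the full cycle, the transposition `(0 1)`, every increasing cycle through `0`) -/
theorem main_forward (n : ℕ) (φ : α → Equiv.Perm (Fin (n + 1)))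
    (hφ : ∀ a (i : Fin (n + 1)), i ≠ 0 → φ a i = 0 ∨ i ≤ φ a i)
    (S : Set (Equiv.Perm (Fin (n + 1)))) :
    Hk 1 (ofPred fun w : List α => (w.map φ).prod ∈ S) := by
  set δ : Fin (n + 1) → α → Fin (n + 1) := fun q a => (φ a).symm q with hδ
  have hle : ∀ q a, q ≠ 0 → δ q a ≤ q := by
    intro q a hq
    by_cases hi : (φ a).symm q = 0
    · show (φ a).symm q ≤ q
      rw [hi]
      exact Fin.zero_le q
    · rcases hφ a _ hi with h1 | h1
      · rw [Equiv.apply_symm_apply] at h1
        exact absurd h1 hq
      · rw [Equiv.apply_symm_apply] at h1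
        exact h1
  have hcf : CF (absorb δ 0) := CF_of_le δ 0 hle
  have hrun : ∀ (w : List α) q, run δ q w = ((w.map φ).prod)⁻¹ q := by
    intro w
    induction w with
    | nil => intro q; simp [run_nil]
    | cons a w ih =>
      intro q
      rw [run_cons, ih, List.map_cons, List.prod_cons, mul_inv_rev, Equiv.Perm.mul_apply]
      rfl
  have hm : Meas 1 (fun w : List α => fun q : Fin (n + 1) => run δ q w) :=
    Meas.pi (fun q => fun q' => run_H1 δ 0 hcf q q')
  have h1 := hm.pred (fun f : Fin (n + 1) → Fin (n + 1) => ∃ g ∈ S, ∀ q, g⁻¹ q = f q)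
  refine h1.congr ?_
  intro w
  constructor
  · intro hw
    exact ⟨_, hw, fun q => (hrun w q).symm⟩
  · rintro ⟨g, hg, hgq⟩
    have : g⁻¹ = ((w.map φ).prod)⁻¹ := by
      ext q
      rw [hgq q, hrun]
    have hg' : g = (w.map φ).prod := inv_injective this
    show (w.map φ).prod ∈ S
    rw [← hg']
    exact hg

/-- the standard generators of the symmetric group -/
theorem main_standard (m : ℕ) (φ : α → Equiv.Perm (Fin (m + 2)))
    (hφ : ∀ a, φ a = finRotate (m + 2) ∨ φ a = Equiv.swap 0 1 ∨ φ a = 1)
    (S : Set (Equiv.Perm (Fin (m + 2)))) :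
    Hk 1 (ofPred fun w : List α => (w.map φ).prod ∈ S) := by
  refine main_forward (m + 1) φ ?_ S
  intro a i hi
  rcases hφ a with h1 | h1 | h1
  · rw [h1]
    by_cases hl : i = Fin.last (m + 1)
    · left
      rw [hl]
      exact finRotate_last
    · right
      rw [Fin.le_def, coe_finRotate_of_ne_last hl]
      omega
  · rw [h1]
    by_cases h2 : i = 1
    · left
      rw [h2]
      exact Equiv.swap_apply_right 0 1
    · right
      rw [Equiv.swap_apply_of_ne_of_ne hi h2]
  · right
    rw [h1]
    exact le_refl _

end sym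

end Vale.Agent.Lib.P329
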